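import Vale.Agent.P199.KPoly

/-! The leading class of a homogeneous prime and the cutting lemmas. -/

set_option linter.unusedSectionVars false

namespace Vale.Agent.P199

open Finsupp MvPolynomial Module

variable {σ ι : Type} [Fintype σ] [DecidableEq σ] [Fintype ι] [DecidableEq ι]

/-- The substitution `z i ↦ 1 - η i * τ`. -/
noncomputable def Th : MvPolynomial ι ℤ →+* Polynomial (MvPolynomial ι ℤ) :=
  eval₂Hom (Int.castRingHom _) (fun i => 1 - Polynomial.C (X i) * Polynomial.X)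

/-- The linear form attached to a degree. -/
noncomputable def ell (δ : ι →₀ ℕ) : MvPolynomial ι ℤ := ∑ i, (δ i : MvPolynomial ι ℤ) * X i

lemma Th_monomial (δ : ι →₀ ℕ) :
    ∃ g, Th (monomial δ (1 : ℤ)) = 1 - Polynomial.X * g ∧ g.coeff 0 = ell δ := by
  have hadd : ∀ a b : ι →₀ ℕ,
      (∃ g, Th (monomial a (1 : ℤ)) = 1 - Polynomial.X * g ∧ g.coeff 0 = ell a) →
      (∃ g, Th (monomial b (1 : ℤ)) = 1 - Polynomial.X * g ∧ g.coeff 0 = ell b) →
      ∃ g, Th (monomial (a + b) (1 : ℤ)) = 1 - Polynomial.X * g ∧ g.coeff 0 = ell (a + b) := by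
    rintro a b ⟨g1, h1, e1⟩ ⟨g2, h2, e2⟩
    refine ⟨g1 + g2 - Polynomial.X * (g1 * g2), ?_, ?_⟩
    · rw [show monomial (a + b) (1 : ℤ) = monomial a 1 * monomial b 1 by simp [monomial_mul],
        map_mul, h1, h2]
      ring
    · simp [e1, e2, ell, add_mul, Finset.sum_add_distrib]
  have hzero : ∃ g, Th (monomial (0 : ι →₀ ℕ) (1 : ℤ)) = 1 - Polynomial.X * g ∧
      g.coeff 0 = ell 0 := ⟨0, by simp, by simp [ell]⟩
  induction δ using Finsupp.induction_linear with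
  | zero => exact hzero
  | add a b ha hb => exact hadd a b ha hb
  | single i n =>
    induction n with
    | zero => simpa using hzero
    | succ n ih =>
      rw [single_add]
      refine hadd _ _ ih ⟨Polynomial.C (X i), ?_, ?_⟩
      · change Th (X i) = _
        rw [Th, eval₂Hom_X', mul_comm]
      · simp [ell, single_apply]

lemma Th_om (δ : ι →₀ ℕ) : ∃ g, Th (om δ) = Polynomial.X * g ∧ g.coeff 0 = ell δ := by
  obtain ⟨g, h1, h2⟩ := Th_monomial δ
  exact ⟨g, by rw [om, map_sub, h1]; simp, h2⟩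

lemma Th_prod_om {κ : Type} (s : Finset κ) (d : κ → ι →₀ ℕ) :
    ∃ g, Th (∏ j ∈ s, om (d j)) = Polynomial.X ^ s.card * g ∧ g.coeff 0 = ∏ j ∈ s, ell (d j) := by
  classical
  induction s using Finset.induction_on with
  | empty => exact ⟨1, by simp, by simp⟩
  | insert j s hj ih =>
    obtain ⟨g, h1, h2⟩ := ih
    obtain ⟨g', k1, k2⟩ := Th_om (d j)
    refine ⟨g' * g, ?_, ?_⟩
    · rw [Finset.prod_insert hj, map_mul, h1, k1, Finset.card_insert_of_notMem hj]; ring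
    · rw [Finset.prod_insert hj, Polynomial.mul_coeff_zero, h2, k2]

lemma coeff_X_pow_mul0 {A : Type} [CommRing A] (g : Polynomial A) (c : ℕ) :
    (Polynomial.X ^ c * g).coeff c = g.coeff 0 := by
  simpa using Polynomial.coeff_X_pow_mul g c 0

lemma lead_mul {A : Type} [CommRing A] {f g : Polynomial A} {c c' : ℕ}
    (hf : Polynomial.X ^ c ∣ f) (hg : Polynomial.X ^ c' ∣ g) :
    (f * g).coeff (c + c') = f.coeff c * g.coeff c' := by
  obtain ⟨f, rfl⟩ := hf
  obtain ⟨g, rfl⟩ := hg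
  rw [show Polynomial.X ^ c * f * (Polynomial.X ^ c' * g) = Polynomial.X ^ (c + c') * (f * g) by
    ring, coeff_X_pow_mul0, coeff_X_pow_mul0, coeff_X_pow_mul0, Polynomial.mul_coeff_zero]

lemma lead_monomial_mul (δ : ι →₀ ℕ) {f : Polynomial (MvPolynomial ι ℤ)} {c : ℕ}
    (hf : Polynomial.X ^ c ∣ f) : (Th (monomial δ (1 : ℤ)) * f).coeff c = f.coeff c := by
  obtain ⟨g, h1, -⟩ := Th_monomial δ
  have := lead_mul (f := Th (monomial δ (1 : ℤ))) (c := 0) (by simp) hf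
  rw [zero_add] at this
  rw [this, h1]; simp

lemma numSpan_lead (w : σ → ι →₀ ℕ) (Q : Finset σ → Prop) (c : ℕ)
    (hc : ∀ F, Q F → c + F.card ≤ Fintype.card σ) {K : MvPolynomial ι ℤ} (hK : K ∈ numSpan w Q) :
    Polynomial.X ^ c ∣ Th K ∧ (Th K).coeff c ∈ Ideal.span
      {P | ∃ F, Q F ∧ c + F.card = Fintype.card σ ∧ P = ∏ j ∈ Fᶜ, ell (w j)} := by
  induction hK using Submodule.span_induction with
  | mem x hx =>
    obtain ⟨F, hF, rfl⟩ := hx
    obtain ⟨g, h1, h2⟩ := Th_prod_om Fᶜ w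
    have h3 := hc F hF
    have h4 := Finset.card_add_card_compl F
    refine ⟨h1 ▸ Dvd.dvd.mul_right (pow_dvd_pow _ (by omega)) _, ?_⟩
    by_cases h : c + F.card = Fintype.card σ
    · have : Fᶜ.card = c := by omega
      rw [h1, this, coeff_X_pow_mul0, h2]
      exact Ideal.subset_span ⟨F, hF, h, rfl⟩
    · have : Polynomial.X ^ (c + 1) ∣ Th (∏ j ∈ Fᶜ, om (w j)) :=
        h1 ▸ Dvd.dvd.mul_right (pow_dvd_pow _ (by omega)) _
      rw [Polynomial.X_pow_dvd_iff.1 this c (by omega)]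
      exact Ideal.zero_mem _
  | zero => simp
  | add x y _ _ hx hy =>
    rw [map_add, Polynomial.coeff_add]
    exact ⟨dvd_add hx.1 hy.1, Ideal.add_mem _ hx.2 hy.2⟩
  | smul a x _ hx =>
    rw [smul_eq_mul, map_mul]
    refine ⟨Dvd.dvd.mul_left hx.1 _, ?_⟩
    have := lead_mul (f := Th a) (c := 0) (by simp) hx.1
    rw [zero_add] at this
    rw [this]
    exact Ideal.mul_mem_left _ _ hx.2

/-- A homogeneous prime of codimension `c` whose class is outside the ideal `I`. -/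
structure Good (w : σ → ι →₀ ℕ) (I : Ideal (MvPolynomial ι ℤ)) (p : Ideal (MvPolynomial σ ℚ))
    (c : ℕ) : Prop where
  prime : p.IsPrime
  homog : IHomog w p
  codim : c + dm p = Fintype.card σ
  cls : (Th (kp w p)).coeff c ∉ I

variable {w : σ → ι →₀ ℕ} (hw : ∀ j, w j ≠ 0)
include hw

lemma dvd_of_codim {a : Ideal (MvPolynomial σ ℚ)} (ha : IHomog w a) {c : ℕ}
    (hc : c + dm a ≤ Fintype.card σ) : Polynomial.X ^ c ∣ Th (kp w a) :=
  (numSpan_lead w _ c (fun F hF => by have := Indep.card_le hF; omega) (kp_spec hw ha).1).1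

theorem exists_good (I : Ideal (MvPolynomial ι ℤ)) (c : ℕ) (a : Ideal (MvPolynomial σ ℚ)) :
    IHomog w a → (∀ q : Ideal (MvPolynomial σ ℚ), q.IsPrime → a ≤ q →
      c + dm q ≤ Fintype.card σ) → Polynomial.X ^ c ∣ Th (kp w a) ∧
      ((Th (kp w a)).coeff c ∉ I → ∃ q, a ≤ q ∧ Good w I q c) := by
  induction a using IsNoetherian.induction with
  | hgt a ih =>
  intro ha hc
  by_cases htop : a = ⊤
  · subst htop; simp [kp_top]
  by_cases hp : Ideal.IsPrime a
  · have h1 := hc a hp le_rfl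
    refine ⟨dvd_of_codim hw ha h1, fun h => ⟨a, le_rfl, hp, ha, ?_, h⟩⟩
    by_contra hne
    have := dvd_of_codim hw ha (c := c + 1) (by omega)
    rw [Polynomial.X_pow_dvd_iff.1 this c (by omega)] at h
    exact h I.zero_mem
  obtain ⟨γ, δ, f, g, hf, hg, hfg, hfa, hga⟩ := isPrime_of_homog hw ha htop hp
  obtain ⟨h1, h2, h3⟩ := colon_facts hw ha hf
  have l1 : a ≤ a ⊔ Ideal.span {f} := le_sup_left
  have l2 : a ≤ col a f := fun s hs => mem_col.2 (Ideal.mul_mem_right _ a hs)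
  obtain ⟨d1, e1⟩ := ih (a ⊔ Ideal.span {f}) (lt_of_le_of_ne l1 fun h => hfa
    (h ▸ Ideal.mem_sup_right (Ideal.mem_span_singleton_self f))) h1
    fun q hq hle => hc q hq (l1.trans hle)
  obtain ⟨d2, e2⟩ := ih (col a f) (lt_of_le_of_ne l2 fun h => hga
    (h ▸ mem_col.2 (mul_comm f g ▸ hfg))) h2 fun q hq hle => hc q hq (l2.trans hle)
  rw [h3, map_add, map_mul]
  refine ⟨dvd_add d1 (Dvd.dvd.mul_left d2 _), fun h => ?_⟩
  rw [Polynomial.coeff_add, lead_monomial_mul _ d2] at h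
  by_cases k1 : (Th (kp w (a ⊔ Ideal.span {f}))).coeff c ∈ I
  · obtain ⟨q, hq, hq'⟩ := e2 fun k2 => h (I.add_mem k1 k2)
    exact ⟨q, l2.trans hq, hq'⟩
  · obtain ⟨q, hq, hq'⟩ := e1 k1
    exact ⟨q, l1.trans hq, hq'⟩

/-- A homogeneous ideal strictly containing a prime of codimension `c` is negligible. -/
lemma dvd_succ_of_gt {p a : Ideal (MvPolynomial σ ℚ)} [p.IsPrime] {c : ℕ}
    (hc : c + dm p = Fintype.card σ) (ha : IHomog w a) (hpa : p ≤ a) {f : MvPolynomial σ ℚ}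
    (hfa : f ∈ a) (hfp : f ∉ p) : Polynomial.X ^ (c + 1) ∣ Th (kp w a) :=
  (exists_good hw ⊤ (c + 1) a ha fun q hq hle => by
    have := dm_lt (hpa.trans hle) (hle hfa) hfp
    omega).1

theorem Good.cut {I I' : Ideal (MvPolynomial ι ℤ)} {p : Ideal (MvPolynomial σ ℚ)} {c : ℕ}
    (h : Good w I p c) {f : MvPolynomial σ ℚ} {δ : ι →₀ ℕ} (hf : IsWeightedHomogeneous w f δ)
    (hfp : f ∉ p) (hI : ∀ x, ell δ * x ∈ I' → x ∈ I) :
    ∃ q, p ≤ q ∧ f ∈ q ∧ Good w I' q (c + 1) := by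
  have := h.prime
  obtain ⟨h1, h2, h3⟩ := colon_facts hw h.homog hf
  have e : col p f = p := by
    ext s
    rw [mem_col, h.prime.mul_mem_iff_mem_or_mem]
    tauto
  rw [e] at h3
  have e2 : kp w (p ⊔ Ideal.span {f}) = om δ * kp w p := by
    rw [om]; linear_combination -h3
  have hfa : f ∈ p ⊔ Ideal.span {f} := Ideal.mem_sup_right (Ideal.mem_span_singleton_self f)
  obtain ⟨q, hq, hq'⟩ := (exists_good hw I' (c + 1) _ h1 fun q hq hle => by
    have := dm_lt (le_sup_left.trans hle) (hle hfa) hfp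
    have := h.codim
    omega).2 (by
      obtain ⟨g, k1, k2⟩ := Th_om δ
      rw [e2, map_mul, add_comm, lead_mul (c := 1) (k1 ▸ by simp)
        (dvd_of_codim hw h.homog h.codim.le), k1]
      intro hh
      apply h.cls
      apply hI
      rw [← k2]
      simpa using hh)
  exact ⟨q, le_sup_left.trans hq, hq hfa, hq'⟩

theorem Good.multi_cut {κ : Type} [DecidableEq κ] (J : Finset κ → Ideal (MvPolynomial ι ℤ))
    (f : κ → MvPolynomial σ ℚ) (δ : κ → ι →₀ ℕ) (s : Finset κ)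
    (hf : ∀ j ∈ s, IsWeightedHomogeneous w (f j) (δ j))
    (hJ : ∀ j ∈ s, ∀ t, j ∉ t → J (insert j t) ≤ J t ∧
      ∀ x, ell (δ j) * x ∈ J (insert j t) → x ∈ J t)
    {p : Ideal (MvPolynomial σ ℚ)} {c : ℕ} (h : Good w (J ∅) p c) :
    ∃ q c', p ≤ q ∧ (∀ j ∈ s, f j ∈ q) ∧ c' ≤ c + s.card ∧ Good w (J s) q c' := by
  induction s using Finset.induction_on with
  | empty => exact ⟨p, c, le_rfl, by simp, by simp, h⟩
  | insert j s hj ih =>
    obtain ⟨q, c', h1, h2, h3, h4⟩ := ih (fun i hi => hf i (Finset.mem_insert_of_mem hi))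
      (fun i hi => hJ i (Finset.mem_insert_of_mem hi))
    obtain ⟨k1, k2⟩ := hJ j (Finset.mem_insert_self _ _) s hj
    rw [Finset.card_insert_of_notMem hj]
    by_cases hq : f j ∈ q
    · refine ⟨q, c', h1, ?_, by omega, h4.prime, h4.homog, h4.codim, fun hh => h4.cls (k1 hh)⟩
      intro i hi
      rcases Finset.mem_insert.1 hi with rfl | hi
      exacts [hq, h2 i hi]
    · obtain ⟨q', l1, l2, l3⟩ := h4.cut hw (hf j (Finset.mem_insert_self _ _)) hq k2
      refine ⟨q', c' + 1, h1.trans l1, ?_, by omega, l3⟩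
      intro i hi
      rcases Finset.mem_insert.1 hi with rfl | hi
      exacts [l2, l1 (h2 i hi)]

theorem Good.multi_cut_prime {κ : Type} [DecidableEq κ] {I : Ideal (MvPolynomial ι ℤ)}
    (hI : I.IsPrime) (f : κ → MvPolynomial σ ℚ) (δ : κ → ι →₀ ℕ) (s : Finset κ)
    (hf : ∀ j ∈ s, IsWeightedHomogeneous w (f j) (δ j)) (hδ : ∀ j ∈ s, ell (δ j) ∉ I)
    {p : Ideal (MvPolynomial σ ℚ)} {c : ℕ} (h : Good w I p c) :
    ∃ q c', p ≤ q ∧ (∀ j ∈ s, f j ∈ q) ∧ c' ≤ c + s.card ∧ Good w I q c' :=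
  Good.multi_cut hw (fun _ => I) f δ s hf
    (fun j hj _ _ => ⟨le_rfl, fun _ hx => (hI.mem_or_mem hx).resolve_left (hδ j hj)⟩) h

lemma good_bot {I : Ideal (MvPolynomial ι ℤ)} (hI : I ≠ ⊤) : Good w I ⊥ 0 where
  prime := Ideal.isPrime_bot
  homog := ihomog_bot w
  codim := by rw [dm_bot, zero_add]
  cls := by rw [kp_bot w hw]; simpa using (Ideal.ne_top_iff_one I).1 hI

/-- A good prime lies in the ideal of the fixed locus. -/
theorem Good.map_eq_zero {I : Ideal (MvPolynomial ι ℤ)} (hI : I.IsPrime)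
    {p : Ideal (MvPolynomial σ ℚ)} {c : ℕ} (h : Good w I p c) {T : Type} [CommRing T]
    (ψ : MvPolynomial σ ℚ →+* T) (hψ : ∀ j, ell (w j) ∉ I → ψ (X j) = 0)
    {f : MvPolynomial σ ℚ} (hf : f ∈ p) : ψ f = 0 := by
  classical
  obtain ⟨q, c', h1, h2, -, h4⟩ := Good.multi_cut_prime hw hI (fun j => X j) w
    (Finset.univ.filter fun j => ell (w j) ∉ I) (fun j _ => isWeightedHomogeneous_X ℚ w j)
    (fun j hj => (Finset.mem_filter.1 hj).2) h
  have h5 := (numSpan_lead w _ c' (fun F hF => by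
    have := Indep.card_le hF; have := h4.codim; omega) (kp_spec hw h4.homog).1).2
  have h6 : ∃ F, Indep (q.restrictScalars ℚ) F ∧ ∏ j ∈ Fᶜ, ell (w j) ∉ I := by
    by_contra hh
    push Not at hh
    apply h4.cls
    refine (Ideal.span_le.2 ?_) h5
    rintro _ ⟨F, hF, -, rfl⟩
    exact hh F hF
  obtain ⟨F, hF, hF'⟩ := h6
  have h7 : ∀ j, j ∉ F → ell (w j) ∉ I := fun j hj hh =>
    hF' (I.prod_mem (Finset.mem_compl.2 hj) hh)
  have hsplit := Finset.sum_filter_add_sum_filter_not f.support (fun α => α.support ⊆ F)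
    (fun α => monomial α (coeff α f))
  rw [← f.as_sum] at hsplit
  have h8 : ∀ α ∈ f.support.filter (fun α => ¬ α.support ⊆ F),
      ∃ j, ell (w j) ∉ I ∧ X j ∣ monomial α (coeff α f) := by
    intro α hα
    obtain ⟨j, hj, hj'⟩ := Finset.not_subset.1 (Finset.mem_filter.1 hα).2
    exact ⟨j, h7 j hj', X_dvd_monomial.2 (Or.inr (Finsupp.mem_support_iff.1 hj))⟩
  have h9 : ∑ α ∈ f.support.filter (fun α => α.support ⊆ F), monomial α (coeff α f) = 0 := by
    apply hF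
    · rw [Submodule.restrictScalars_mem, eq_sub_of_add_eq hsplit]
      refine q.sub_mem (h1 hf) (q.sum_mem fun α hα => ?_)
      obtain ⟨j, hj, g, hg⟩ := h8 α hα
      rw [hg]
      exact q.mul_mem_right _ (h2 j (by simpa using hj))
    · intro α hα
      obtain ⟨β, hβ, hα'⟩ := Finset.mem_biUnion.1 (MvPolynomial.support_sum hα)
      rw [Finset.mem_singleton.1 (support_monomial_subset hα')]
      exact (Finset.mem_filter.1 hβ).2
  rw [← hsplit, h9, zero_add, map_sum]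
  refine Finset.sum_eq_zero fun α hα => ?_
  obtain ⟨j, hj, g, hg⟩ := h8 α hα
  rw [hg, map_mul, hψ j hj, zero_mul]

end Vale.Agent.P199
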