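import Mathlib

/-! Counting series of lower sets of exponent vectors. -/

set_option linter.unusedSectionVars false

namespace Vale.Agent.P199

open Finsupp

variable {σ ι : Type} [Fintype σ] [DecidableEq σ] [Fintype ι] [DecidableEq ι]

/-- Generating series of a set of exponent vectors with respect to the weights `w`. -/
noncomputable def cnt (w : σ → ι →₀ ℕ) (S : Set (σ →₀ ℕ)) : MvPowerSeries ι ℤ :=
  fun γ => ((S ∩ {α | weight w α = γ}).ncard : ℤ)

lemma coeff_cnt (w : σ → ι →₀ ℕ) (S : Set (σ →₀ ℕ)) (γ : ι →₀ ℕ) :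
    MvPowerSeries.coeff γ (cnt w S) = ((S ∩ {α | weight w α = γ}).ncard : ℤ) := rfl

lemma finite_fiber (w : σ → ι →₀ ℕ) (hw : ∀ j, w j ≠ 0) (γ : ι →₀ ℕ) :
    {α : σ →₀ ℕ | weight w α = γ}.Finite := by
  have h1 : ∀ j, degree (w j) ≠ 0 := fun j h => hw j ((degree_eq_zero_iff _).1 h)
  refine (finite_of_nat_weight_eq (fun j => degree (w j)) h1 (degree γ)).subset ?_
  intro α hα
  simp only [Set.mem_ofPred_eq] at hα ⊢
  rw [← hα, weight_eq_sum, weight_eq_sum, map_sum]
  simp

/-- The factor `1 - z ^ δ`. -/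
noncomputable def om (δ : ι →₀ ℕ) : MvPolynomial ι ℤ := 1 - MvPolynomial.monomial δ 1

/-- Exponent vectors supported on `F`. -/
def cone (F : Finset σ) : Set (σ →₀ ℕ) := {α | α.support ⊆ F}

lemma cnt_split (w : σ → ι →₀ ℕ) (hw : ∀ j, w j ≠ 0) (S : Set (σ →₀ ℕ)) (j : σ) :
    cnt w S = cnt w {α | α ∈ S ∧ α j = 0} +
      MvPowerSeries.monomial (w j) 1 * cnt w {α | α + single j 1 ∈ S} := by
  ext γ
  rw [map_add, MvPowerSeries.coeff_monomial_mul, coeff_cnt, coeff_cnt]
  have hfin := finite_fiber w hw γ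
  have hsplit : (S ∩ {α | weight w α = γ}) =
      ({α | α ∈ S ∧ α j = 0} ∩ {α | weight w α = γ}) ∪
        ({α | α ∈ S ∧ α j ≠ 0} ∩ {α | weight w α = γ}) := by
    ext α; simp only [Set.mem_inter_iff, Set.mem_ofPred_eq, Set.mem_union]; tauto
  rw [hsplit, Set.ncard_union_eq _ (hfin.subset Set.inter_subset_right)
    (hfin.subset Set.inter_subset_right)]
  swap
  · rw [Set.disjoint_left]; rintro α ⟨⟨-, h⟩, -⟩ ⟨⟨-, h'⟩, -⟩; exact h' h
  push_cast
  congr 1
  split_ifs with hle
  · rw [one_mul, coeff_cnt]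
    congr 1
    symm
    apply Set.ncard_congr (fun α _ => α + single j 1)
    · rintro α ⟨h1, h2⟩
      refine ⟨⟨h1, by simp⟩, ?_⟩
      simp only [Set.mem_ofPred_eq] at h2 ⊢
      rw [map_add, h2, weight_single, one_smul, tsub_add_cancel_of_le hle]
    · intro a b _ _ h
      exact add_right_cancel h
    · rintro β ⟨⟨h1, h2⟩, h3⟩
      have hβ : β - single j 1 + single j 1 = β := by
        apply tsub_add_cancel_of_le
        rw [single_le_iff]; omega
      refine ⟨β - single j 1, ⟨?_, ?_⟩, hβ⟩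
      · simpa [hβ] using h1
      · simp only [Set.mem_ofPred_eq] at h3 ⊢
        rw [← h3, ← weight_sub_single_add (w := w) h2, add_tsub_cancel_right]
  · have : ({α | α ∈ S ∧ α j ≠ 0} ∩ {α | weight w α = γ}) = ∅ := by
      ext α
      simp only [Set.mem_inter_iff, Set.mem_ofPred_eq, Set.mem_empty_iff_false, iff_false, not_and]
      rintro ⟨-, h2⟩ h3
      exact hle (h3 ▸ le_weight_of_ne_zero' w h2)
    simp [this]

lemma coe_om (δ : ι →₀ ℕ) :
    ((om δ : MvPolynomial ι ℤ) : MvPowerSeries ι ℤ) = 1 - MvPowerSeries.monomial δ 1 := by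
  rw [om, ← MvPolynomial.coeToMvPowerSeries.ringHom_apply, map_sub, map_one,
    MvPolynomial.coeToMvPowerSeries.ringHom_apply, MvPolynomial.coe_monomial]

lemma cnt_cone (w : σ → ι →₀ ℕ) (hw : ∀ j, w j ≠ 0) (F : Finset σ) :
    cnt w (cone F) * ∏ j ∈ F, ((om (w j) : MvPolynomial ι ℤ) : MvPowerSeries ι ℤ) = 1 := by
  induction F using Finset.induction_on with
  | empty =>
    rw [Finset.prod_empty, mul_one]
    ext γ
    rw [coeff_cnt, MvPowerSeries.coeff_one]
    split_ifs with h
    · have : (cone (∅ : Finset σ) ∩ {α | weight w α = γ}) = {0} := by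
        ext α; simp only [cone, Set.mem_inter_iff, Set.mem_ofPred_eq, Finset.subset_empty,
          support_eq_empty, Set.mem_singleton_iff]
        constructor
        · exact fun h => h.1
        · rintro rfl; simp [h]
      simp [this]
    · have : (cone (∅ : Finset σ) ∩ {α | weight w α = γ}) = ∅ := by
        ext α; simp only [cone, Set.mem_inter_iff, Set.mem_ofPred_eq, Finset.subset_empty,
          support_eq_empty, Set.mem_empty_iff_false, iff_false, not_and]
        rintro rfl h'
        exact h (by simpa using h'.symm)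
      simp [this]
  | insert j F hj ih =>
    rw [Finset.prod_insert hj, ← mul_assoc, ← ih]
    congr 1
    have h := cnt_split w hw (cone (insert j F)) j
    have h1 : {α : σ →₀ ℕ | α ∈ cone (insert j F) ∧ α j = 0} = cone F := by
      ext α
      simp only [cone, Set.mem_ofPred_eq]
      constructor
      · rintro ⟨h1, h2⟩ i hi
        have := h1 hi
        rw [Finset.mem_insert] at this
        rcases this with rfl | h
        · exact absurd h2 (mem_support_iff.1 hi)
        · exact h
      · intro h1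
        refine ⟨h1.trans (Finset.subset_insert _ _), ?_⟩
        by_contra h2
        exact hj (h1 (mem_support_iff.2 h2))
    have h2 : {α : σ →₀ ℕ | α + single j 1 ∈ cone (insert j F)} = cone (insert j F) := by
      ext α
      simp only [cone, Set.mem_ofPred_eq]
      constructor
      · intro h1 i hi
        apply h1
        rw [mem_support_iff] at hi ⊢
        simp only [coe_add, Pi.add_apply]; omega
      · intro h1 i hi
        by_cases hij : i = j
        · simp [hij]
        · apply h1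
          rw [mem_support_iff] at hi ⊢
          simpa [single_apply, Ne.symm hij] using hi
    rw [h1, h2] at h
    rw [coe_om]
    linear_combination h

lemma wf_lower : WellFounded (fun S T : {S : Set (σ →₀ ℕ) // IsLowerSet S} => S.1 ⊂ T.1) := by
  rw [wellFounded_iff_isEmpty_descending_chain]
  refine ⟨fun ⟨f, hf⟩ => ?_⟩
  have h1 : ∀ n, ∃ a, a ∈ (f n).1 ∧ a ∉ (f (n + 1)).1 := fun n => Set.exists_of_ssubset (hf n)
  choose a ha hb using h1
  have hanti : Antitone (fun n => (f n).1) := antitone_nat_of_succ_le fun n => (hf n).1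
  obtain ⟨m, n, hmn, hle⟩ := wellQuasiOrdered_le (α := σ →₀ ℕ) a
  exact hb m ((f (m + 1)).2 hle (hanti (Nat.succ_le_of_lt hmn) (ha n)))

/-- The ideal in which the numerator of the counting series of `S` lies. -/
noncomputable def numSpan (w : σ → ι →₀ ℕ) (Q : Finset σ → Prop) : Ideal (MvPolynomial ι ℤ) :=
  Ideal.span {P | ∃ F, Q F ∧ P = ∏ j ∈ Fᶜ, om (w j)}

lemma numSpan_mono (w : σ → ι →₀ ℕ) {Q Q' : Finset σ → Prop} (h : ∀ F, Q F → Q' F) :
    numSpan w Q ≤ numSpan w Q' :=
  Ideal.span_mono fun _ ⟨F, hF, hP⟩ => ⟨F, h F hF, hP⟩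

theorem exists_num (w : σ → ι →₀ ℕ) (hw : ∀ j, w j ≠ 0) (S : Set (σ →₀ ℕ)) (hS : IsLowerSet S) :
    ∃ K ∈ numSpan w (fun F => cone F ⊆ S), (K : MvPowerSeries ι ℤ) =
      cnt w S * ∏ j, ((om (w j) : MvPolynomial ι ℤ) : MvPowerSeries ι ℤ) := by
  suffices H : ∀ T : {S : Set (σ →₀ ℕ) // IsLowerSet S}, ∃ K ∈ numSpan w (fun F => cone F ⊆ T.1),
      (K : MvPowerSeries ι ℤ) =
      cnt w T.1 * ∏ j, ((om (w j) : MvPolynomial ι ℤ) : MvPowerSeries ι ℤ) from H ⟨S, hS⟩
  intro T
  refine wf_lower.induction (C := fun T : {S : Set (σ →₀ ℕ) // IsLowerSet S} =>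
    ∃ K ∈ numSpan w (fun F => cone F ⊆ T.1), (K : MvPowerSeries ι ℤ) =
      cnt w T.1 * ∏ j, ((om (w j) : MvPolynomial ι ℤ) : MvPowerSeries ι ℤ)) T ?_
  clear T
  intro T ih
  obtain ⟨S, hS⟩ := T
  by_cases h0 : (0 : σ →₀ ℕ) ∈ S
  swap
  · have : S = ∅ := by
      ext α
      simp only [Set.mem_empty_iff_false, iff_false]
      exact fun h => h0 (hS (zero_le) h)
    refine ⟨0, Ideal.zero_mem _, ?_⟩
    have h2 : cnt w S = 0 := by ext γ; rw [coeff_cnt]; simp [this]
    simp [h2]
  by_cases h : ∃ j α, single j 1 ∈ S ∧ α ∈ S ∧ α + single j 1 ∉ S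
  · obtain ⟨j, α, h1, h2, h3⟩ := h
    have hl1 : IsLowerSet {α : σ →₀ ℕ | α ∈ S ∧ α j = 0} := by
      rintro a b hab ⟨ha, ha'⟩
      exact ⟨hS hab ha, by have := hab j; omega⟩
    have hl2 : IsLowerSet {α : σ →₀ ℕ | α + single j 1 ∈ S} := by
      intro a b hab ha
      exact hS (add_le_add_left hab _) ha
    have hs2 : {α : σ →₀ ℕ | α + single j 1 ∈ S} ⊆ S := fun a ha => hS le_self_add ha
    obtain ⟨K1, hK1, e1⟩ := ih ⟨_, hl1⟩ ⟨fun a ha => ha.1, fun hh => by simpa using (hh h1).2⟩
    obtain ⟨K2, hK2, e2⟩ := ih ⟨_, hl2⟩ ⟨hs2, fun hh => h3 (hh h2)⟩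
    refine ⟨K1 + MvPolynomial.monomial (w j) 1 * K2, Ideal.add_mem _ ?_ (Ideal.mul_mem_left _ _ ?_), ?_⟩
    · exact numSpan_mono w (fun F hF a ha => (hF ha).1) hK1
    · exact numSpan_mono w (fun F hF => hF.trans hs2) hK2
    · rw [MvPolynomial.coe_add, MvPolynomial.coe_mul, e1, e2, MvPolynomial.coe_monomial,
        cnt_split w hw S j]
      ring
  · push Not at h
    classical
    set F : Finset σ := Finset.univ.filter (fun j => single j 1 ∈ S) with hF
    have hSF : S = cone F := by
      ext α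
      constructor
      · intro hα j hj
        simp only [hF, Finset.mem_filter, Finset.mem_univ, true_and]
        refine hS ?_ hα
        rw [single_le_iff]
        exact Nat.one_le_iff_ne_zero.2 (mem_support_iff.1 hj)
      · intro hα
        induction hn : degree α generalizing α with
        | zero => rw [(degree_eq_zero_iff _).1 hn]; exact h0
        | succ n ihn =>
          have hne : α ≠ 0 := by rintro rfl; simp at hn
          obtain ⟨j, hj⟩ := support_nonempty_iff.2 hne
          have hj' := mem_support_iff.1 hj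
          have hβ : α - single j 1 + single j 1 = α := by
            apply tsub_add_cancel_of_le
            rw [single_le_iff]; omega
          have hjS : single j 1 ∈ S := by simpa [hF] using hα hj
          rw [← hβ]
          refine h j _ hjS (ihn _ ?_ ?_)
          · exact (support_mono tsub_le_self).trans hα
          · have := congrArg degree hβ
            rw [map_add, degree_single, hn] at this
            omega
    refine ⟨∏ j ∈ Fᶜ, om (w j), Ideal.subset_span ⟨F, hSF.ge, rfl⟩, ?_⟩
    rw [← Finset.prod_mul_prod_compl F, ← mul_assoc]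
    simp only
    rw [hSF, cnt_cone w hw, one_mul, ← MvPolynomial.coeToMvPowerSeries.ringHom_apply, map_prod]
    rfl

end Vale.Agent.P199
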