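import Vale.Agent.P199.Graded

/-! Transcendence degree as a dimension for finitely generated domains. -/

set_option linter.unusedSectionVars false

namespace Vale.Agent.P199

open Finsupp MvPolynomial Module Cardinal

/-- Transcendence degree over the rationals, as a natural number. -/
noncomputable def td (A : Type) [CommRing A] [Algebra ℚ A] : ℕ := (Algebra.trdeg ℚ A).toNat

section
variable {A B : Type} [CommRing A] [Algebra ℚ A] [CommRing B] [Algebra ℚ B]

lemma card_le_td [Algebra.FiniteType ℚ A] {κ : Type} [Fintype κ] {x : κ → A}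
    (hx : AlgebraicIndependent ℚ x) : Fintype.card κ ≤ td A := by
  have h := hx.cardinalMk_le_trdeg
  have := Cardinal.toNat_le_toNat h (trdeg_lt_aleph0_of_finiteType (R := ℚ) (S := A))
  simpa [td] using this

lemma td_eq_card [IsDomain A] {κ : Type} [Fintype κ] {x : κ → A}
    (hx : IsTranscendenceBasis ℚ x) : td A = Fintype.card κ := by
  rw [td, ← hx.cardinalMk_eq_trdeg]; simp

lemma exists_basis_gen [IsDomain A] {σ : Type} [Fintype σ] (ξ : σ → A)
    (hξ : Function.Surjective (aeval ξ : MvPolynomial σ ℚ →ₐ[ℚ] A)) :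
    ∃ F : Finset σ, IsTranscendenceBasis ℚ (fun j : F => ξ j) := by
  classical
  have htop : Algebra.adjoin ℚ (Set.range ξ) = ⊤ := by
    rw [Algebra.adjoin_range_eq_range_aeval, AlgHom.range_eq_top]; exact hξ
  have : Algebra.IsAlgebraic (Algebra.adjoin ℚ (Set.range ξ)) A := by
    constructor
    intro a
    exact isAlgebraic_algebraMap (⟨a, by rw [htop]; trivial⟩ : Algebra.adjoin ℚ (Set.range ξ))
  obtain ⟨t, ht, hb⟩ := exists_isTranscendenceBasis_subset (R := ℚ) (Set.range ξ)
  choose g hg using fun a : t => ht a.2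
  have hginj : Function.Injective g := fun a b h => Subtype.ext (by rw [← hg a, ← hg b, h])
  refine ⟨Finset.univ.filter (fun j => j ∈ Set.range g), ?_⟩
  let e : t ≃ (Finset.univ.filter (fun j => j ∈ Set.range g) : Finset σ) :=
    (Equiv.ofInjective g hginj).trans (Equiv.subtypeEquivRight (by simp))
  refine (isTranscendenceBasis_equiv' e ?_).1 hb
  ext a
  simp [e, hg]

lemma td_lt_of_surjective [IsDomain A] [IsDomain B] [Algebra.FiniteType ℚ A]
    (f : A →ₐ[ℚ] B) (hf : Function.Surjective f) {a : A} (ha : a ≠ 0) (hfa : f a = 0) :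
    td B < td A := by
  have : Algebra.FiniteType ℚ B := .of_surjective f hf
  obtain ⟨s, hs⟩ := exists_isTranscendenceBasis ℚ B
  have hfin : Finite s := by
    rw [← Cardinal.mk_lt_aleph0_iff, hs.cardinalMk_eq_trdeg]
    exact trdeg_lt_aleph0_of_finiteType
  have := Fintype.ofFinite s
  choose g hg using fun b : s => hf b.1
  have hcomp : f ∘ g = ((↑) : s → B) := funext hg
  have hind : AlgebraicIndependent ℚ g := AlgebraicIndependent.of_comp f (hcomp ▸ hs.1)
  have htr : Transcendental (Algebra.adjoin ℚ (Set.range g)) a := by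
    intro halg
    obtain ⟨r, hr, c, hc⟩ := halg.exists_nonzero_dvd (mem_nonZeroDivisors_of_ne_zero ha)
    obtain ⟨r, hr'⟩ := r
    rw [Algebra.adjoin_range_eq_range_aeval] at hr'
    obtain ⟨P, rfl⟩ := hr'
    have h1 : f (aeval g P) = 0 := by
      have : aeval g P = a * c := hc
      rw [this, map_mul, hfa, zero_mul]
    rw [← AlgHom.comp_apply, comp_aeval] at h1
    have h2 : P = 0 := hs.1.eq_zero_of_aeval_eq_zero P (by rw [← hcomp]; exact h1)
    apply hr
    ext
    simp [h2]
  have h := card_le_td (AlgebraicIndependent.option_iff.2 ⟨hind, htr⟩)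
  rw [Fintype.card_option] at h
  rw [td_eq_card hs]
  exact lt_of_lt_of_le (Nat.lt_succ_of_le (Fintype.card_congr (Equiv.refl _)).le) h

end

variable {σ : Type} [Fintype σ] [DecidableEq σ]

/-- The variables in `F` are independent modulo the subspace `l`. -/
def Indep (l : Submodule ℚ (MvPolynomial σ ℚ)) (F : Finset σ) : Prop :=
  ∀ v ∈ l, (∀ α ∈ v.support, α.support ⊆ F) → v = 0

lemma indep_iff (a : Ideal (MvPolynomial σ ℚ)) (F : Finset σ) :
    Indep (a.restrictScalars ℚ) F ↔
      AlgebraicIndependent ℚ (fun j : F => Ideal.Quotient.mk a (X j)) := by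
  have key : ∀ P : MvPolynomial F ℚ, aeval (fun j : F => Ideal.Quotient.mk a (X j)) P =
      Ideal.Quotient.mk a (rename (↑) P) := by
    intro P
    have : aeval (fun j : F => Ideal.Quotient.mk a (X j)) =
        (Ideal.Quotient.mkₐ ℚ a).comp (rename (↑)) := by
      ext j; simp
    rw [this]; rfl
  rw [algebraicIndependent_iff]
  constructor
  · intro h P hP
    rw [key, Ideal.Quotient.eq_zero_iff_mem] at hP
    apply rename_injective ((↑) : F → σ) Subtype.val_injective
    rw [map_zero]
    refine h _ hP fun α hα => ?_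
    rw [support_rename_of_injective Subtype.val_injective, Finset.mem_image] at hα
    obtain ⟨β, -, rfl⟩ := hα
    refine mapDomain_support.trans ?_
    intro j hj
    rw [Finset.mem_image] at hj
    obtain ⟨i, -, rfl⟩ := hj
    exact i.2
  · intro h v hv hs
    obtain ⟨P, rfl⟩ := exists_rename_eq_of_vars_subset_range v ((↑) : F → σ)
      Subtype.val_injective (by
        intro j hj
        obtain ⟨α, hα, hj'⟩ := (mem_vars_iff_mem_support j).1 hj
        exact ⟨⟨j, hs α hα hj'⟩, rfl⟩)
    rw [h P (by rw [key, Ideal.Quotient.eq_zero_iff_mem]; exact hv), map_zero]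

/-- Dimension of the quotient by an ideal. -/
noncomputable def dm (p : Ideal (MvPolynomial σ ℚ)) : ℕ := td (MvPolynomial σ ℚ ⧸ p)

lemma Indep.card_le {p : Ideal (MvPolynomial σ ℚ)} {F : Finset σ}
    (h : Indep (p.restrictScalars ℚ) F) : F.card ≤ dm p := by
  simpa [dm] using card_le_td ((indep_iff p F).1 h)

lemma exists_basis_vars (p : Ideal (MvPolynomial σ ℚ)) [p.IsPrime] :
    ∃ F : Finset σ, IsTranscendenceBasis ℚ (fun j : F => Ideal.Quotient.mk p (X j)) ∧
      F.card = dm p := by
  obtain ⟨F, hF⟩ := exists_basis_gen (fun j : σ => Ideal.Quotient.mk p (X j)) (by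
    have : aeval (fun j : σ => Ideal.Quotient.mk p (X j)) = Ideal.Quotient.mkₐ ℚ p := by
      ext j; simp
    rw [this]; exact Ideal.Quotient.mk_surjective)
  exact ⟨F, hF, by rw [dm, td_eq_card hF]; simp⟩

lemma exists_indep (p : Ideal (MvPolynomial σ ℚ)) [p.IsPrime] :
    ∃ F : Finset σ, Indep (p.restrictScalars ℚ) F ∧ F.card = dm p := by
  obtain ⟨F, h1, h2⟩ := exists_basis_vars p
  exact ⟨F, (indep_iff p F).2 h1.1, h2⟩

lemma dm_le_card (p : Ideal (MvPolynomial σ ℚ)) [p.IsPrime] : dm p ≤ Fintype.card σ := by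
  obtain ⟨F, -, h⟩ := exists_indep p
  rw [← h]; exact Finset.card_le_univ F

lemma dm_lt {p q : Ideal (MvPolynomial σ ℚ)} [p.IsPrime] [q.IsPrime] (h : p ≤ q)
    {f : MvPolynomial σ ℚ} (hq : f ∈ q) (hp : f ∉ p) : dm q < dm p := by
  refine td_lt_of_surjective (Ideal.Quotient.factorₐ ℚ h) ?_ (a := Ideal.Quotient.mk p f) ?_ ?_
  · exact Ideal.Quotient.factor_surjective h
  · rwa [Ne, Ideal.Quotient.eq_zero_iff_mem]
  · exact Ideal.Quotient.eq_zero_iff_mem.2 hq

lemma dm_le_of_le {p q : Ideal (MvPolynomial σ ℚ)} [q.IsPrime] (h : p ≤ q) : dm q ≤ dm p := by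
  obtain ⟨F, h1, h2⟩ := exists_indep q
  rw [← h2]
  exact Indep.card_le fun v hv hs => h1 v (h hv) hs

lemma dm_bot : dm (⊥ : Ideal (MvPolynomial σ ℚ)) = Fintype.card σ := by
  apply le_antisymm (dm_le_card _)
  exact Indep.card_le (F := Finset.univ) fun v hv _ => by simpa using hv

end Vale.Agent.P199
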