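import Vale.Agent.P199.QGrad

/-! Rank count for a cyclic left module over the twisted group algebra. -/

set_option linter.unusedSectionVars false
set_option linter.unusedVariables false

namespace Vale.Agent.P199

open Finsupp MvPolynomial Module

variable {σ ι : Type} [Fintype σ] [DecidableEq σ] [Fintype ι] [DecidableEq ι]
variable {β : BB ι} {w : σ → ι →₀ ℕ}

/-- Elements all of whose coordinates lie in an ideal. -/
def U0 {R : Type} [CommRing R] (β : BB ι) (t : ι → R) (p : Ideal R) : Submodule R (QA β t) where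
  carrier := {d | ∀ h, d h ∈ p}
  add_mem' ha hb h := p.add_mem (ha h) (hb h)
  zero_mem' h := p.zero_mem
  smul_mem' c x hx h := p.mul_mem_left c (hx h)

section
variable {R : Type} [CommRing R] {t : ι → R} {p : Ideal R}

lemma mem_U0 {d : QA β t} : d ∈ U0 β t p ↔ ∀ h, d h ∈ p := Iff.rfl

lemma U0_mul_left (a : QA β t) {b : QA β t} (hb : b ∈ U0 β t p) : a * b ∈ U0 β t p := fun h => by
  rw [QA.mul_apply]
  exact p.sum_mem fun x _ => p.mul_mem_left _ (hb _)

lemma U0_mul_right {a : QA β t} (b : QA β t) (ha : a ∈ U0 β t p) : a * b ∈ U0 β t p := fun h => by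
  rw [QA.mul_apply]
  exact p.sum_mem fun x _ => p.mul_mem_right _ (p.mul_mem_left _ (ha _))

lemma smul_mem_U0 {r : R} (hr : r ∈ p) (v : QA β t) : r • v ∈ U0 β t p := fun h =>
  p.mul_mem_right _ hr

end

variable {t : ι → MvPolynomial σ ℚ}

lemma U0_homog (hw : ∀ j, w j ≠ 0) {p : Ideal (MvPolynomial σ ℚ)} (hp : IHomog w p) :
    (qaGr β w t hw).Homog ((U0 β t p).restrictScalars ℚ) := fun γ v hv h =>
  hp.comp_wz _ (hv h)

/-- The filtration of the cyclic module. -/
noncomputable def Us (p : Ideal (MvPolynomial σ ℚ)) (b : QA β t) (s : Finset (HH ι)) :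
    Submodule (MvPolynomial σ ℚ) (QA β t) :=
  U0 β t p ⊔ Submodule.span _ ((fun h => QA.u β t h * b) '' s)

theorem rank_count (hw : ∀ j, w j ≠ 0) (ht : ∀ i, IsWeightedHomogeneous w (t i) (single i 2))
    {I : Ideal (MvPolynomial ι ℤ)} {p : Ideal (MvPolynomial σ ℚ)} {c : ℕ} (hp : Good w I p c)
    {b : QA β t} {δ : ι →₀ ℕ} (hb : DH w b (cz δ)) (s : Finset (HH ι)) :
    (qaGr β w t hw).Homog ((Us p b s).restrictScalars ℚ) ∧ ∃ (K : MvPolynomial ι ℤ) (ρ : ℕ),
      (dser (qaGr β w t hw) ((Us p b s).restrictScalars ℚ) -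
        dser (qaGr β w t hw) ((U0 β t p).restrictScalars ℚ)) *
        ∏ j, ((om (w j) : MvPolynomial ι ℤ) : MvPowerSeries ι ℤ) =
          MvPowerSeries.monomial δ 1 * (K : MvPowerSeries ι ℤ) ∧
      Polynomial.X ^ c ∣ Th K ∧ (Th K).coeff c = ρ * (Th (kp w p)).coeff c ∧ ρ ≤ s.card ∧
      (ρ = s.card → ∀ r : HH ι → MvPolynomial σ ℚ,
        ∑ h ∈ s, r h • (QA.u β t h * b) ∈ U0 β t p → ∀ h ∈ s, r h ∈ p) ∧
      (ρ = 0 → ∀ v ∈ Us p b s, ∃ r, r ∉ p ∧ r • v ∈ U0 β t p) := by
  have := hp.prime
  induction s using Finset.induction_on with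
  | empty =>
    have e : Us p b ∅ = U0 β t p := by simp [Us]
    rw [e]
    exact ⟨U0_homog hw hp.homog, 0, 0, by simp, by simp, by simp, by simp, by simp,
      fun _ v hv => ⟨1, (Ideal.ne_top_iff_one p).1 hp.prime.ne_top, by simpa using hv⟩⟩
  | insert h s hs ih =>
    obtain ⟨H, K, ρ, h1, h2, h3, h4, h5, h6⟩ := ih
    set y := QA.u β t h * b with hy
    let φ : MvPolynomial σ ℚ →ₗ[ℚ] QA β t :=
      (LinearMap.toSpanSingleton (MvPolynomial σ ℚ) _ y).restrictScalars ℚ
    have hφ : ∀ γ s, IsWeightedHomogeneous w s γ →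
        φ s ∈ (qaGr β w t hw).piece (γ + (hv h + δ)) := by
      intro γ s hs
      rw [mem_qaGr, map_add, map_add]
      exact DH.smul (homog_cz.2 hs) ((DH.u h).mul ht hb)
    have hins : Us p b (insert h s) = Us p b s ⊔ Submodule.span _ {y} := by
      rw [Us, Us, Finset.coe_insert, Set.image_insert_eq, Submodule.span_insert, sup_assoc,
        sup_comm (Submodule.span _ {y})]
    have e1 : (Us p b (insert h s)).restrictScalars ℚ =
        (Us p b s).restrictScalars ℚ ⊔ LinearMap.range φ := by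
      ext v
      rw [hins]
      simp only [Submodule.restrictScalars_mem, Submodule.mem_sup (p := Us p b s),
        Submodule.mem_sup (p := (Us p b s).restrictScalars ℚ), Submodule.mem_span_singleton,
        LinearMap.mem_range]
      rfl
    let a : Ideal (MvPolynomial σ ℚ) :=
      Submodule.comap (LinearMap.toSpanSingleton (MvPolynomial σ ℚ) _ y) (Us p b s)
    have ha : ∀ r, r ∈ a ↔ r • y ∈ Us p b s := fun r => Iff.rfl
    have hah : IHomog w a := phomog_comap w _ φ _ hφ H
    have hpa : p ≤ a := fun r hr => (ha r).2 (Submodule.mem_sup_left (smul_mem_U0 hr _))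
    have e2 := dser_sup_range w _ φ _ hφ hw H
    have e3 : (dser (qaGr β w t hw) ((Us p b (insert h s)).restrictScalars ℚ) -
        dser (qaGr β w t hw) ((U0 β t p).restrictScalars ℚ)) *
        ∏ j, ((om (w j) : MvPolynomial ι ℤ) : MvPowerSeries ι ℤ) =
          MvPowerSeries.monomial δ 1 *
            ((K + monomial (hv h) 1 * kp w a : MvPolynomial ι ℤ) : MvPowerSeries ι ℤ) := by
      rw [e1, e2, MvPolynomial.coe_add, MvPolynomial.coe_mul, (kp_spec hw hah).2,
        MvPolynomial.coe_monomial, mul_add, ← h1,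
        show MvPowerSeries.monomial (hv h + δ) (1 : ℤ) = MvPowerSeries.monomial (hv h) 1 *
          MvPowerSeries.monomial δ 1 by simp [MvPowerSeries.monomial_mul_monomial]]
      change _ = _ + _ * (_ * (Hser w (((Us p b s).restrictScalars ℚ).comap φ) * _))
      ring
    rw [Finset.card_insert_of_notMem hs]
    refine ⟨e1 ▸ homog_sup_range w _ φ _ hφ H, K + monomial (hv h) 1 * kp w a, ?_⟩
    by_cases hap : a ≤ p
    · have e4 : a = p := le_antisymm hap hpa
      have d := dvd_of_codim hw hp.homog hp.codim.le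
      refine ⟨ρ + 1, e3, ?_, ?_, by omega, fun hρ r hr => ?_, fun hρ => by omega⟩
      · rw [map_add, map_mul, e4]; exact dvd_add h2 (d.mul_left _)
      · rw [map_add, map_mul, e4, Polynomial.coeff_add, h3, lead_monomial_mul _ d]
        push_cast; ring
      · rw [Finset.sum_insert hs] at hr
        have k1 : ∑ h ∈ s, r h • (QA.u β t h * b) ∈ Us p b s := Submodule.sum_mem _ fun x hx =>
          Submodule.smul_mem _ _ (Submodule.mem_sup_right (Submodule.subset_span ⟨x, hx, rfl⟩))
        have k2 : r h ∈ p := hap ((ha _).2 (by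
          simpa using (Us p b s).sub_mem (Submodule.mem_sup_left hr) k1))
        have k3 := h5 (by omega) r (by
          simpa using (U0 β t p).sub_mem hr (smul_mem_U0 k2 (QA.u β t h * b)))
        intro x hx
        rcases Finset.mem_insert.1 hx with rfl | hx
        exacts [k2, k3 x hx]
    · obtain ⟨f, hfa, hfp⟩ := SetLike.not_le_iff_exists.1 hap
      have d := dvd_succ_of_gt hw hp.codim hah hpa hfa hfp
      have d' : Polynomial.X ^ c ∣ Th (kp w a) := (pow_dvd_pow _ (Nat.le_succ c)).trans d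
      refine ⟨ρ, e3, ?_, ?_, by omega, fun hρ => by omega, fun hρ v hv => ?_⟩
      · rw [map_add, map_mul]; exact dvd_add h2 (d'.mul_left _)
      · rw [map_add, map_mul, Polynomial.coeff_add, h3, lead_monomial_mul _ d',
          Polynomial.X_pow_dvd_iff.1 d c (Nat.lt_succ_self c), add_zero]
      · rw [hins] at hv
        obtain ⟨v1, hv1, v2, hv2, rfl⟩ := Submodule.mem_sup.1 hv
        obtain ⟨g, rfl⟩ := Submodule.mem_span_singleton.1 hv2
        obtain ⟨r, hr, hr'⟩ := h6 hρ (f • (v1 + g • y)) (by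
          rw [smul_add, smul_comm f g y]
          exact (Us p b s).add_mem (Submodule.smul_mem _ _ hv1)
            (Submodule.smul_mem _ _ ((ha f).1 hfa)))
        refine ⟨r * f, fun hh => (hp.prime.mem_or_mem hh).elim hr hfp, ?_⟩
        rwa [mul_smul]

end Vale.Agent.P199
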