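import Vale.Agent.P199.Div1

/-! Over a good prime the twisted group algebra has no zero divisors. -/

set_option linter.unusedSectionVars false
set_option linter.unusedVariables false

namespace Vale.Agent.P199

open Finsupp MvPolynomial Module

variable {σ ι : Type} [Fintype σ] [DecidableEq σ] [Fintype ι] [DecidableEq ι]
variable {β : BB ι} {w : σ ⊕ ι → ι →₀ ℕ}

/-- The parameters are the variables of the second summand. -/
noncomputable abbrev tX (σ ι : Type) : ι → MvPolynomial (σ ⊕ ι) ℚ := fun i => X (Sum.inr i)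

/-- Parity vector of an exponent. -/
def par (α : σ ⊕ ι →₀ ℕ) : HH ι := fun i => (α (Sum.inr i) : ZMod 2)

/-- Exponent with the second block halved. -/
noncomputable def half (α : σ ⊕ ι →₀ ℕ) : σ ⊕ ι →₀ ℕ :=
  equivFunOnFinite.symm (Sum.elim (fun j => α (Sum.inl j)) fun i => α (Sum.inr i) / 2)

@[simp] lemma half_inl (α : σ ⊕ ι →₀ ℕ) (j : σ) : half α (Sum.inl j) = α (Sum.inl j) := rfl
@[simp] lemma half_inr (α : σ ⊕ ι →₀ ℕ) (i : ι) : half α (Sum.inr i) = α (Sum.inr i) / 2 := rfl
lemma par_val (α : σ ⊕ ι →₀ ℕ) (i : ι) : (par α i).val = α (Sum.inr i) % 2 := by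
  simp [par, ZMod.val_natCast]

variable (β) in
/-- Twisted monomials. -/
noncomputable def mon (α : σ ⊕ ι →₀ ℕ) : QA β (tX σ ι) :=
  (monomial (half α) 1 : MvPolynomial (σ ⊕ ι) ℚ) • QA.u β (tX σ ι) (par α)

variable (β σ) in
/-- The linear map sending monomials to twisted monomials. -/
noncomputable def EE : MvPolynomial (σ ⊕ ι) ℚ →ₗ[ℚ] QA β (tX σ ι) :=
  (basisMonomials (σ ⊕ ι) ℚ).constr ℚ (mon β)

lemma EE_monomial (α : σ ⊕ ι →₀ ℕ) (c : ℚ) : EE σ β (monomial α c) = c • mon β α := by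
  have := (basisMonomials (σ ⊕ ι) ℚ).constr_basis ℚ (mon β) α
  rw [coe_basisMonomials] at this
  rw [← this, ← map_smul, smul_monomial, smul_eq_mul, mul_one]; rfl

/-- The weights in which the square roots of the parameters are variables. -/
noncomputable def wh (w : σ ⊕ ι → ι →₀ ℕ) : σ ⊕ ι → ι →₀ ℕ :=
  Sum.elim (fun j => w (Sum.inl j)) fun i => single i 1

lemma weight_wh (hw2 : ∀ i, w (Sum.inr i) = single i 2) (α : σ ⊕ ι →₀ ℕ) :
    weight (wh w) α = weight w (half α) + hv (par α) := by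
  ext i
  simp only [weight_eq_sum, Fintype.sum_sum_type, wh, Sum.elim_inl, Sum.elim_inr, half_inl,
    half_inr, hw2, Finsupp.coe_add, Pi.add_apply, hv_apply, par_val, finsetSum_apply, smul_single,
    single_apply, smul_eq_mul, Finset.sum_ite_eq', Finset.mem_univ, if_true]
  omega

lemma mon_shift (j : σ ⊕ ι) : ∃ (y : QA β (tX σ ι)) (ε : (σ ⊕ ι →₀ ℕ) → ℚ), (∀ α, ε α ≠ 0) ∧
    ∀ α, y * mon β α = ε α • mon β (α + single j 1) := by
  rcases j with j | i
  · refine ⟨(X (Sum.inl j) : MvPolynomial (σ ⊕ ι) ℚ) • 1, fun _ => 1, by simp, fun α => ?_⟩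
    have e1 : half (α + single (Sum.inl j) 1) = single (Sum.inl j) 1 + half α := by
      ext (k | k) <;> simp [single_apply, add_comm]
    have e2 : par (α + single (Sum.inl j) 1) = par α := by
      ext k; simp [par]
    rw [smul_mul_assoc, one_mul, one_smul, mon, mon, e1, e2, ← mul_smul, X, monomial_mul, one_mul]
  · refine ⟨QA.u β _ (Pi.single i 1), fun α => sg ℚ (β (Pi.single i 1) (par α)), fun α => ?_,
      fun α => ?_⟩
    · rcases zmod2_cases (β (Pi.single i 1) (par α)) with h | h <;> simp [h]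
    have e1 : half (α + single (Sum.inr i) 1) =
        half α + single (Sum.inr i) (α (Sum.inr i) % 2) := by
      ext (k | k)
      · simp
      · by_cases hk : i = k
        · subst hk; simp; omega
        · simp [hk]
    have e2 : par (α + single (Sum.inr i) 1) = Pi.single i 1 + par α := by
      ext k
      by_cases hk : i = k
      · subst hk; simp [par, add_comm]
      · simp [par, Ne.symm hk]
    have e3 : tw (tX σ ι) (Pi.single i 1) (par α) =
        monomial (single (Sum.inr i) (α (Sum.inr i) % 2)) 1 := by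
      rw [tw, Finset.prod_eq_single i]
      · simp [par_val, X_pow_eq_monomial, ZMod.val_one]
      · intro k _ hk; simp [hk]
      · simp
    rw [mon, mon, e1, e2, mul_smul_comm, QA.u_mul_u, cc, e3, ← map_sg (algebraMap ℚ _),
      ← Algebra.smul_def, ← mul_smul, ← smul_assoc, mul_smul_comm, monomial_mul, one_mul]

lemma EE_homog (hw2 : ∀ i, w (Sum.inr i) = single i 2) {γ : ι →₀ ℕ}
    {s : MvPolynomial (σ ⊕ ι) ℚ} (hs : IsWeightedHomogeneous (wh w) s γ) :
    DH w (EE σ β s) (cz γ) := by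
  rw [s.as_sum, map_sum]
  refine DH.sum _ _ fun α hα => ?_
  rw [EE_monomial, mon, ← smul_assoc, smul_monomial, ← hs (MvPolynomial.mem_support_iff.1 hα),
    weight_wh hw2, map_add]
  exact DH.smul (homog_cz.2 (isWeightedHomogeneous_monomial w _ _ rfl)) (DH.u _)

lemma EE_surjective : Function.Surjective (EE σ β) := by
  rw [← LinearMap.range_eq_top, eq_top_iff]
  rintro x -
  rw [QA.eq_sum_u x]
  refine Submodule.sum_mem _ fun h _ => ?_
  rw [(x h).as_sum, Finset.sum_smul]
  refine Submodule.sum_mem _ fun α _ => ?_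
  let α' : σ ⊕ ι →₀ ℕ := equivFunOnFinite.symm
    (Sum.elim (fun j => α (Sum.inl j)) fun i => 2 * α (Sum.inr i) + (h i).val)
  have e1 : half α' = α := by
    ext (k | k)
    · rfl
    · have := ZMod.val_lt (h k)
      simp [α']; omega
  have e2 : par α' = h := by
    ext k
    simp [α', par, show (2 : ZMod 2) = 0 from rfl]
  refine ⟨monomial α' (coeff α (x h)), ?_⟩
  rw [EE_monomial, mon, e1, e2, ← smul_assoc, smul_monomial, smul_eq_mul, mul_one]

lemma shiftClosed_EE (b : QA β (tX σ ι)) (p : Ideal (MvPolynomial (σ ⊕ ι) ℚ)) :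
    ShiftClosed (((U0 β _ p).restrictScalars ℚ).comap (LinearMap.mulRight ℚ b ∘ₗ EE σ β)) := by
  intro j v hv
  obtain ⟨y, ε, h1, h2⟩ := mon_shift (β := β) j
  set v' : MvPolynomial (σ ⊕ ι) ℚ := ∑ α ∈ v.support, monomial α (ε α * coeff α v) with hv'
  have hc : ∀ α, coeff α v' = ε α * coeff α v := by
    intro α
    rw [hv', coeff_sum]
    simp only [coeff_monomial]
    rw [Finset.sum_ite_eq']
    split_ifs with h
    · rfl
    · rw [MvPolynomial.notMem_support_iff.1 h, mul_zero]
  have hs : v'.support = v.support := by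
    ext α; simp [hc, h1]
  refine ⟨v' * X j, ?_, by rw [support_mul_X, hs, Finset.map_eq_image]; rfl⟩
  have e : EE σ β (v' * X j) = y * EE σ β v := by
    conv_rhs => rw [v.as_sum]
    rw [hv', Finset.sum_mul, map_sum, map_sum, Finset.mul_sum]
    refine Finset.sum_congr rfl fun α _ => ?_
    rw [X, monomial_mul, EE_monomial, EE_monomial, mul_smul_comm, h2, ← mul_smul, mul_one,
      mul_comm]
  change EE σ β (v' * X j) * b ∈ U0 β _ p
  rw [e, mul_assoc]
  exact U0_mul_left _ hv

lemma om_two (i : ι) : om (single i 2) = om (single i 1) * (1 + X i) := by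
  rw [om, om, ← X_pow_eq_monomial, ← X_pow_eq_monomial]; ring

theorem Good.mul_mem (hw : ∀ j, w j ≠ 0) (hw2 : ∀ i, w (Sum.inr i) = single i 2)
    {p : Ideal (MvPolynomial (σ ⊕ ι) ℚ)} {c : ℕ} (hp : Good w (PI ∅) p c)
    {a b : QA β (tX σ ι)} (hab : a * b ∈ U0 β _ p) : a ∈ U0 β _ p ∨ b ∈ U0 β _ p := by
  by_contra hh
  push Not at hh
  have ht : ∀ i, IsWeightedHomogeneous w (tX σ ι i) (single i 2) := fun i =>
    hw2 i ▸ isWeightedHomogeneous_X ℚ w (Sum.inr i)
  obtain ⟨γ, δ, a, b, -, hb, hab, ha', hb'⟩ := exists_homog_zero_div (qaGr β w _ hw)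
    ((U0 β _ p).restrictScalars ℚ) (U0_homog hw hp.homog) (fun a b h => U0_mul_left a h)
    (fun a b h => U0_mul_right b h) (fun γ δ a b ha hb => by
      rw [mem_qaGr] at ha hb ⊢
      rw [map_add]; exact ha.mul ht hb) (qaGr_sum hw) hab hh.1 hh.2
  rw [mem_qaGr] at hb
  obtain ⟨-, K, ρ, h1, h2, h3, h4, h5, h6⟩ := rank_count hw ht hp hb Finset.univ
  have hρ0 : ρ ≠ 0 := by
    intro h
    obtain ⟨r, hr, hr'⟩ := h6 h b (Submodule.mem_sup_right (Submodule.subset_span
      ⟨0, Finset.mem_coe.2 (Finset.mem_univ _), by simp [QA.u_zero]⟩))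
    exact hb' fun x => (hp.prime.mem_or_mem (hr' x)).resolve_left hr
  have hρ1 : ρ ≠ (Finset.univ : Finset (HH ι)).card := by
    intro h
    refine ha' fun x => h5 h (fun x => a x) ?_ x (Finset.mem_univ _)
    simp only [← smul_mul_assoc, ← Finset.sum_mul, ← QA.eq_sum_u]
    exact hab
  have hw' : ∀ j, wh w j ≠ 0 := by
    rintro (j | i)
    · exact hw _
    · simp [wh]
  let π : MvPolynomial (σ ⊕ ι) ℚ →ₗ[ℚ] QA β (tX σ ι) := LinearMap.mulRight ℚ b ∘ₗ EE σ β
  have hπ : ∀ γ s, IsWeightedHomogeneous (wh w) s γ → π s ∈ (qaGr β w _ hw).piece (γ + δ) := by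
    intro γ s hs
    rw [mem_qaGr, map_add]
    exact (EE_homog hw2 hs).mul ht hb
  have e1 : (Us p b Finset.univ).restrictScalars ℚ =
      (U0 β _ p).restrictScalars ℚ ⊔ LinearMap.range π := by
    ext v
    simp only [Us, Submodule.restrictScalars_mem, Submodule.mem_sup (p := U0 β _ p),
      Submodule.mem_sup (p := (U0 β _ p).restrictScalars ℚ)]
    refine exists_congr fun y => and_congr_right fun _ => exists_congr fun z =>
      and_congr_left fun _ => ⟨fun hz => ?_, ?_⟩
    · rw [Finset.coe_univ, Set.image_univ, Submodule.mem_span_range_iff_exists_fun] at hz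
      obtain ⟨r, rfl⟩ := hz
      obtain ⟨s, hs⟩ := EE_surjective (β := β) (∑ h, r h • QA.u β (tX σ ι) h)
      refine ⟨s, ?_⟩
      change EE σ β s * b = _
      rw [hs, Finset.sum_mul]
      simp only [smul_mul_assoc]
    · rintro ⟨s, rfl⟩
      change EE σ β s * b ∈ _
      rw [QA.eq_sum_u (EE σ β s), Finset.sum_mul]
      refine Submodule.sum_mem _ fun h _ => ?_
      rw [smul_mul_assoc]
      exact Submodule.smul_mem _ _ (Submodule.subset_span ⟨h, by simp, rfl⟩)
  obtain ⟨K', -, hK'⟩ := exists_isNum (wh w) hw' _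
    (phomog_comap _ _ π δ hπ (U0_homog hw hp.homog)) (shiftClosed_EE b p)
  rw [e1, dser_sup_range _ _ π δ hπ hw' (U0_homog hw hp.homog), add_sub_cancel_left,
    mul_assoc] at h1
  have h7 := mul_left_cancel₀ (by
    intro h
    simpa using congrArg (MvPowerSeries.coeff δ) h) h1
  have h8 : K = K' * ∏ i, (1 + X i) := by
    apply MvPolynomial.coe_injective
    rw [← h7, MvPolynomial.coe_mul, hK', mul_assoc, Fintype.prod_sum_type, Fintype.prod_sum_type,
      ← MvPolynomial.coeToMvPowerSeries.ringHom_apply (∏ i, (1 + X i)), map_prod]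
    simp only [wh, Sum.elim_inl, Sum.elim_inr, hw2, om_two, MvPolynomial.coe_mul,
      Finset.prod_mul_distrib, MvPolynomial.coeToMvPowerSeries.ringHom_apply]
    ring
  have h9 : (Th (∏ i : ι, (1 + X i))).coeff 0 = 2 ^ Fintype.card ι := by
    rw [map_prod, ← Polynomial.constantCoeff_apply, map_prod]
    simp [Th, one_add_one_eq_two]
  have h10 : Polynomial.X ^ c ∣ Th K' := by
    rw [h8, map_mul] at h2
    refine Polynomial.prime_X.pow_dvd_of_dvd_mul_right c ?_ h2
    rw [Polynomial.X_dvd_iff, h9]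
    exact pow_ne_zero _ two_ne_zero
  have h11 := lead_mul h10 (g := Th (∏ i : ι, (1 + X i))) (c' := 0) (by simp)
  rw [add_zero, ← map_mul, ← h8, h3, h9] at h11
  have hprime : Prime (2 : MvPolynomial ι ℤ) := (MvPolynomial.prime_C_iff ι).2 Int.prime_two
  have h12 : (2 : MvPolynomial ι ℤ) ^ Fintype.card ι ∣ ρ := by
    refine hprime.pow_dvd_of_dvd_mul_right _ ?_ ⟨_, h11.trans (mul_comm _ _)⟩
    rintro ⟨y, hy⟩
    exact hp.cls (hy ▸ Ideal.mul_mem_right _ _ (two_mem_PI ∅))
  have h13 : (2 : ℤ) ^ Fintype.card ι ∣ ρ := by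
    simpa [map_ofNat] using map_dvd constantCoeff h12
  have h14 : 2 ^ Fintype.card ι ∣ ρ := by exact_mod_cast h13
  have h15 := Nat.le_of_dvd (Nat.pos_of_ne_zero hρ0) h14
  rw [Finset.card_univ, Fintype.card_fun, ZMod.card] at h4 hρ1
  omega

end Vale.Agent.P199
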