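import Vale.Agent.P199.Limit

/-! From the limit object to a counterexample to the Kurosh problem for division rings. -/

set_option linter.unusedSectionVars false
set_option linter.unusedVariables false

namespace Vale.Agent.P199

open Polynomial

lemma adjoin_le_span {R D κ : Type} [CommRing R] [Ring D] [Algebra R D] [Fintype κ] (b : κ → D)
    {x y : D} (h1 : 1 ∈ Submodule.span R (Set.range b))
    (hx : ∀ i, x * b i ∈ Submodule.span R (Set.range b))
    (hy : ∀ i, y * b i ∈ Submodule.span R (Set.range b)) :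
    Subalgebra.toSubmodule (Algebra.adjoin R {x, y}) ≤ Submodule.span R (Set.range b) := by
  set M := Submodule.span R (Set.range b)
  have hmul : ∀ z : D, (∀ i, z * b i ∈ M) → ∀ v ∈ M, z * v ∈ M := by
    intro z hz v hv
    obtain ⟨c, rfl⟩ := (Submodule.mem_span_range_iff_exists_fun R).1 hv
    rw [Finset.mul_sum]
    exact M.sum_mem fun j _ => by rw [mul_smul_comm]; exact M.smul_mem _ (hz j)
  intro z hz
  have : ∀ v ∈ M, z * v ∈ M := by
    induction hz using Algebra.adjoin_induction with
    | mem z hz =>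
      rcases hz with rfl | rfl
      exacts [hmul _ hx, hmul _ hy]
    | algebraMap r => intro v hv; rw [← Algebra.smul_def]; exact M.smul_mem _ hv
    | add a b _ _ ha hb => intro v hv; rw [add_mul]; exact M.add_mem (ha v hv) (hb v hv)
    | mul a b _ _ ha hb => intro v hv; rw [mul_assoc]; exact ha _ (hb v hv)
  simpa using this 1 h1

lemma finite_of_center {F Z D : Type} [Field F] [CommRing Z] [Ring D] [Algebra F Z] [Algebra Z D]
    [Algebra F D] [IsScalarTower F Z D] [Algebra.IsIntegral F Z] {x y : D}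
    (h : Algebra.adjoin F {x, y} = ⊤) [Module.Finite Z D] : Module.Finite F D := by
  obtain ⟨s, b, hb⟩ := Module.Finite.exists_fin (R := Z) (M := D)
  have h1 : ∀ v : D, ∃ c : Fin s → Z, ∑ j, c j • b j = v := fun v =>
    (Submodule.mem_span_range_iff_exists_fun Z).1 (hb ▸ Submodule.mem_top)
  choose c hc using h1
  let T : Set Z := Set.range (c 1) ∪ (Set.range fun p : Fin s × Fin s => c (x * b p.1) p.2) ∪
    Set.range fun p : Fin s × Fin s => c (y * b p.1) p.2
  let Z1 := Algebra.adjoin F T
  have : Module.Finite F Z1 := Algebra.finite_adjoin_of_finite_of_isIntegral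
    (((Set.finite_range _).union (Set.finite_range _)).union (Set.finite_range _))
    fun z _ => Algebra.IsIntegral.isIntegral z
  have h2 : ∀ v, (∀ j, c v j ∈ T) → v ∈ Submodule.span Z1 (Set.range b) := fun v hv =>
    (Submodule.mem_span_range_iff_exists_fun Z1).2
      ⟨fun j => ⟨c v j, Algebra.subset_adjoin (hv j)⟩, hc v⟩
  have h3 := adjoin_le_span b (h2 1 fun j => Or.inl (Or.inl ⟨j, rfl⟩))
    (fun i => h2 _ fun j => Or.inl (Or.inr ⟨(i, j), rfl⟩))
    (fun i => h2 _ fun j => Or.inr ⟨(i, j), rfl⟩)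
  have h4 : Algebra.adjoin F {x, y} ≤ (Algebra.adjoin Z1 {x, y}).restrictScalars F :=
    Algebra.adjoin_le Algebra.subset_adjoin
  have : Module.Finite Z1 D := ⟨Submodule.fg_def.2 ⟨_, Set.finite_range b,
    eq_top_iff.2 fun v _ => h3 (h4 (h ▸ Algebra.mem_top))⟩⟩
  exact Module.Finite.trans Z1 D

lemma hankel {K U : Type} [Field K] [DivisionRing U] [Algebra K U] (τ : U →ₗ[K] K) (h1 : τ 1 = 1)
    (F : Subfield K) {a : U} (ha : ∀ j : ℕ, τ (a ^ j) ∈ F) {n : ℕ} {c : Fin n → K}
    (hc : ∃ j, c j ≠ 0) (hc' : ∑ j, c j • a ^ (j : ℕ) = 0) : IsAlgebraic F a := by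
  have poly : ∀ {E : Type} [Field E] [Algebra E U] (q : Fin n → E), (∃ j, q j ≠ 0) →
      ∑ j, q j • a ^ (j : ℕ) = 0 → IsAlgebraic E a := by
    intro E _ _ q ⟨j, hj⟩ hq
    refine ⟨∑ j : Fin n, monomial (j : ℕ) (q j), fun h => hj ?_, ?_⟩
    · have := congrArg (fun p => coeff p j) h
      simpa [coeff_monomial, Fin.val_inj] using this
    · simpa [map_sum, aeval_monomial, Algebra.smul_def] using hq
  have hint : IsIntegral K a := (poly c hc hc').isIntegral
  obtain ⟨j0, hj0⟩ := hc
  obtain ⟨f, hf⟩ := Module.Projective.exists_dual_ne_zero F hj0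
  refine poly (fun j => f (c j)) ⟨j0, hf⟩ ?_
  set Q := ∑ j, f (c j) • a ^ (j : ℕ) with hQ
  have h2 : ∀ i : ℕ, τ (Q * a ^ i) = 0 := by
    intro i
    have e1 : ∑ j : Fin n, (⟨τ (a ^ ((j : ℕ) + i)), ha _⟩ : F) • c j = 0 := by
      have := congrArg (fun v => τ (v * a ^ i)) hc'
      simp only [Finset.sum_mul, smul_mul_assoc, ← pow_add, map_sum, map_smul, zero_mul, map_zero,
        smul_eq_mul] at this
      rw [← this]
      exact Finset.sum_congr rfl fun j _ => mul_comm _ _
    have e2 := congrArg (fun z => ((f z : F) : K)) e1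
    simp only [map_sum, map_smul, map_zero, smul_eq_mul] at e2
    push_cast at e2
    rw [hQ, Finset.sum_mul, map_sum, ← e2]
    refine Finset.sum_congr rfl fun j _ => ?_
    rw [smul_mul_assoc, ← pow_add, mul_comm]
    exact τ.map_smul (f (c j) : K) _
  by_contra h0
  have hQm : Q ∈ Algebra.adjoin K {a} := Subalgebra.sum_mem _ fun j _ =>
    Subalgebra.smul_mem _ (Subalgebra.pow_mem _ (Algebra.self_mem_adjoin_singleton K a) _)
      (f (c j) : K)
  have hQi : Q⁻¹ ∈ Algebra.adjoin K {a} :=
    (IsIntegral.of_mem_of_fg _ hint.fg_adjoin_singleton _ hQm).inv_mem hQm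
  rw [Algebra.adjoin_singleton_eq_range_aeval] at hQi
  obtain ⟨P, hP⟩ := hQi
  have h3 : τ (Q * aeval a P) = 0 := by
    rw [aeval_eq_sum_range, Finset.mul_sum, map_sum]
    exact Finset.sum_eq_zero fun i _ => by rw [mul_smul_comm, map_smul, h2, smul_zero]
  change aeval a P = _ at hP
  rw [hP, mul_inv_cancel₀ h0, h1] at h3
  exact one_ne_zero h3

theorem exists_field_version : ∃ (K U : Type) (_ : Field K) (_ : DivisionRing U) (_ : Algebra K U)
    (τ : U →ₗ[K] K) (x y : U), τ 1 = 1 ∧
    (∀ g : Tm, ∃ (n : ℕ) (c : Fin n → K), (∃ j, c j ≠ 0) ∧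
      ∑ j, c j • g.ev (fun a => algebraMap K U (τ a)) x y ^ (j : ℕ) = 0) ∧
    ∀ (s : ℕ) (b : Fin s → U), 1 ∈ Submodule.span K (Set.range b) →
      (∀ i, x * b i ∈ Submodule.span K (Set.range b)) →
      (∀ i, y * b i ∈ Submodule.span K (Set.range b)) → False := by
  obtain ⟨L⟩ := exists_lim
  have : Nontrivial L.D := ⟨⟨1, 0, L.one_ne⟩⟩
  let _ : DivisionRing L.D := DivisionRing.ofIsUnitOrEqZero fun a => by
    by_cases ha : a = 0
    · exact Or.inr ha
    obtain ⟨b, hb⟩ := L.unit a ha
    obtain ⟨c, hc⟩ := L.unit b (by rintro rfl; simp at hb)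
    have : a = c := by rw [← mul_one a, ← hc, ← mul_assoc, hb, one_mul]
    exact Or.inl ⟨⟨a, b, hb, this ▸ hc⟩, rfl⟩
  have hττ : ∀ a, L.τ (L.τ a) = L.τ a := fun a => by
    simpa [L.τ_one] using L.τ_mul a 1
  let K : Subfield (Subring.center L.D) :=
    { carrier := {z | L.τ z = z}
      mul_mem' := fun {a b} ha hb => by
        have := L.τ_mul a b
        rw [show L.τ a = a from ha, show L.τ b = b from hb] at this
        exact this
      one_mem' := L.τ_one
      add_mem' := fun {a b} ha hb => by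
        change L.τ (a + b) = a + b
        rw [map_add, show L.τ a = a from ha, show L.τ b = b from hb]
      zero_mem' := map_zero L.τ
      neg_mem' := fun {a} ha => by
        change L.τ (-a) = -a
        rw [map_neg, show L.τ a = a from ha]
      inv_mem' := fun a ha => by
        by_cases h0 : a = 0
        · subst h0; rw [inv_zero]; exact map_zero L.τ
        have := L.τ_mul a (a⁻¹ : Subring.center L.D)
        rw [show L.τ a = a from ha, ← MulMemClass.coe_mul, mul_inv_cancel₀ h0,
          OneMemClass.coe_one, L.τ_one] at this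
        change L.τ _ = _
        refine mul_left_cancel₀ (a := (a : L.D)) (fun h => h0 (Subtype.ext h)) ?_
        rw [← this, ← MulMemClass.coe_mul, mul_inv_cancel₀ h0, OneMemClass.coe_one] }
  have hsm : ∀ (z : K) (v : L.D), z • v = L.τ z.1 * v := fun z v => by
    rw [show L.τ z.1 = z.1 from z.2]; rfl
  let τ : L.D →ₗ[K] K :=
    { toFun := fun a => ⟨⟨L.τ a, Subring.mem_center_iff.2 fun b => (L.τ_comm a b).symm⟩, hττ a⟩
      map_add' := fun a b => by ext; exact map_add L.τ a b
      map_smul' := fun z a => by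
        ext
        change L.τ (z • a) = z.1 * L.τ a
        rw [hsm, L.τ_mul, show L.τ z.1 = z.1 from z.2] }
  have hτ : ∀ a v, τ a • v = L.τ a * v := fun a v => rfl
  refine ⟨K, L.D, inferInstance, inferInstance, inferInstance, τ, L.x, L.y, ?_, fun g => ?_,
    fun s b h1 h2 h3 => ?_⟩
  · ext; exact L.τ_one
  · obtain ⟨n, c, ⟨j, hj⟩, hc⟩ := L.alg g
    exact ⟨n, fun j => τ (c j), ⟨j, fun h => hj (congrArg (fun z : K => z.1.1) h)⟩, hc⟩
  · simp only [Submodule.mem_span_range_iff_exists_fun, hsm] at h1 h2 h3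
    obtain ⟨α, hα⟩ := h1
    choose A hA using h2
    choose B hB using h3
    exact L.large s b _ _ _ hα.symm (fun i => (hA i).symm) fun i => (hB i).symm

lemma adjoin_top_of_tower (F : Type) {Z D : Type} [Field F] [CommRing Z] [Ring D] [Algebra F Z]
    [Algebra Z D] [Algebra F D] [IsScalarTower F Z D] {S : Set D}
    (h : Algebra.adjoin F S = ⊤) : Algebra.adjoin Z S = ⊤ := by
  have h4 : Algebra.adjoin F S ≤ (Algebra.adjoin Z S).restrictScalars F :=
    Algebra.adjoin_le Algebra.subset_adjoin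
  exact eq_top_iff.2 fun v _ => h4 (h ▸ Algebra.mem_top)

lemma center_version {F D : Type} [Field F] [DivisionRing D] [Algebra F D]
    [Algebra.IsIntegral F D] {x y : D} (htop : Algebra.adjoin F {x, y} = ⊤)
    (hinf : ¬ Module.Finite F D) :
    Algebra.IsAlgebraic (Subring.center D) D ∧ ∃ x y : D,
      Algebra.adjoin (Subring.center D) {x, y} = ⊤ ∧ ¬ Module.Finite (Subring.center D) D := by
  let _ : Algebra F (Subring.center D) := ((algebraMap F D).codRestrict (Subring.center D)
    fun z => Subring.mem_center_iff.2 fun b => (Algebra.commutes z b).symm).toAlgebra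
  have : IsScalarTower F (Subring.center D) D := IsScalarTower.of_algebraMap_eq fun _ => rfl
  refine ⟨Algebra.IsAlgebraic.extendScalars (R := F)
    (algebraMap F (Subring.center D)).injective, x, y, ?_, fun hfin => hinf ?_⟩
  · exact adjoin_top_of_tower F htop
  · have : Algebra.IsIntegral F (Subring.center D) := ⟨fun z =>
      (isIntegral_algHom_iff (IsScalarTower.toAlgHom F (Subring.center D) D)
        Subtype.val_injective).1 (Algebra.IsIntegral.isIntegral _)⟩
    exact finite_of_center (Z := Subring.center D) htop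

lemma exists_subfield_integral {K U : Type} [Field K] [DivisionRing U] [Algebra K U]
    (τ : U →ₗ[K] K) (x y : U) (h1 : τ 1 = 1)
    (halg : ∀ g : Tm, ∃ (n : ℕ) (c : Fin n → K), (∃ j, c j ≠ 0) ∧
      ∑ j, c j • g.ev (fun a => algebraMap K U (τ a)) x y ^ (j : ℕ) = 0) :
    ∃ F : Subfield K, Algebra.IsIntegral F (Algebra.adjoin F {x, y}) := by
  set ev : Tm → U := Tm.ev (fun a => algebraMap K U (τ a)) x y with hev
  let F : Subfield K := Subfield.closure (Set.range fun g => τ (ev g))
  have hF : ∀ g, τ (ev g) ∈ F := fun g => Subfield.subset_closure ⟨g, rfl⟩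
  have htr : ∀ g g', ev (.mul (.tr g) g') = τ (ev g) • ev g' := fun g g' =>
    (Algebra.smul_def _ _).symm
  have hpow : ∀ g (j : ℕ), ∃ g', ev g' = ev g ^ j := fun g j => by
    induction j with
    | zero => exact ⟨.one, (pow_zero _).symm⟩
    | succ j ih => obtain ⟨g', h⟩ := ih; exact ⟨.mul g' g, by rw [pow_succ, ← h]; rfl⟩
  have hint : ∀ g, IsIntegral F (ev g) := fun g => by
    obtain ⟨n, c, h2, h3⟩ := halg g
    exact (hankel τ h1 F (fun j => by obtain ⟨g', h⟩ := hpow g j; exact h ▸ hF g') h2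
      h3).isIntegral
  let W : U → Prop := fun v => ∃ g g', τ (ev g') ≠ 0 ∧ τ (ev g') • v = ev g
  have hW1 : ∀ g, W (ev g) := fun g => ⟨g, .one, by
    change τ 1 ≠ 0 ∧ τ 1 • _ = _
    simp [h1]⟩
  have hWadd : ∀ a b, W a → W b → W (a + b) := by
    rintro a b ⟨g1, g1', k1, k2⟩ ⟨g2, g2', k3, k4⟩
    refine ⟨.add (.mul (.tr g2') g1) (.mul (.tr g1') g2), .mul (.tr g1') g2', ?_, ?_⟩
    · rw [htr, map_smul]; exact mul_ne_zero k1 k3
    · change _ = ev _ + ev _
      rw [htr, htr, htr, map_smul, ← k2, ← k4, smul_add, smul_smul, smul_smul, smul_eq_mul,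
        mul_comm (τ (ev g2'))]
  have hWmul : ∀ a b, W a → W b → W (a * b) := by
    rintro a b ⟨g1, g1', k1, k2⟩ ⟨g2, g2', k3, k4⟩
    refine ⟨.mul g1 g2, .mul (.tr g1') g2', ?_, ?_⟩
    · rw [htr, map_smul]; exact mul_ne_zero k1 k3
    · change _ = ev _ * ev _
      rw [htr, map_smul, ← k2, ← k4, smul_mul_smul_comm, smul_eq_mul]
  have hWF : ∀ z ∈ F, W (algebraMap K U z) := by
    intro z hz
    induction hz using Subfield.closure_induction with
    | mem z hz => obtain ⟨g, rfl⟩ := hz; exact hW1 (.tr g)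
    | one => rw [map_one]; exact hW1 .one
    | add a b _ _ ha hb => rw [map_add]; exact hWadd _ _ ha hb
    | neg a _ ha =>
      rw [map_neg, ← neg_one_mul]; exact hWmul _ _ (hW1 (.neg .one)) ha
    | inv a _ ha =>
      by_cases h0 : a = 0
      · subst h0; rwa [inv_zero]
      obtain ⟨g, g', k1, k2⟩ := ha
      have e : τ (ev g) = τ (ev g') * a := by
        rw [← k2, map_smul, Algebra.algebraMap_eq_smul_one, map_smul, h1]; simp
      refine ⟨.tr g', g, e ▸ mul_ne_zero k1 h0, ?_⟩
      change _ = algebraMap K U _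
      rw [e, Algebra.smul_def, ← map_mul, mul_inv_cancel_right₀ h0]
    | mul a b _ _ ha hb => rw [map_mul]; exact hWmul _ _ ha hb
  let D := Algebra.adjoin F {x, y}
  have hWD : ∀ v ∈ D, W v := by
    intro v hv
    induction hv using Algebra.adjoin_induction with
    | mem z hz =>
      rcases hz with rfl | rfl
      exacts [hW1 .x, hW1 .y]
    | algebraMap r => exact hWF r.1 r.2
    | add a b _ _ ha hb => exact hWadd _ _ ha hb
    | mul a b _ _ ha hb => exact hWmul _ _ ha hb
  refine ⟨F, ⟨fun v => ?_⟩⟩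
  rw [← isIntegral_algHom_iff D.val Subtype.val_injective]
  obtain ⟨g, g', k1, k2⟩ := hWD v.1 v.2
  have e : D.val v = (⟨τ (ev g'), hF g'⟩ : F)⁻¹ • ev g := by
    rw [← k2]
    change v.1 = (τ (ev g'))⁻¹ • _
    rw [smul_smul, inv_mul_cancel₀ k1, one_smul]
  rw [e]
  exact (hint g).smul _

lemma not_finite_of_large {K U : Type} [Field K] [DivisionRing U] [Algebra K U] (x y : U)
    (hlarge : ∀ (s : ℕ) (b : Fin s → U), 1 ∈ Submodule.span K (Set.range b) →
      (∀ i, x * b i ∈ Submodule.span K (Set.range b)) →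
      (∀ i, y * b i ∈ Submodule.span K (Set.range b)) → False) (F : Subfield K) :
    ¬ Module.Finite F (Algebra.adjoin F {x, y}) := by
  intro hfin
  set D := Algebra.adjoin F {x, y}
  obtain ⟨s, b, hb⟩ := Module.Finite.exists_fin (R := F) (M := D)
  have h2 : ∀ v : D, v.1 ∈ Submodule.span K (Set.range fun i => (b i).1) := fun v => by
    obtain ⟨c, rfl⟩ := (Submodule.mem_span_range_iff_exists_fun F).1
      (hb ▸ Submodule.mem_top : v ∈ Submodule.span F (Set.range b))
    rw [AddSubmonoidClass.coe_finsetSum]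
    exact Submodule.sum_mem _ fun j _ =>
      Submodule.smul_mem _ (c j : K) (Submodule.subset_span ⟨j, rfl⟩)
  exact hlarge s (fun i => (b i).1) (h2 1)
    (fun i => h2 (⟨x, Algebra.subset_adjoin (by simp)⟩ * b i))
    fun i => h2 (⟨y, Algebra.subset_adjoin (by simp)⟩ * b i)

lemma adjoin_pair_top {F U : Type} [Field F] [Ring U] [Algebra F U] (x y : U) :
    Algebra.adjoin F {(⟨x, Algebra.subset_adjoin (by simp)⟩ : Algebra.adjoin F {x, y}),
      ⟨y, Algebra.subset_adjoin (by simp)⟩} = ⊤ := by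
  apply Subalgebra.map_injective (f := (Algebra.adjoin F {x, y}).val) Subtype.val_injective
  rw [AlgHom.map_adjoin, Algebra.map_top, Subalgebra.range_val, Set.image_pair]
  rfl

lemma ring_version {F D : Type} [Field F] [Ring D] [IsDomain D] [Algebra F D]
    [Algebra.IsIntegral F D] {x y : D} (htop : Algebra.adjoin F {x, y} = ⊤)
    (hinf : ¬ Module.Finite F D) : ∃ (D : Type) (_ : DivisionRing D),
    Algebra.IsAlgebraic (Subring.center D) D ∧ ∃ x y : D,
      Algebra.adjoin (Subring.center D) {x, y} = ⊤ ∧ ¬ Module.Finite (Subring.center D) D := by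
  let _ : DivisionRing D := DivisionRing.ofIsUnitOrEqZero fun a =>
    or_iff_not_imp_right.2 (Algebra.IsIntegral.isIntegral (R := F) a).isUnit
  exact ⟨D, inferInstance, center_version htop hinf⟩

theorem kurosh_counterexample : ∃ (D : Type) (_ : DivisionRing D),
    Algebra.IsAlgebraic (Subring.center D) D ∧ ∃ x y : D,
      Algebra.adjoin (Subring.center D) {x, y} = ⊤ ∧ ¬ Module.Finite (Subring.center D) D := by
  obtain ⟨K, U, _, _, _, τ, x, y, h1, halg, hlarge⟩ := exists_field_version
  obtain ⟨F, hF⟩ := exists_subfield_integral τ x y h1 halg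
  exact ring_version (adjoin_pair_top x y) (not_finite_of_large x y hlarge F)

end Vale.Agent.P199
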