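import Vale.Agent.P199.Count

/-! Graded vector spaces, Hilbert series and their numerators. -/

set_option linter.unusedSectionVars false

namespace Vale.Agent.P199

open Finsupp MvPolynomial Module

variable {σ ι : Type} [Fintype σ] [DecidableEq σ] [Fintype ι] [DecidableEq ι]

/-- A grading of a rational vector space by finite-dimensional pieces, with projections. -/
structure Gr (ι V : Type) [AddCommGroup V] [Module ℚ V] where
  piece : (ι →₀ ℕ) → Submodule ℚ V
  proj : (ι →₀ ℕ) → V →ₗ[ℚ] V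
  fin : ∀ γ, FiniteDimensional ℚ (piece γ)
  proj_same : ∀ γ v, v ∈ piece γ → proj γ v = v
  proj_ne : ∀ γ γ' v, v ∈ piece γ' → γ ≠ γ' → proj γ v = 0
  proj_mem : ∀ γ v, proj γ v ∈ piece γ

variable {V : Type} [AddCommGroup V] [Module ℚ V]

/-- Dimension series of a subspace. -/
noncomputable def dser (G : Gr ι V) (U : Submodule ℚ V) : MvPowerSeries ι ℤ :=
  fun γ => (finrank ℚ (U ⊓ G.piece γ : Submodule ℚ V) : ℤ)

/-- A subspace closed under the projections. -/
def Gr.Homog (G : Gr ι V) (U : Submodule ℚ V) : Prop := ∀ γ v, v ∈ U → G.proj γ v ∈ U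

/-- Weighted homogeneous subspace of a polynomial ring. -/
def PHomog (w : σ → ι →₀ ℕ) (l : Submodule ℚ (MvPolynomial σ ℚ)) : Prop :=
  ∀ γ v, v ∈ l → weightedHomogeneousComponent w γ v ∈ l

lemma piece_eq (w : σ → ι →₀ ℕ) (γ : ι →₀ ℕ) :
    weightedHomogeneousSubmodule ℚ w γ = restrictSupport ℚ {α | weight w α = γ} := by
  ext v
  rw [mem_weightedHomogeneousSubmodule, mem_restrictSupport_iff]
  constructor
  · intro h α hα
    exact h (MvPolynomial.mem_support_iff.1 hα)
  · intro h α hα
    exact h (MvPolynomial.mem_support_iff.2 hα)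

lemma fin_restrict (s : Set (σ →₀ ℕ)) (hs : s.Finite) :
    FiniteDimensional ℚ (restrictSupport ℚ s) := by
  have := hs.to_subtype
  exact Module.Finite.of_basis (basisRestrictSupport ℚ s)

lemma finrank_restrict (s : Set (σ →₀ ℕ)) : finrank ℚ (restrictSupport ℚ s) = s.ncard := by
  rw [finrank_eq_nat_card_basis (basisRestrictSupport ℚ s)]
  rfl

/-- The weighted grading of the polynomial ring. -/
noncomputable def polyGr (w : σ → ι →₀ ℕ) (hw : ∀ j, w j ≠ 0) : Gr ι (MvPolynomial σ ℚ) where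
  piece γ := weightedHomogeneousSubmodule ℚ w γ
  proj γ := weightedHomogeneousComponent w γ
  fin γ := by rw [piece_eq]; exact fin_restrict _ (finite_fiber w hw γ)
  proj_same _ _ hv := IsWeightedHomogeneous.weightedHomogeneousComponent_same hv
  proj_ne γ _ _ hv h := IsWeightedHomogeneous.weightedHomogeneousComponent_ne γ hv h
  proj_mem γ v := weightedHomogeneousComponent_mem w v γ

/-- Hilbert series of the quotient of the polynomial ring by a subspace. -/
noncomputable def Hser (w : σ → ι →₀ ℕ) (l : Submodule ℚ (MvPolynomial σ ℚ)) :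
    MvPowerSeries ι ℤ :=
  fun γ => (finrank ℚ (weightedHomogeneousSubmodule ℚ w γ) : ℤ) -
    (finrank ℚ (l ⊓ weightedHomogeneousSubmodule ℚ w γ : Submodule ℚ _) : ℤ)

lemma finrank_map_add {W : Type} [AddCommGroup W] [Module ℚ W] (φ : W →ₗ[ℚ] V)
    (A : Submodule ℚ W) [FiniteDimensional ℚ A] :
    finrank ℚ (A.map φ) + finrank ℚ (LinearMap.ker φ ⊓ A : Submodule ℚ W) = finrank ℚ A := by
  rw [← LinearMap.finrank_range_add_finrank_ker (φ.domRestrict A), LinearMap.range_domRestrict]
  congr 1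
  rw [LinearMap.ker_domRestrict, ← Submodule.finrank_map_subtype_eq A,
    Submodule.map_comap_subtype, inf_comm]

lemma coeff_Hser_ker (w : σ → ι →₀ ℕ) (hw : ∀ j, w j ≠ 0) (π : MvPolynomial σ ℚ →ₗ[ℚ] V)
    (γ : ι →₀ ℕ) : MvPowerSeries.coeff γ (Hser w (LinearMap.ker π)) =
      (finrank ℚ ((weightedHomogeneousSubmodule ℚ w γ).map π) : ℤ) := by
  have : FiniteDimensional ℚ (weightedHomogeneousSubmodule ℚ w γ) := (polyGr w hw).fin γ
  have := finrank_map_add π (weightedHomogeneousSubmodule ℚ w γ)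
  change (finrank ℚ (weightedHomogeneousSubmodule ℚ w γ) : ℤ) - _ = _
  rw [← this]; push_cast; ring

section add

variable (w : σ → ι →₀ ℕ) (G : Gr ι V) (φ : MvPolynomial σ ℚ →ₗ[ℚ] V) (δ : ι →₀ ℕ)
  (hφ : ∀ γ s, IsWeightedHomogeneous w s γ → φ s ∈ G.piece (γ + δ))
include hφ

lemma proj_map (γ : ι →₀ ℕ) (s : MvPolynomial σ ℚ) :
    G.proj γ (φ s) = if δ ≤ γ then φ (weightedHomogeneousComponent w (γ - δ) s) else 0 := by
  induction s using MvPolynomial.induction_on' with
  | monomial α c =>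
    have h1 : IsWeightedHomogeneous w (monomial α c) (weight w α) :=
      isWeightedHomogeneous_monomial w α c rfl
    have h2 := hφ _ _ h1
    by_cases h : γ = weight w α + δ
    · subst h
      rw [G.proj_same _ _ h2, if_pos le_add_self, add_tsub_cancel_right,
        h1.weightedHomogeneousComponent_same]
    · rw [G.proj_ne _ _ _ h2 h]
      split_ifs with hle
      · rw [h1.weightedHomogeneousComponent_ne, map_zero]
        intro h'
        exact h (by rw [← h', tsub_add_cancel_of_le hle])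
      · rfl
  | add p q hp hq =>
    rw [map_add, map_add, hp, hq]
    split_ifs <;> simp

lemma homog_sup_range {U : Submodule ℚ V} (hU : G.Homog U) :
    G.Homog (U ⊔ LinearMap.range φ) := by
  intro γ v hv
  obtain ⟨u, hu, _, ⟨s, rfl⟩, rfl⟩ := Submodule.mem_sup.1 hv
  rw [map_add, proj_map w G φ δ hφ]
  refine Submodule.add_mem_sup (hU γ u hu) ?_
  split_ifs
  · exact ⟨_, rfl⟩
  · exact Submodule.zero_mem _

lemma phomog_comap {U : Submodule ℚ V} (hU : G.Homog U) : PHomog w (U.comap φ) := by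
  intro γ v hv
  have := hU (γ + δ) _ hv
  rw [proj_map w G φ δ hφ, if_pos le_add_self, add_tsub_cancel_right] at this
  exact this

lemma dser_sup_range (hw : ∀ j, w j ≠ 0) {U : Submodule ℚ V} (hU : G.Homog U) :
    dser G (U ⊔ LinearMap.range φ) =
      dser G U + MvPowerSeries.monomial δ 1 * Hser w (U.comap φ) := by
  ext γ
  rw [map_add, MvPowerSeries.coeff_monomial_mul]
  change (finrank ℚ ((U ⊔ LinearMap.range φ) ⊓ G.piece γ : Submodule ℚ V) : ℤ) =
    (finrank ℚ (U ⊓ G.piece γ : Submodule ℚ V) : ℤ) + _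
  have key : ∀ v ∈ (U ⊔ LinearMap.range φ) ⊓ G.piece γ, ∃ u ∈ U, ∃ s, v = u +
      if δ ≤ γ then φ (weightedHomogeneousComponent w (γ - δ) s) else 0 := by
    rintro v ⟨hv, hv'⟩
    obtain ⟨u, hu, _, ⟨s, rfl⟩, rfl⟩ := Submodule.mem_sup.1 hv
    refine ⟨G.proj γ u, hU γ u hu, s, ?_⟩
    rw [← proj_map w G φ δ hφ, ← map_add, G.proj_same _ _ hv']
  split_ifs with hle
  · set W := weightedHomogeneousSubmodule ℚ w (γ - δ) with hW
    have : FiniteDimensional ℚ W := (polyGr w hw).fin (γ - δ)
    have := G.fin γ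
    have hmap : W.map φ ≤ G.piece γ := by
      rintro _ ⟨s, hs, rfl⟩
      have := hφ _ _ hs
      rwa [tsub_add_cancel_of_le hle] at this
    have e1 : (U ⊔ LinearMap.range φ) ⊓ G.piece γ = (U ⊓ G.piece γ) ⊔ W.map φ := by
      apply le_antisymm
      · intro v hv
        obtain ⟨u, hu, s, rfl⟩ := key v hv
        rw [if_pos hle] at hv ⊢
        have hs : φ (weightedHomogeneousComponent w (γ - δ) s) ∈ W.map φ :=
          ⟨_, weightedHomogeneousComponent_mem w s _, rfl⟩
        refine Submodule.add_mem_sup ⟨hu, ?_⟩ hs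
        have := (G.piece γ).sub_mem hv.2 (hmap hs)
        simpa using this
      · refine sup_le (inf_le_inf_right _ le_sup_left) (le_inf ?_ hmap)
        exact le_sup_of_le_right (LinearMap.map_le_range)
    have e2 : (U ⊓ G.piece γ) ⊓ W.map φ = (U.comap φ ⊓ W).map φ := by
      apply le_antisymm
      · rintro v ⟨⟨hv, -⟩, s, hs, rfl⟩
        exact ⟨s, ⟨hv, hs⟩, rfl⟩
      · rintro _ ⟨s, ⟨hs, hs'⟩, rfl⟩
        exact ⟨⟨hs, hmap ⟨s, hs', rfl⟩⟩, s, hs', rfl⟩
    have e3 : LinearMap.ker φ ⊓ (U.comap φ ⊓ W) = LinearMap.ker φ ⊓ W := by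
      apply le_antisymm (inf_le_inf_left _ inf_le_right)
      rintro s ⟨hs, hs'⟩
      refine ⟨hs, ?_, hs'⟩
      have : φ s = 0 := hs
      simp [this]
    have : FiniteDimensional ℚ (U ⊓ G.piece γ : Submodule ℚ V) :=
      Submodule.finiteDimensional_of_le inf_le_right
    have : FiniteDimensional ℚ (U.comap φ ⊓ W : Submodule ℚ _) :=
      Submodule.finiteDimensional_of_le inf_le_right
    have h1 := Submodule.finrank_sup_add_finrank_inf_eq (U ⊓ G.piece γ) (W.map φ)
    have h2 := finrank_map_add φ W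
    have h3 := finrank_map_add φ (U.comap φ ⊓ W)
    rw [e2] at h1
    rw [e3] at h3
    rw [e1, one_mul]
    change _ = _ + ((finrank ℚ W : ℤ) - (finrank ℚ (U.comap φ ⊓ W : Submodule ℚ _) : ℤ))
    omega
  · have e1 : (U ⊔ LinearMap.range φ) ⊓ G.piece γ = U ⊓ G.piece γ := by
      apply le_antisymm
      · intro v hv
        obtain ⟨u, hu, s, rfl⟩ := key v hv
        rw [if_neg hle, add_zero] at hv ⊢
        exact ⟨hu, hv.2⟩
      · exact inf_le_inf_right _ le_sup_left
    rw [e1, add_zero]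

end add

/-- `S` is a set of standard monomials for the subspace `l`. -/
def IsStd (w : σ → ι →₀ ℕ) (l : Submodule ℚ (MvPolynomial σ ℚ)) (S : Set (σ →₀ ℕ)) : Prop :=
  (∀ v ∈ l, (↑v.support : Set (σ →₀ ℕ)) ⊆ S → v = 0) ∧
    ∀ α, monomial α (1 : ℚ) ∈ l ⊔ restrictSupport ℚ (S ∩ {β | weight w β = weight w α})

lemma IsStd.piece_le {w : σ → ι →₀ ℕ} {l : Submodule ℚ (MvPolynomial σ ℚ)} {S : Set (σ →₀ ℕ)}
    (h : IsStd w l S) (γ : ι →₀ ℕ) : weightedHomogeneousSubmodule ℚ w γ ≤
      l ⊔ restrictSupport ℚ (S ∩ {β | weight w β = γ}) := by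
  rw [piece_eq, restrictSupport_eq_span, Submodule.span_le]
  rintro _ ⟨α, hα, rfl⟩
  have := h.2 α
  rw [show weight w α = γ from hα] at this
  exact this

lemma IsStd.Hser_eq {w : σ → ι →₀ ℕ} (hw : ∀ j, w j ≠ 0) {l : Submodule ℚ (MvPolynomial σ ℚ)}
    {S : Set (σ →₀ ℕ)} (h : IsStd w l S) : Hser w l = cnt w S := by
  ext γ
  rw [coeff_cnt, ← finrank_restrict]
  set W := weightedHomogeneousSubmodule ℚ w γ with hW
  set T := restrictSupport ℚ (S ∩ {β | weight w β = γ}) with hT
  have : FiniteDimensional ℚ W := (polyGr w hw).fin γ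
  have hTW : T ≤ W := by rw [hW, piece_eq]; exact restrictSupport_mono _ Set.inter_subset_right
  have : FiniteDimensional ℚ T := Submodule.finiteDimensional_of_le hTW
  have : FiniteDimensional ℚ (l ⊓ W : Submodule ℚ _) :=
    Submodule.finiteDimensional_of_le inf_le_right
  have e1 : (l ⊓ W) ⊔ T = W := by
    apply le_antisymm (sup_le inf_le_right hTW)
    intro v hv
    obtain ⟨a, ha, b, hb, rfl⟩ := Submodule.mem_sup.1 (h.piece_le γ hv)
    refine Submodule.add_mem_sup ⟨ha, ?_⟩ hb
    simpa using W.sub_mem hv (hTW hb)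
  have e2 : (l ⊓ W) ⊓ T = ⊥ := by
    rw [eq_bot_iff]
    rintro v ⟨⟨hv, -⟩, hv'⟩
    exact h.1 v hv (fun α hα => (hv' hα).1)
  have h1 := Submodule.finrank_sup_add_finrank_inf_eq (l ⊓ W) T
  rw [e1, e2, finrank_bot] at h1
  change (finrank ℚ W : ℤ) - (finrank ℚ (l ⊓ W : Submodule ℚ _) : ℤ) = _
  omega

/-- Closedness of a subspace under shifting supports by one variable. -/
def ShiftClosed (l : Submodule ℚ (MvPolynomial σ ℚ)) : Prop :=
  ∀ j, ∀ v ∈ l, ∃ v' ∈ l, v'.support = v.support.image (· + single j 1)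

theorem exists_isStd (w : σ → ι →₀ ℕ) (l : Submodule ℚ (MvPolynomial σ ℚ)) (hl : PHomog w l)
    (hs : ShiftClosed l) : ∃ S, IsLowerSet S ∧ IsStd w l S := by
  classical
  let : LinearOrder σ := LinearOrder.lift' (Fintype.equivFin σ) (Fintype.equivFin σ).injective
  let m : MonomialOrder σ := MonomialOrder.lex
  let L : Set (σ →₀ ℕ) :=
    {α | ∃ v ∈ l, α ∈ v.support ∧ ∀ β ∈ v.support, m.toSyn β ≤ m.toSyn α}
  have hL1 : ∀ j α, α ∈ L → α + single j 1 ∈ L := by
    rintro j α ⟨v, hv, h1, h2⟩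
    obtain ⟨v', hv', e⟩ := hs j v hv
    refine ⟨v', hv', by rw [e]; exact Finset.mem_image_of_mem _ h1, ?_⟩
    intro β hβ
    rw [e, Finset.mem_image] at hβ
    obtain ⟨β', hβ', rfl⟩ := hβ
    rw [map_add, map_add]
    exact add_le_add_left (h2 _ hβ') _
  have hL2 : ∀ β α, α ∈ L → α + β ∈ L := by
    intro β
    induction β using Finsupp.induction_linear with
    | zero => simp
    | add f g hf hg => intro α h; rw [← add_assoc]; exact hg _ (hf _ h)
    | single j n =>
      induction n with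
      | zero => simp
      | succ n ih => intro α h; rw [single_add, ← add_assoc]; exact hL1 _ _ (ih _ h)
  refine ⟨Lᶜ, ?_, ?_, ?_⟩
  · intro a b hab ha hb
    apply ha
    have := hL2 (a - b) b hb
    rwa [add_tsub_cancel_of_le hab] at this
  · intro v hv hsub
    by_contra h0
    obtain ⟨α, hα, hmax⟩ := Finset.exists_max_image v.support (fun β => m.toSyn β)
      (MvPolynomial.support_nonempty.2 h0)
    exact hsub hα ⟨v, hv, hα, hmax⟩
  · intro α
    induction hn : m.toSyn α using WellFoundedLT.induction generalizing α with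
    | ind n ih =>
    by_cases hα : α ∈ L
    · obtain ⟨v, hv, h1, h2⟩ := hα
      set v1 := weightedHomogeneousComponent w (weight w α) v with hv1
      have hc : coeff α v ≠ 0 := MvPolynomial.mem_support_iff.1 h1
      have e : monomial α (1 : ℚ) = (coeff α v)⁻¹ • v1 +
          (monomial α (1 : ℚ) - (coeff α v)⁻¹ • v1) := by abel
      rw [e]
      refine Submodule.add_mem _ (Submodule.mem_sup_left (l.smul_mem _ (hl _ _ hv))) ?_
      set r := monomial α (1 : ℚ) - (coeff α v)⁻¹ • v1 with hr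
      rw [r.as_sum]
      refine Submodule.sum_mem _ fun β hβ => ?_
      have hβ' := MvPolynomial.mem_support_iff.1 hβ
      have hne : β ≠ α := by
        rintro rfl
        apply hβ'
        simp [hr, hv1, coeff_weightedHomogeneousComponent, hc]
      have hβ2 : weight w β = weight w α ∧ coeff β v ≠ 0 := by
        by_contra hh
        apply hβ'
        rw [hr, coeff_sub, coeff_monomial, if_neg hne.symm, coeff_smul, hv1,
          coeff_weightedHomogeneousComponent]
        split_ifs with h3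
        · have : coeff β v = 0 := by by_contra h4; exact hh ⟨h3, h4⟩
          simp [this]
        · simp
      have hlt : m.toSyn β < n := by
        rw [← hn]
        exact lt_of_le_of_ne (h2 β (MvPolynomial.mem_support_iff.2 hβ2.2))
          (fun h => hne (m.toSyn.injective h))
      have := ih _ hlt β rfl
      rw [hβ2.1] at this
      have e2 : monomial β (coeff β r) = coeff β r • monomial β (1 : ℚ) := by
        rw [smul_monomial, smul_eq_mul, mul_one]
      rw [e2]
      exact Submodule.smul_mem _ _ this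
    · refine Submodule.mem_sup_right ?_
      rw [monomial_mem_restrictSupport]
      exact Or.inl ⟨hα, rfl⟩

end Vale.Agent.P199
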