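import Vale.Agent.P199.Dim

/-! Numerators of Hilbert series of homogeneous ideals and their leading classes. -/

set_option linter.unusedSectionVars false

namespace Vale.Agent.P199

open Finsupp MvPolynomial Module

variable {σ ι : Type} [Fintype σ] [DecidableEq σ] [Fintype ι] [DecidableEq ι]

theorem exists_homog_zero_div {A : Type} [Ring A] [Algebra ℚ A] (G : Gr ι A) (U : Submodule ℚ A)
    (hU : G.Homog U) (hl : ∀ a b, b ∈ U → a * b ∈ U) (hr : ∀ a b, a ∈ U → a * b ∈ U)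
    (hmul : ∀ γ δ a b, a ∈ G.piece γ → b ∈ G.piece δ → a * b ∈ G.piece (γ + δ))
    (hsum : ∀ a, ∃ s : Finset (ι →₀ ℕ), a = ∑ γ ∈ s, G.proj γ a)
    {a b : A} (hab : a * b ∈ U) (ha : a ∉ U) (hb : b ∉ U) :
    ∃ γ δ a' b', a' ∈ G.piece γ ∧ b' ∈ G.piece δ ∧ a' * b' ∈ U ∧ a' ∉ U ∧ b' ∉ U := by
  classical
  let _ : LinearOrder ι := LinearOrder.lift' (Fintype.equivFin ι) (Fintype.equivFin ι).injective
  let m : MonomialOrder ι := MonomialOrder.lex
  have key : ∀ a, a ∉ U → ∃ s : Finset (ι →₀ ℕ), ∃ γ ∈ s, G.proj γ a ∉ U ∧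
      (∀ γ' ∈ s, m.toSyn γ' ≤ m.toSyn γ) ∧ a - ∑ γ ∈ s, G.proj γ a ∈ U := by
    intro a ha
    obtain ⟨s, hs⟩ := hsum a
    have h1 : a - ∑ γ ∈ s.filter (fun γ => G.proj γ a ∉ U), G.proj γ a ∈ U := by
      conv => enter [2, 1]; rw [hs, ← Finset.sum_filter_add_sum_filter_not s
        (fun γ => G.proj γ a ∉ U)]
      rw [add_sub_cancel_left]
      exact U.sum_mem fun γ hγ => by simpa using (Finset.mem_filter.1 hγ).2
    have hne : (s.filter (fun γ => G.proj γ a ∉ U)).Nonempty := by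
      by_contra h
      rw [Finset.not_nonempty_iff_eq_empty] at h
      rw [h] at h1
      exact ha (by simpa using h1)
    obtain ⟨γ, hγ, hmax⟩ := Finset.exists_max_image _ (fun β => m.toSyn β) hne
    exact ⟨_, γ, hγ, (Finset.mem_filter.1 hγ).2, hmax, h1⟩
  obtain ⟨s, γ, hγ, h1, h2, h3⟩ := key a ha
  obtain ⟨t, δ, hδ, k1, k2, k3⟩ := key b hb
  refine ⟨γ, δ, G.proj γ a, G.proj δ b, G.proj_mem _ _, G.proj_mem _ _, ?_, h1, k1⟩
  set a1 := ∑ γ ∈ s, G.proj γ a with ha1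
  set b1 := ∑ γ ∈ t, G.proj γ b with hb1
  have h4 : a1 * b1 ∈ U := by
    have : a1 * b1 = a * b - (a - a1) * b - a1 * (b - b1) := by noncomm_ring
    rw [this]
    exact U.sub_mem (U.sub_mem hab (hr _ _ h3)) (hl _ _ k3)
  have h5 := hU (γ + δ) _ h4
  rw [ha1, hb1, Finset.sum_mul_sum, map_sum, Finset.sum_eq_single γ, map_sum,
    Finset.sum_eq_single δ, G.proj_same _ _ (hmul _ _ _ _ (G.proj_mem _ _) (G.proj_mem _ _))] at h5
  · exact h5
  · intro δ' _ hne
    refine G.proj_ne _ _ _ (hmul _ _ _ _ (G.proj_mem _ _) (G.proj_mem _ _)) ?_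
    intro h
    exact hne (add_left_cancel h).symm
  · intro h; exact absurd hδ h
  · intro γ' hγ' hne
    rw [map_sum]
    refine Finset.sum_eq_zero fun δ' hδ' => ?_
    refine G.proj_ne _ _ _ (hmul _ _ _ _ (G.proj_mem _ _) (G.proj_mem _ _)) ?_
    intro h
    have e := congrArg m.toSyn h
    rw [map_add, map_add] at e
    have hlt : m.toSyn γ' < m.toSyn γ :=
      lt_of_le_of_ne (h2 _ hγ') (fun h => hne (m.toSyn.injective h))
    exact absurd e (ne_of_gt (add_lt_add_of_lt_of_le hlt (k2 _ hδ')))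
  · intro h; exact absurd hγ h

/-- `K` is the numerator of the Hilbert series of the quotient by `l`. -/
def IsNum (w : σ → ι →₀ ℕ) (l : Submodule ℚ (MvPolynomial σ ℚ)) (K : MvPolynomial ι ℤ) : Prop :=
  (K : MvPowerSeries ι ℤ) =
    Hser w l * ∏ j, ((om (w j) : MvPolynomial ι ℤ) : MvPowerSeries ι ℤ)

theorem exists_isNum (w : σ → ι →₀ ℕ) (hw : ∀ j, w j ≠ 0) (l : Submodule ℚ (MvPolynomial σ ℚ))
    (hl : PHomog w l) (hs : ShiftClosed l) : ∃ K ∈ numSpan w (Indep l), IsNum w l K := by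
  obtain ⟨S, hS, hstd⟩ := exists_isStd w l hl hs
  obtain ⟨K, hK, e⟩ := exists_num w hw S hS
  refine ⟨K, numSpan_mono w (fun F hF v hv hsup => ?_) hK, ?_⟩
  · exact hstd.1 v hv fun α hα => hF (hsup α hα)
  · rw [IsNum, hstd.Hser_eq hw, e]

/-- Homogeneous ideal. -/
def IHomog (w : σ → ι →₀ ℕ) (a : Ideal (MvPolynomial σ ℚ)) : Prop :=
  PHomog w (a.restrictScalars ℚ)

open Classical in
/-- The numerator of the Hilbert series of the quotient by an ideal. -/
noncomputable def kp (w : σ → ι →₀ ℕ) (a : Ideal (MvPolynomial σ ℚ)) : MvPolynomial ι ℤ :=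
  if h : ∃ K, IsNum w (a.restrictScalars ℚ) K then h.choose else 0

lemma kp_eq {w : σ → ι →₀ ℕ} {a : Ideal (MvPolynomial σ ℚ)} {K : MvPolynomial ι ℤ}
    (h : IsNum w (a.restrictScalars ℚ) K) : kp w a = K := by
  have h' : ∃ K, IsNum w (a.restrictScalars ℚ) K := ⟨K, h⟩
  rw [kp, dif_pos h']
  apply MvPolynomial.coe_injective
  exact h'.choose_spec.trans h.symm

lemma shiftClosed_ideal (a : Ideal (MvPolynomial σ ℚ)) : ShiftClosed (a.restrictScalars ℚ) := by
  intro j v hv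
  refine ⟨v * X j, a.mul_mem_right _ hv, ?_⟩
  rw [support_mul_X, Finset.map_eq_image]; rfl

lemma kp_spec {w : σ → ι →₀ ℕ} (hw : ∀ j, w j ≠ 0) {a : Ideal (MvPolynomial σ ℚ)}
    (ha : IHomog w a) : kp w a ∈ numSpan w (Indep (a.restrictScalars ℚ)) ∧
      IsNum w (a.restrictScalars ℚ) (kp w a) := by
  obtain ⟨K, h1, h2⟩ := exists_isNum w hw _ ha (shiftClosed_ideal a)
  rw [kp_eq h2]; exact ⟨h1, h2⟩

/-- The colon ideal. -/
noncomputable def col (a : Ideal (MvPolynomial σ ℚ)) (f : MvPolynomial σ ℚ) : Ideal (MvPolynomial σ ℚ) :=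
  Submodule.comap (LinearMap.toSpanSingleton _ _ f) a

lemma mem_col {a : Ideal (MvPolynomial σ ℚ)} {f s : MvPolynomial σ ℚ} :
    s ∈ col a f ↔ s * f ∈ a := Iff.rfl

section colon
variable {w : σ → ι →₀ ℕ} (hw : ∀ j, w j ≠ 0) {a : Ideal (MvPolynomial σ ℚ)} (ha : IHomog w a)
  {f : MvPolynomial σ ℚ} {δ : ι →₀ ℕ} (hf : IsWeightedHomogeneous w f δ)
include hw ha hf

lemma colon_facts : IHomog w (a ⊔ Ideal.span {f}) ∧ IHomog w (col a f) ∧
    kp w a = kp w (a ⊔ Ideal.span {f}) + monomial δ 1 * kp w (col a f) := by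
  let φ : MvPolynomial σ ℚ →ₗ[ℚ] MvPolynomial σ ℚ := LinearMap.mulRight ℚ f
  have hφ : ∀ γ s, IsWeightedHomogeneous w s γ → φ s ∈ (polyGr w hw).piece (γ + δ) :=
    fun γ s hs => hs.mul hf
  have e1 : (a ⊔ Ideal.span {f}).restrictScalars ℚ = a.restrictScalars ℚ ⊔ LinearMap.range φ := by
    ext v
    simp only [Submodule.restrictScalars_mem, Submodule.mem_sup, Ideal.mem_span_singleton',
      LinearMap.mem_range, φ, LinearMap.mulRight_apply]
  have e2 : (col a f).restrictScalars ℚ = (a.restrictScalars ℚ).comap φ := rfl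
  have h1 : IHomog w (a ⊔ Ideal.span {f}) := by
    rw [IHomog, e1]; exact homog_sup_range w (polyGr w hw) φ δ hφ ha
  have h2 : IHomog w (col a f) := by
    rw [IHomog, e2]; exact phomog_comap w (polyGr w hw) φ δ hφ ha
  refine ⟨h1, h2, kp_eq ?_⟩
  have h3 := dser_sup_range w (polyGr w hw) φ δ hφ hw ha
  rw [← e1, ← e2] at h3
  have h4 : ∀ l : Submodule ℚ (MvPolynomial σ ℚ),
      Hser w l = dser (polyGr w hw) ⊤ - dser (polyGr w hw) l := by
    intro l
    ext γ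
    rw [map_sub]
    change _ - _ = (finrank ℚ (⊤ ⊓ (polyGr w hw).piece γ : Submodule ℚ _) : ℤ) - _
    rw [top_inf_eq]; rfl
  rw [IsNum, MvPolynomial.coe_add, MvPolynomial.coe_mul, (kp_spec hw h1).2, (kp_spec hw h2).2,
    MvPolynomial.coe_monomial, h4 (a.restrictScalars ℚ), h4 ((a ⊔ Ideal.span {f}).restrictScalars ℚ),
    h3]
  ring

end colon

lemma kp_top (w : σ → ι →₀ ℕ) : kp w ⊤ = 0 := by
  apply kp_eq
  have : Hser w ((⊤ : Ideal (MvPolynomial σ ℚ)).restrictScalars ℚ) = 0 := by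
    ext γ
    change (_ : ℤ) - _ = 0
    rw [Submodule.restrictScalars_top, top_inf_eq, sub_self]
  rw [IsNum, this]; simp

lemma ihomog_bot (w : σ → ι →₀ ℕ) : IHomog w ⊥ := by
  intro γ v hv
  have : v = 0 := by simpa using hv
  simp [this]

lemma kp_bot (w : σ → ι →₀ ℕ) (hw : ∀ j, w j ≠ 0) : kp w ⊥ = 1 := by
  apply kp_eq
  have h : IsStd w ((⊥ : Ideal (MvPolynomial σ ℚ)).restrictScalars ℚ) (cone Finset.univ) := by
    refine ⟨fun v hv _ => by simpa using hv, fun α => Submodule.mem_sup_right ?_⟩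
    rw [monomial_mem_restrictSupport]
    exact Or.inl ⟨Finset.subset_univ _, rfl⟩
  rw [IsNum, h.Hser_eq hw, cnt_cone w hw]; simp

lemma isPrime_of_homog {w : σ → ι →₀ ℕ} (hw : ∀ j, w j ≠ 0) {a : Ideal (MvPolynomial σ ℚ)}
    (ha : IHomog w a) (htop : a ≠ ⊤) (hp : ¬ a.IsPrime) :
    ∃ γ δ f g, IsWeightedHomogeneous w f γ ∧ IsWeightedHomogeneous w g δ ∧ f * g ∈ a ∧
      f ∉ a ∧ g ∉ a := by
  rw [Ideal.isPrime_iff] at hp
  push Not at hp
  obtain ⟨f, g, hfg, hf, hg⟩ := hp htop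
  refine exists_homog_zero_div (polyGr w hw) (a.restrictScalars ℚ) ha
    (fun x y h => a.mul_mem_left x h) (fun x y h => a.mul_mem_right y h)
    (fun γ δ x y hx hy => IsWeightedHomogeneous.mul hx hy) (fun v => ?_) hfg hf hg
  refine ⟨v.support.image (weight w), ?_⟩
  ext α
  rw [coeff_sum]
  simp only [polyGr, coeff_weightedHomogeneousComponent]
  rw [Finset.sum_ite_eq]
  split_ifs with h
  · rfl
  · by_contra h'
    exact h (Finset.mem_image_of_mem _ (MvPolynomial.mem_support_iff.2 h'))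

end Vale.Agent.P199
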