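import Vale.Agent.P199.QA

/-! Large transcendence degree forces the generated subalgebra to be large. -/

set_option linter.unusedSectionVars false
set_option linter.unusedVariables false

namespace Vale.Agent.P199

open Module TensorProduct

theorem exists_derivs {L : Type} [Field L] [Algebra ℚ L] {F : Type} [Fintype F] [DecidableEq F]
    (z : F → L) (hz : IsTranscendenceBasis ℚ z) :
    ∃ D : F → Derivation ℚ L L, ∀ i j, D i (z j) = if j = i then 1 else 0 := by
  let A := MvPolynomial F ℚ
  let _ : Algebra A L := (MvPolynomial.aeval z : A →ₐ[ℚ] L).toRingHom.toAlgebra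
  have hA : ∀ a : A, algebraMap A L a = MvPolynomial.aeval z a := fun _ => rfl
  have : IsScalarTower ℚ A L := IsScalarTower.of_algebraMap_eq fun r => by
    rw [hA, AlgHom.commutes]
  have : FaithfulSMul A L := (faithfulSMul_iff_algebraMap_injective A L).2 hz.1
  let _ := FractionRing.liftAlgebra A L
  have := FractionRing.isScalarTower_liftAlgebra A L
  have : Algebra.IsAlgebraic A L :=
    (Algebra.isAlgebraic_ringHom_iff_of_comp_eq hz.1.aevalEquiv.toRingEquiv (RingEquiv.refl L)
      (RingHom.ext fun a => hz.1.algebraMap_aevalEquiv a)).1 hz.isAlgebraic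
  have : Algebra.IsAlgebraic (FractionRing A) L :=
    Algebra.IsAlgebraic.extendScalars (R := A) (IsFractionRing.injective A _)
  have : Algebra.FormallyEtale A (FractionRing A) :=
    Algebra.FormallyEtale.of_isLocalization (nonZeroDivisors A)
  have : Algebra.FormallyEtale (FractionRing A) L := Algebra.FormallyEtale.of_isSeparable _ _
  have : Algebra.FormallyEtale A L := Algebra.FormallyEtale.comp A (FractionRing A) L
  let d : F → Derivation ℚ A L := fun i =>
    (Algebra.linearMap A L).compDer (MvPolynomial.pderiv i)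
  refine ⟨fun i => KaehlerDifferential.linearMapEquivDerivation ℚ L
    ((d i).liftKaehlerDifferential.liftBaseChange L ∘ₗ
      (KaehlerDifferential.tensorKaehlerEquivOfFormallyEtale ℚ A L).symm.toLinearMap),
    fun i j => ?_⟩
  have e : z j = algebraMap A L (MvPolynomial.X j) := by simp [hA]
  rw [e]
  change (d i).liftKaehlerDifferential.liftBaseChange L
    ((KaehlerDifferential.tensorKaehlerEquivOfFormallyEtale ℚ A L).symm
      (KaehlerDifferential.D ℚ L (algebraMap A L (MvPolynomial.X j)))) = _
  rw [KaehlerDifferential.tensorKaehlerEquivOfFormallyEtale_symm_D_algebraMap,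
    LinearMap.liftBaseChange_tmul, one_smul, Derivation.liftKaehlerDifferential_comp_D]
  change algebraMap A L (MvPolynomial.pderiv i (MvPolynomial.X j)) = _
  rw [MvPolynomial.pderiv_X, Pi.single_apply]
  split_ifs <;> simp

theorem card_le_finrank_der {L : Type} [Field L] [Algebra ℚ L] {F : Type} [Fintype F]
    [DecidableEq F] (z : F → L) (hz : IsTranscendenceBasis ℚ z)
    [Module.Finite L (Derivation ℚ L L)] : Fintype.card F ≤ finrank L (Derivation ℚ L L) := by
  obtain ⟨D, hD⟩ := exists_derivs z hz
  refine LinearIndependent.fintype_card_le_finrank (b := D) (Fintype.linearIndependent_iff.2 ?_)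
  intro c hc j
  have := congrArg (fun d : Derivation ℚ L L => d (z j)) hc
  simp only [← Derivation.coeFnAddMonoidHom_apply, map_sum, Finset.sum_apply] at this
  simpa [hD] using this

theorem derivation_inner {L B D : Type} [Field L] [CharZero L] [Ring B] [IsDomain B] [Algebra L B]
    [FiniteDimensional L B] [Ring D] [Algebra L D] (ι : B →ₐ[L] D) (δ : B →ₗ[L] D)
    (hδ : ∀ a b, δ (a * b) = δ a * ι b + ι a * δ b) : ∃ g : D, ∀ a, δ a = g * ι a - ι a * g := by
  classical
  let T : B →ₗ[L] L := LinearMap.trace L B ∘ₗ (Algebra.lmul L B).toLinearMap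
  have Tc : ∀ a b, T (a * b) = T (b * a) := fun a b => by
    simp only [T, LinearMap.comp_apply, AlgHom.toLinearMap_apply, map_mul]
    exact LinearMap.trace_mul_comm _ _ _
  have hs : (finrank L B : L) ≠ 0 := Nat.cast_ne_zero.2 Module.finrank_pos.ne'
  have T1 : T 1 = finrank L B := by
    simp only [T, LinearMap.comp_apply, AlgHom.toLinearMap_apply, map_one, LinearMap.trace_one]
  have hunit : ∀ a : B, a ≠ 0 → IsUnit a := fun a ha =>
    (Algebra.IsIntegral.isIntegral (R := L) a).isUnit ha
  let φ : LinearMap.BilinForm L B := (LinearMap.mul L B).compr₂ T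
  have hφ : ∀ a b, φ a b = T (a * b) := fun _ _ => rfl
  have hnd : φ.Nondegenerate := by
    constructor
    · intro a ha
      by_contra h
      obtain ⟨c, hc⟩ := (hunit a h).exists_right_inv
      exact hs (by rw [← T1, ← hc]; exact ha c)
    · intro a ha
      by_contra h
      obtain ⟨c, hc⟩ := (hunit a h).exists_left_inv
      exact hs (by rw [← T1, ← hc]; exact ha c)
  let b := Module.finBasis L B
  let c := φ.dualBasis hnd b
  have hcb : ∀ i j, T (c i * b j) = if j = i then 1 else 0 := fun i j =>
    LinearMap.BilinForm.apply_dualBasis_left hnd b i j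
  have e1 : ∀ x, x = ∑ j, T (c j * x) • b j := by
    intro x
    conv_lhs => rw [← b.sum_repr x]
    refine Finset.sum_congr rfl fun j _ => ?_
    conv_rhs => rw [← b.sum_repr x]
    simp only [Finset.mul_sum, mul_smul_comm, map_sum, map_smul, hcb]
    simp
  have e2 : ∀ x, x = ∑ i, T (x * b i) • c i := by
    intro x
    conv_lhs => rw [← c.sum_repr x]
    refine Finset.sum_congr rfl fun j _ => ?_
    conv_rhs => rw [← c.sum_repr x]
    simp only [Finset.sum_mul, smul_mul_assoc, map_sum, map_smul, hcb]
    simp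
  have cas : ∀ {W : Type} [AddCommGroup W] [Module L W] (Φ : B →ₗ[L] B →ₗ[L] W) (x : B),
      ∑ i, Φ (x * b i) (c i) = ∑ i, Φ (b i) (c i * x) := by
    intro W _ _ Φ x
    calc ∑ i, Φ (x * b i) (c i) = ∑ i, ∑ j, T (c j * x * b i) • Φ (b j) (c i) := by
          refine Finset.sum_congr rfl fun i _ => ?_
          conv_lhs => rw [e1 (x * b i)]
          simp [mul_assoc]
      _ = ∑ j, Φ (b j) (c j * x) := by
          rw [Finset.sum_comm]
          refine Finset.sum_congr rfl fun j _ => ?_
          conv_rhs => rw [e2 (c j * x)]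
          simp
  set z : B := ∑ i, b i * c i with hz
  have hz0 : z ≠ 0 := by
    intro h
    have : T z = finrank L B := by
      rw [hz, map_sum]
      simp [Tc (b _), hcb]
    rw [h, map_zero] at this
    exact hs this.symm
  have hzc : ∀ x, x * z = z * x := fun x => by
    have := cas (LinearMap.mul L B) x
    simpa [hz, Finset.mul_sum, Finset.sum_mul, mul_assoc] using this
  obtain ⟨zu, hzu⟩ := hunit z hz0
  set g : D := ∑ i, δ (b i) * ι (c i) with hg
  refine ⟨g * ι ↑zu⁻¹, fun x => ?_⟩
  have h1 := cas ((LinearMap.mul L D).compl₁₂ δ ι.toLinearMap) x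
  simp only [LinearMap.compl₁₂_apply, LinearMap.mul_apply', AlgHom.toLinearMap_apply, hδ, add_mul,
    Finset.sum_add_distrib, map_mul, mul_assoc] at h1
  have h2 : δ x * ι z = g * ι x - ι x * g := by
    rw [hz, hg, map_sum, Finset.mul_sum, Finset.mul_sum, Finset.sum_mul, eq_sub_iff_add_eq]
    simpa [mul_assoc] using h1
  have h3 : (↑zu⁻¹ : B) * x = x * ↑zu⁻¹ := by
    rw [Units.inv_mul_eq_iff_eq_mul, ← mul_assoc, Units.eq_mul_inv_iff_mul_eq, hzu, hzc]
  have h4 : δ x = δ x * ι z * ι ↑zu⁻¹ := by
    rw [mul_assoc, ← map_mul, ← hzu, Units.mul_inv, map_one, mul_one]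
  rw [h4, h2, sub_mul, mul_assoc, mul_assoc, mul_assoc, ← map_mul, ← map_mul, h3]

variable {ι : Type} [Fintype ι] [DecidableEq ι] {β : BB ι} {L : Type} [Field L] [Algebra ℚ L]
  {t : ι → L}

/-- Coefficientwise action of derivations. -/
def dext (a : QA β t) : Derivation ℚ L L →ₗ[L] QA β t where
  toFun d h := d (a h)
  map_add' _ _ := rfl
  map_smul' _ _ := rfl

lemma dext_apply (a : QA β t) (d : Derivation ℚ L L) (h : HH ι) : dext a d h = d (a h) := rfl

lemma dext_mul (d : Derivation ℚ L L) (hd : ∀ i, d (t i) = 0) (a b : QA β t) :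
    dext (a * b) d = dext a d * b + a * dext b d := by
  have hc : ∀ x y, d (cc β t x y) = 0 := by
    intro x y
    have h1 : d (sg L (β x y)) = 0 := by
      rcases zmod2_cases (β x y) with h | h <;> simp [h]
    have h2 : d (tw t x y) = 0 := by
      refine Finset.prod_induction _ (fun a => d a = 0) (fun a b ha hb => ?_) (by simp)
        fun i _ => ?_
      · simp [ha, hb]
      · simp [Derivation.leibniz_pow, hd]
    rw [cc, Derivation.leibniz, h1, h2]; simp
  ext h
  simp only [dext_apply, QA.add_apply, QA.mul_apply, map_sum, Derivation.leibniz, hc,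
    ← Finset.sum_add_distrib, smul_eq_mul]
  exact Finset.sum_congr rfl fun x _ => by ring

lemma dext_sum_smul {κ : Type} [Fintype κ] (d : Derivation ℚ L L) (c : κ → L)
    (hc : ∀ j, d (c j) = 0) (f : κ → QA β t) :
    dext (∑ j, c j • f j) d = ∑ j, c j • dext (f j) d := by
  ext h
  simp [dext_apply, QA.sum_apply, hc]

theorem der_bound [IsDomain (QA β t)] (x y : QA β t)
    (hgen : ∀ d : Derivation ℚ L L, (∀ i, d (t i) = 0) → (∀ h, d (x h) = 0) →
      (∀ h, d (y h) = 0) → d = 0) {s : ℕ}
    (hs : finrank L (Algebra.adjoin L {x, y}) = s) :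
    Module.Finite L (Derivation ℚ L L) ∧ finrank L (Derivation ℚ L L) ≤
      Fintype.card ι + (s * (s * s) + (s + s)) + Fintype.card (HH ι) := by
  have : CharZero L := algebraRat.charZero L
  set B := Algebra.adjoin L {x, y} with hB
  let b : Basis (Fin s) L B := Module.finBasisOfFinrankEq L B hs
  let x' : B := ⟨x, Algebra.subset_adjoin (by simp)⟩
  let y' : B := ⟨y, Algebra.subset_adjoin (by simp)⟩
  let ev : L → Derivation ℚ L L →ₗ[L] L := fun c =>
    { toFun := fun d => d c, map_add' := fun _ _ => rfl, map_smul' := fun _ _ => rfl }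
  let Φ : Derivation ℚ L L →ₗ[L] (ι → L) × (Fin s → Fin s → Fin s → L) ×
      (Fin s → L) × (Fin s → L) :=
    (LinearMap.pi fun i => ev (t i)).prod ((LinearMap.pi fun i => LinearMap.pi fun j =>
      LinearMap.pi fun l => ev (b.repr (b i * b j) l)).prod
        ((LinearMap.pi fun l => ev (b.repr x' l)).prod (LinearMap.pi fun l => ev (b.repr y' l))))
  let Ψ : Derivation ℚ L L →ₗ[L] QA β t × QA β t := (dext x).prod (dext y)
  let Θ : QA β t →ₗ[L] QA β t × QA β t :=
    (LinearMap.mulRight L x - LinearMap.mulLeft L x).prod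
      (LinearMap.mulRight L y - LinearMap.mulLeft L y)
  have hinj : ∀ d, Φ d = 0 → Ψ d = 0 → d = 0 := fun d h1 h2 =>
    hgen d (fun i => congrFun (congrArg Prod.fst h1) i)
      (fun h => congrFun (congrArg Prod.fst h2) h) fun h => congrFun (congrArg Prod.snd h2) h
  have hfin : Module.Finite L (Derivation ℚ L L) := Module.Finite.of_injective (Φ.prod Ψ)
    ((injective_iff_map_eq_zero _).2 fun d h => hinj d (congrArg Prod.fst h) (congrArg Prod.snd h))
  refine ⟨hfin, ?_⟩
  have hr : ∀ d, Φ d = 0 → Ψ d ∈ LinearMap.range Θ := by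
    intro d hd
    have h1 : ∀ i, d (t i) = 0 := fun i => congrFun (congrArg Prod.fst hd) i
    have h2 : ∀ i j l, d (b.repr (b i * b j) l) = 0 := fun i j l =>
      congrFun (congrFun (congrFun (congrArg (fun p => p.2.1) hd) i) j) l
    have h3 : ∀ l, d (b.repr x' l) = 0 := fun l => congrFun (congrArg (fun p => p.2.2.1) hd) l
    have h4 : ∀ l, d (b.repr y' l) = 0 := fun l => congrFun (congrArg (fun p => p.2.2.2) hd) l
    let δ : B →ₗ[L] QA β t := b.constr L fun i => dext (b i : QA β t) d
    have hδ : ∀ a : B, (∀ l, d (b.repr a l) = 0) → δ a = dext (a : QA β t) d := by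
      intro a ha
      have e : (a : QA β t) = ∑ l, b.repr a l • (b l : QA β t) := by
        conv_lhs => rw [← b.sum_repr a]
        rw [AddSubmonoidClass.coe_finsetSum]; rfl
      rw [e, dext_sum_smul d _ ha, Basis.constr_apply_fintype]; rfl
    obtain ⟨g, hg⟩ := derivation_inner B.val δ (by
      intro a a'
      have : (LinearMap.mul L B).compr₂ δ = (LinearMap.mul L _).compl₁₂ δ B.val.toLinearMap +
          (LinearMap.mul L _).compl₁₂ B.val.toLinearMap δ := by
        refine b.ext fun i => b.ext fun j => ?_
        simp only [LinearMap.compr₂_apply, LinearMap.mul_apply', LinearMap.add_apply,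
          LinearMap.compl₁₂_apply, AlgHom.toLinearMap_apply, Subalgebra.coe_val]
        rw [hδ _ (h2 i j), MulMemClass.coe_mul, dext_mul d h1, Basis.constr_basis,
          Basis.constr_basis]
      exact congrArg (fun f => f a a') this)
    refine ⟨g, Prod.ext ?_ ?_⟩
    · exact (hg x').symm.trans (hδ x' h3)
    · exact (hg y').symm.trans (hδ y' h4)
  have k1 := LinearMap.finrank_range_add_finrank_ker Φ
  have k2 : finrank L (LinearMap.range Φ) ≤ Fintype.card ι + (s * (s * s) + (s + s)) := by
    refine (Submodule.finrank_le _).trans ?_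
    simp [Module.finrank_prod, Module.finrank_pi_fintype]
  have k3 : finrank L (LinearMap.ker Φ) ≤ finrank L (LinearMap.range Θ) :=
    LinearMap.finrank_le_finrank_of_injective
      (f := (Ψ.domRestrict (LinearMap.ker Φ)).codRestrict _ fun d => hr d.1 d.2)
      ((injective_iff_map_eq_zero _).2 fun d h =>
        Subtype.ext (hinj d.1 d.2 (congrArg Subtype.val h)))
  have k4 : finrank L (LinearMap.range Θ) ≤ Fintype.card (HH ι) :=
    (LinearMap.finrank_range_le Θ).trans (Module.finrank_fintype_fun_eq_card L).le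
  omega

end Vale.Agent.P199
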