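import Vale.Agent.P199.Stage

/-! The ultraproduct of the finite stages. -/

set_option linter.unusedSectionVars false
set_option linter.unusedVariables false

namespace Vale.Agent.P199

open Filter

/-- The limit object. -/
structure Lim where
  D : Type
  [ring : Ring D]
  one_ne : (1 : D) ≠ 0
  unit : ∀ a : D, a ≠ 0 → ∃ b, a * b = 1
  τ : D →+ D
  x : D
  y : D
  τ_comm : ∀ a b, τ a * b = b * τ a
  τ_mul : ∀ a b, τ (τ a * b) = τ a * τ b
  τ_one : τ 1 = 1
  alg : ∀ g : Tm, ∃ (n : ℕ) (c : Fin n → D),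
    (∃ j, τ (c j) ≠ 0) ∧ ∑ j, τ (c j) * g.ev τ x y ^ (j : ℕ) = 0
  large : ∀ (s : ℕ) (b α : Fin s → D) (A B : Fin s → Fin s → D), 1 = ∑ j, τ (α j) * b j →
    (∀ i, x * b i = ∑ j, τ (A i j) * b j) → (∀ i, y * b i = ∑ j, τ (B i j) * b j) → False

attribute [instance] Lim.ring

/-- Equality almost everywhere. -/
def ucon (st : ∀ m, Stage m) : RingCon (∀ m, (st m).D) where
  r a b := ∀ᶠ m in (hyperfilter ℕ : Filter ℕ), a m = b m
  iseqv := ⟨fun _ => Eventually.of_forall fun _ => rfl, fun h => h.mono fun _ e => e.symm,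
    fun h h' => (h.and h').mono fun _ e => e.1.trans e.2⟩
  mul' h h' := (h.and h').mono fun m e => by simp [e.1, e.2]
  add' h h' := (h.and h').mono fun m e => by simp [e.1, e.2]

theorem exists_lim : Nonempty Lim := by
  let st : ∀ m, Stage m := fun m => (exists_stage m).some
  let c := ucon st
  let π := c.mk'
  have hπ : ∀ a b, π a = π b ↔ ∀ᶠ m in (hyperfilter ℕ : Filter ℕ), a m = b m := fun a b => c.eq
  have hs : Function.Surjective π := c.mk'_surjective
  let τ0 : (∀ m, (st m).D) →+ ∀ m, (st m).D :=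
    { toFun := fun a m => (st m).τ (a m)
      map_zero' := by ext m; simp
      map_add' := fun a b => by ext m; simp }
  let τ : c.Quotient →+ c.Quotient := c.toAddCon.lift (π.toAddMonoidHom.comp τ0)
    fun a b h => (hπ _ _).2 (Eventually.mono h fun m e => congrArg (st m).τ e)
  have hτ : ∀ a, τ (π a) = π (τ0 a) := fun a => rfl
  have hge : ∀ n, ∀ᶠ m in (hyperfilter ℕ : Filter ℕ), n ≤ m := fun n =>
    Nat.hyperfilter_le_atTop (eventually_ge_atTop n)
  let x0 : ∀ m, (st m).D := fun m => (st m).x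
  let y0 : ∀ m, (st m).D := fun m => (st m).y
  have hev : ∀ g : Tm, g.ev τ (π x0) (π y0) = π fun m => g.ev (st m).τ (st m).x (st m).y := by
    intro g
    induction g with
    | x => rfl
    | y => rfl
    | one => rfl
    | neg a ih => rw [Tm.ev, ih, ← map_neg]; rfl
    | add a b ih ih' => rw [Tm.ev, ih, ih', ← map_add]; rfl
    | mul a b ih ih' => rw [Tm.ev, ih, ih', ← map_mul]; rfl
    | tr a ih => rw [Tm.ev, ih, hτ]; rfl
  refine ⟨{ D := c.Quotient, τ := τ, x := π x0, y := π y0, one_ne := fun h => ?_,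
            unit := fun a ha => ?_, τ_comm := fun a b => ?_, τ_mul := fun a b => ?_,
            τ_one := ?_, alg := fun g => ?_, large := fun s b α A B h1 h2 h3 => ?_ }⟩
  · rw [← map_one π, ← map_zero π, hπ] at h
    obtain ⟨m, hm⟩ := h.exists
    exact (st m).one_ne hm
  · obtain ⟨a, rfl⟩ := hs a
    have h1 : ∀ m, ∃ b, a m ≠ 0 → a m * b = 1 := fun m => by
      by_cases h : a m = 0
      · exact ⟨0, fun h' => absurd h h'⟩
      · obtain ⟨b, hb⟩ := (st m).unit _ h
        exact ⟨b, fun _ => hb⟩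
    choose b hb using h1
    refine ⟨π b, ?_⟩
    rw [Ne, ← map_zero π, hπ, ← Ultrafilter.eventually_not] at ha
    rw [← map_mul, ← map_one π, hπ]
    exact ha.mono fun m h => hb m h
  · obtain ⟨a, rfl⟩ := hs a
    obtain ⟨b, rfl⟩ := hs b
    rw [hτ, ← map_mul, ← map_mul]
    exact congrArg π (funext fun m => (st m).τ_comm _ _)
  · obtain ⟨a, rfl⟩ := hs a
    obtain ⟨b, rfl⟩ := hs b
    rw [hτ, hτ, ← map_mul, ← map_mul, hτ]
    exact congrArg π (funext fun m => (st m).τ_mul _ _)
  · rw [← map_one π, hτ]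
    exact congrArg π (funext fun m => (st m).τ_one)
  · have h1 : ∀ m, ∃ c : Fin (2 ^ (g.enc + 2) + 1) → (st m).D, g.enc < m →
        (∃ j, (st m).τ (c j) ≠ 0) ∧
          ∑ j, (st m).τ (c j) * g.ev (st m).τ (st m).x (st m).y ^ (j : ℕ) = 0 := fun m => by
      by_cases h : g.enc < m
      · obtain ⟨c, hc⟩ := (st m).alg g h
        exact ⟨c, fun _ => hc⟩
      · exact ⟨0, fun h' => absurd h' h⟩
    choose d hd using h1
    refine ⟨_, fun j => π fun m => d m j, ?_, ?_⟩
    · obtain ⟨j, hj⟩ := Ultrafilter.eventually_exists_iff.1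
        ((hge (g.enc + 1)).mono fun m h => (hd m h).1)
      refine ⟨j, ?_⟩
      rw [hτ, Ne, ← map_zero π, hπ, ← Ultrafilter.eventually_not]
      exact hj
    · simp only [hev, hτ, ← map_pow, ← map_mul, ← map_sum]
      rw [← map_zero π, hπ]
      refine (hge (g.enc + 1)).mono fun m h => ?_
      rw [Finset.sum_apply]
      exact (hd m h).2
  · choose b' hb using fun i => hs (b i)
    choose α' hα using fun i => hs (α i)
    choose A' hA using fun i j => hs (A i j)
    choose B' hB using fun i j => hs (B i j)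
    simp only [← hb, ← hα, ← hA, ← hB, hτ, ← map_mul, ← map_sum, hπ] at h1 h2 h3
    rw [← map_one π, hπ] at h1
    obtain ⟨m, ⟨⟨k0, k1⟩, k2⟩, k3⟩ := ((((hge s).and h1).and (eventually_all.2 h2)).and
      (eventually_all.2 h3)).exists
    simp only [Finset.sum_apply] at k1 k2 k3
    exact (st m).large s k0 (fun i => b' i m) (fun i => α' i m) (fun i j => A' i j m)
      (fun i j => B' i j m) k1 k2 k3

end Vale.Agent.P199
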