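import Vale.Agent.P199.Class

/-! Products of good primes. -/

set_option linter.unusedSectionVars false

namespace Vale.Agent.P199

open Finsupp MvPolynomial Module TensorProduct

variable {σ σ' ι : Type} [Fintype σ] [DecidableEq σ] [Fintype σ'] [DecidableEq σ']
  [Fintype ι] [DecidableEq ι]

lemma IsStd.phomog {w : σ → ι →₀ ℕ} {l : Submodule ℚ (MvPolynomial σ ℚ)} {S : Set (σ →₀ ℕ)}
    (h : IsStd w l S) : PHomog w l := by
  classical
  intro γ v hv
  have h1 : ∀ γ, ∃ a ∈ l, ∃ b ∈ restrictSupport ℚ (S ∩ {β | weight w β = γ}),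
      a + b = weightedHomogeneousComponent w γ v := fun γ =>
    Submodule.mem_sup.1 (h.piece_le γ (weightedHomogeneousComponent_mem w v γ))
  choose a ha b hb hab using h1
  have hb' : ∀ γ, IsWeightedHomogeneous w (b γ) γ := fun γ α hα =>
    (hb γ (MvPolynomial.mem_support_iff.2 hα)).2
  set D := insert γ (v.support.image (weight w)) with hD
  have hv' : ∑ δ ∈ D, weightedHomogeneousComponent w δ v = v := by
    ext α
    rw [coeff_sum]
    simp only [coeff_weightedHomogeneousComponent]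
    rw [Finset.sum_ite_eq]
    split_ifs with h
    · rfl
    · by_contra h'
      exact h (Finset.mem_insert_of_mem
        (Finset.mem_image_of_mem _ (MvPolynomial.mem_support_iff.2 (Ne.symm h'))))
  have h2 : ∑ δ ∈ D, b δ = 0 := by
    apply h.1
    · have : ∑ δ ∈ D, b δ = v - ∑ δ ∈ D, a δ := by
        rw [eq_sub_iff_add_eq, ← Finset.sum_add_distrib, ← hv']
        exact Finset.sum_congr rfl fun δ _ => by rw [add_comm, hab]
      rw [this]
      exact l.sub_mem hv (l.sum_mem fun δ _ => ha δ)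
    · have : ∑ δ ∈ D, b δ ∈ restrictSupport ℚ S := Submodule.sum_mem _ fun δ _ =>
        restrictSupport_mono _ Set.inter_subset_left (hb δ)
      exact this
  have h3 := congrArg (weightedHomogeneousComponent w γ) h2
  rw [map_sum, map_zero, Finset.sum_eq_single γ, (hb' γ).weightedHomogeneousComponent_same] at h3
  · rw [← hab, h3, add_zero]; exact ha γ
  · intro δ _ hne
    exact (hb' δ).weightedHomogeneousComponent_ne γ hne.symm
  · intro h; exact absurd (Finset.mem_insert_self _ _) h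

lemma isStd_ker_iff {V : Type} [AddCommGroup V] [Module ℚ V] (w : σ → ι →₀ ℕ)
    (π : MvPolynomial σ ℚ →ₗ[ℚ] V) (S : Set (σ →₀ ℕ)) :
    IsStd w (LinearMap.ker π) S ↔ LinearIndepOn ℚ (fun α => π (monomial α 1)) S ∧
      ∀ α, π (monomial α 1) ∈ Submodule.span ℚ
        ((fun α => π (monomial α 1)) '' (S ∩ {β | weight w β = weight w α})) := by
  have key : ∀ v : MvPolynomial σ ℚ, Finsupp.linearCombination ℚ (fun α => π (monomial α 1))
      (AddMonoidAlgebra.coeff v) = π v := by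
    intro v
    conv_rhs => rw [v.as_sum, map_sum]
    rw [Finsupp.linearCombination_apply, Finsupp.sum]
    refine Finset.sum_congr rfl fun α _ => ?_
    rw [← map_smul, smul_monomial, smul_eq_mul, mul_one]; rfl
  refine and_congr ?_ (forall_congr' fun α => ?_)
  · rw [linearIndepOn_iff]
    constructor
    · intro h l hl hl'
      have := h (AddMonoidAlgebra.ofCoeff l) (by rw [LinearMap.mem_ker, ← key]; exact hl') hl
      exact congrArg AddMonoidAlgebra.coeff this
    · intro h v hv hs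
      have := h (AddMonoidAlgebra.coeff v) hs (by rw [key]; exact hv)
      ext α
      exact congrArg (fun f => f α) this
  · rw [sup_comm, ← Submodule.comap_map_eq, Submodule.mem_comap, restrictSupport_eq_span,
      Submodule.map_span, Set.image_image]

lemma weight_sumElim (w : σ → ι →₀ ℕ) (w' : σ' → ι →₀ ℕ) (α : σ →₀ ℕ) (β : σ' →₀ ℕ) :
    weight (Sum.elim w w') (sumElim α β) = weight w α + weight w' β := by
  simp [weight_eq_sum, Fintype.sum_sum_type]

lemma cnt_prod {w : σ → ι →₀ ℕ} (hw : ∀ j, w j ≠ 0) {w' : σ' → ι →₀ ℕ} (hw' : ∀ j, w' j ≠ 0)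
    (S : Set (σ →₀ ℕ)) (S' : Set (σ' →₀ ℕ)) :
    cnt (Sum.elim w w') ((fun x : (σ →₀ ℕ) × (σ' →₀ ℕ) => sumElim x.1 x.2) '' (S ×ˢ S')) =
      cnt w S * cnt w' S' := by
  classical
  ext γ
  have hinj : Function.Injective (fun x : (σ →₀ ℕ) × (σ' →₀ ℕ) => sumElim x.1 x.2) :=
    sumFinsuppEquivProdFinsupp.symm.injective
  have f1 : ∀ δ, (S ∩ {α | weight w α = δ}).Finite := fun δ =>
    (finite_fiber w hw δ).subset Set.inter_subset_right
  have f2 : ∀ δ, (S' ∩ {α | weight w' α = δ}).Finite := fun δ =>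
    (finite_fiber w' hw' δ).subset Set.inter_subset_right
  have e : (fun x : (σ →₀ ℕ) × (σ' →₀ ℕ) => sumElim x.1 x.2) '' (S ×ˢ S') ∩
      {α | weight (Sum.elim w w') α = γ} = (fun x : (σ →₀ ℕ) × (σ' →₀ ℕ) => sumElim x.1 x.2) ''
        ↑((Finset.HasAntidiagonal.antidiagonal γ).biUnion fun p => (f1 p.1).toFinset ×ˢ (f2 p.2).toFinset) := by
    ext α
    simp only [Set.mem_inter_iff, Set.mem_image, Set.mem_prod, Set.mem_ofPred_eq, Finset.coe_biUnion,
      Finset.mem_coe, Finset.HasAntidiagonal.mem_antidiagonal, Set.mem_iUnion, Finset.mem_product,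
      Set.Finite.mem_toFinset]
    constructor
    · rintro ⟨⟨x, ⟨h1, h2⟩, rfl⟩, h3⟩
      rw [weight_sumElim] at h3
      exact ⟨x, ⟨(weight w x.1, weight w' x.2), h3, ⟨h1, rfl⟩, h2, rfl⟩, rfl⟩
    · rintro ⟨x, ⟨p, hp, ⟨h1, h2⟩, h3, h4⟩, rfl⟩
      exact ⟨⟨x, ⟨h1, h3⟩, rfl⟩, by rw [weight_sumElim, h2, h4, hp]⟩
  rw [coeff_cnt, e, Set.ncard_image_of_injective _ hinj, Set.ncard_coe_finset,
    Finset.card_biUnion, MvPowerSeries.coeff_mul]
  · push_cast
    refine Finset.sum_congr rfl fun p _ => ?_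
    rw [coeff_cnt, coeff_cnt, Finset.card_product, Set.ncard_eq_toFinset_card _ (f1 _),
      Set.ncard_eq_toFinset_card _ (f2 _)]
    push_cast; rfl
  · intro p _ q _ hne
    rw [Function.onFun, Finset.disjoint_left]
    intro x hx hx'
    simp only [Finset.mem_product, Set.Finite.mem_toFinset, Set.mem_inter_iff,
      Set.mem_ofPred_eq] at hx hx'
    exact hne (Prod.ext (hx.1.2.symm.trans hx'.1.2) (hx.2.2.symm.trans hx'.2.2))

lemma Indep.of_rename {τ : Type} [Fintype τ] [DecidableEq τ] {e : σ → τ}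
    (he : Function.Injective e) {p : Ideal (MvPolynomial σ ℚ)} {Q : Ideal (MvPolynomial τ ℚ)}
    (h : ∀ v ∈ p, rename e v ∈ Q) {F : Finset σ} {F' : Finset τ} (hF : ∀ j ∈ F, e j ∈ F')
    (hQ : Indep (Q.restrictScalars ℚ) F') : Indep (p.restrictScalars ℚ) F := by
  intro v hv hs
  apply rename_injective e he
  rw [map_zero]
  refine hQ _ (h v hv) fun α hα => ?_
  rw [support_rename_of_injective he, Finset.mem_image] at hα
  obtain ⟨β, hβ, rfl⟩ := hα
  refine mapDomain_support.trans ?_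
  intro j hj
  obtain ⟨i, hi, rfl⟩ := Finset.mem_image.1 hj
  exact hF i (hs β hβ hi)

theorem Good.prod {w : σ → ι →₀ ℕ} (hw : ∀ j, w j ≠ 0) {w' : σ' → ι →₀ ℕ} (hw' : ∀ j, w' j ≠ 0)
    {I : Ideal (MvPolynomial ι ℤ)} (hI : I.IsPrime) {p : Ideal (MvPolynomial σ ℚ)} {c : ℕ}
    (hp : Good w I p c) {q : Ideal (MvPolynomial σ' ℚ)} {c' : ℕ} (hq : Good w' I q c') :
    ∃ Q, (∀ v ∈ p, rename Sum.inl v ∈ Q) ∧ (∀ v ∈ q, rename Sum.inr v ∈ Q) ∧
      Good (Sum.elim w w') I Q (c + c') := by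
  have hw'' : ∀ j, Sum.elim w w' j ≠ 0 := by rintro (j | j); exacts [hw j, hw' j]
  let π : MvPolynomial (σ ⊕ σ') ℚ →ₐ[ℚ] (MvPolynomial σ ℚ ⧸ p) ⊗[ℚ] (MvPolynomial σ' ℚ ⧸ q) :=
    aeval (Sum.elim (fun j => Ideal.Quotient.mk p (X j) ⊗ₜ[ℚ] (1 : MvPolynomial σ' ℚ ⧸ q))
      (fun j => (1 : MvPolynomial σ ℚ ⧸ p) ⊗ₜ[ℚ] Ideal.Quotient.mk q (X j)))
  have π1 : ∀ v, π (rename Sum.inl v) = Ideal.Quotient.mk p v ⊗ₜ 1 := by
    intro v
    have : π.comp (rename Sum.inl) =
        Algebra.TensorProduct.includeLeft.comp (Ideal.Quotient.mkₐ ℚ p) := by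
      ext j; simp [π]
    exact congrArg (fun f => f v) this
  have π2 : ∀ v, π (rename Sum.inr v) = 1 ⊗ₜ Ideal.Quotient.mk q v := by
    intro v
    have : π.comp (rename Sum.inr) =
        Algebra.TensorProduct.includeRight.comp (Ideal.Quotient.mkₐ ℚ q) := by
      ext j; simp [π]
    exact congrArg (fun f => f v) this
  have π3 : ∀ α β, π (monomial (sumElim α β) 1) =
      Ideal.Quotient.mk p (monomial α 1) ⊗ₜ Ideal.Quotient.mk q (monomial β 1) := by
    intro α β
    have : monomial (sumElim α β) (1 : ℚ) =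
        rename Sum.inl (monomial α 1) * rename Sum.inr (monomial β 1) := by
      rw [rename_monomial, rename_monomial, monomial_mul, one_mul, sumElim_eq_add]
    rw [this, map_mul, π1, π2]; simp
  obtain ⟨S, -, hS⟩ := exists_isStd w _ hp.homog (shiftClosed_ideal p)
  obtain ⟨S', -, hS'⟩ := exists_isStd w' _ hq.homog (shiftClosed_ideal q)
  have k1 : p.restrictScalars ℚ = LinearMap.ker (Ideal.Quotient.mkₐ ℚ p).toLinearMap := by
    ext v; simp [Ideal.Quotient.eq_zero_iff_mem]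
  have k2 : q.restrictScalars ℚ = LinearMap.ker (Ideal.Quotient.mkₐ ℚ q).toLinearMap := by
    ext v; simp [Ideal.Quotient.eq_zero_iff_mem]
  obtain ⟨a1, a2⟩ := (isStd_ker_iff w _ S).1 (k1 ▸ hS)
  obtain ⟨b1, b2⟩ := (isStd_ker_iff w' _ S').1 (k2 ▸ hS')
  let a : Ideal (MvPolynomial (σ ⊕ σ') ℚ) := RingHom.ker π
  have hinj : Function.Injective (fun x : (σ →₀ ℕ) × (σ' →₀ ℕ) => sumElim x.1 x.2) :=
    sumFinsuppEquivProdFinsupp.symm.injective
  have hstd : IsStd (Sum.elim w w') (a.restrictScalars ℚ)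
      ((fun x : (σ →₀ ℕ) × (σ' →₀ ℕ) => sumElim x.1 x.2) '' (S ×ˢ S')) := by
    refine (isStd_ker_iff (Sum.elim w w') π.toLinearMap _).2 ⟨?_, fun α => ?_⟩
    · refine LinearIndepOn.image_of_comp _ _ ?_
      have := LinearIndepOn.tmul_of_flat_left a1 b1
      exact this.congr fun x _ => (π3 x.1 x.2).symm
    · obtain ⟨⟨α, β⟩, rfl⟩ := sumFinsuppEquivProdFinsupp.symm.surjective α
      change π (monomial (sumElim α β) 1) ∈ Submodule.span ℚ (_ '' (_ ∩ {β' | _ =
        weight (Sum.elim w w') (sumElim α β)}))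
      rw [π3]
      have := Submodule.apply_mem_map₂ (TensorProduct.mk ℚ _ _) (a2 α) (b2 β)
      rw [Submodule.map₂_span_span] at this
      refine Submodule.span_mono ?_ this
      rintro _ ⟨_, ⟨α', ⟨h1, h2⟩, rfl⟩, _, ⟨β', ⟨h3, h4⟩, rfl⟩, rfl⟩
      refine ⟨sumElim α' β', ⟨⟨(α', β'), ⟨h1, h3⟩, rfl⟩, ?_⟩, π3 α' β'⟩
      change weight _ _ = _
      rw [weight_sumElim, weight_sumElim, h2, h4]
  have hkp : kp (Sum.elim w w') a = kp w p * kp w' q := by
    apply kp_eq
    rw [IsNum, MvPolynomial.coe_mul, (kp_spec hw hp.homog).2, (kp_spec hw' hq.homog).2,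
      hstd.Hser_eq hw'', cnt_prod hw hw', hS.Hser_eq hw, hS'.Hser_eq hw', Fintype.prod_sum_type]
    simp only [Sum.elim_inl, Sum.elim_inr]
    ring
  have m1 : ∀ v ∈ p, rename Sum.inl v ∈ a := fun v hv => by
    change π _ = 0
    rw [π1, Ideal.Quotient.eq_zero_iff_mem.2 hv, zero_tmul]
  have m2 : ∀ v ∈ q, rename Sum.inr v ∈ a := fun v hv => by
    change π _ = 0
    rw [π2, Ideal.Quotient.eq_zero_iff_mem.2 hv, tmul_zero]
  obtain ⟨Q, hQ, hQ'⟩ := (exists_good hw'' I (c + c') a hstd.phomog fun Q hQ hle => by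
    obtain ⟨F, hF, hF'⟩ := exists_indep Q
    have c1 := (hF.of_rename Sum.inl_injective (fun v hv => hle (m1 v hv)) (F := F.toLeft)
      (fun j hj => Finset.mem_toLeft.1 hj)).card_le
    have c2 := (hF.of_rename Sum.inr_injective (fun v hv => hle (m2 v hv)) (F := F.toRight)
      (fun j hj => Finset.mem_toRight.1 hj)).card_le
    have c3 := Finset.card_toLeft_add_card_toRight (u := F)
    have c4 := hp.codim
    have c5 := hq.codim
    rw [Fintype.card_sum]
    omega).2 (by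
      rw [hkp, map_mul, lead_mul (dvd_of_codim hw hp.homog hp.codim.le)
        (dvd_of_codim hw' hq.homog hq.codim.le)]
      intro h
      exact (hI.mem_or_mem h).elim hp.cls hq.cls)
  exact ⟨Q, fun v hv => hQ (m1 v hv), fun v hv => hQ (m2 v hv), hQ'⟩

end Vale.Agent.P199
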