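import Vale.Agent.P199.Prod

/-! Reduction to the diagonal: pulling a good prime back along a homogeneous map. -/

set_option linter.unusedSectionVars false

namespace Vale.Agent.P199

open Finsupp MvPolynomial Module

variable {σ σ' ι : Type} [Fintype σ] [DecidableEq σ] [Fintype σ'] [DecidableEq σ']
  [Fintype ι] [DecidableEq ι]

lemma homog_aeval {M : Type} [AddCommMonoid M] {w : σ → M} {w' : σ' → M}
    {g : σ' → MvPolynomial σ ℚ} (hg : ∀ j, IsWeightedHomogeneous w (g j) (w' j))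
    {f : MvPolynomial σ' ℚ} {n : M} (hf : IsWeightedHomogeneous w' f n) :
    IsWeightedHomogeneous w (aeval g f) n := by
  rw [f.as_sum, map_sum]
  refine IsWeightedHomogeneous.sum _ _ _ fun α hα => ?_
  rw [aeval_monomial, ← hf (MvPolynomial.mem_support_iff.1 hα), weight_apply]
  exact (IsWeightedHomogeneous.prod α.support _ _ fun j _ => (hg j).pow (α j)).C_mul _

lemma ell_ne_zero {δ : ι →₀ ℕ} (h : δ ≠ 0) : ell δ ≠ 0 := by
  obtain ⟨i, hi⟩ := Finsupp.ne_iff.1 h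
  intro h0
  have := congrArg (eval (fun j => if j = i then (1 : ℤ) else 0)) h0
  simp [ell] at this
  exact hi this

theorem Good.pullback {w : σ → ι →₀ ℕ} (hw : ∀ j, w j ≠ 0) {w' : σ' → ι →₀ ℕ}
    (hw' : ∀ j, w' j ≠ 0) {I : Ideal (MvPolynomial ι ℤ)} (hI : I.IsPrime)
    {p : Ideal (MvPolynomial σ ℚ)} {c : ℕ} (hp : Good w I p c)
    {q : Ideal (MvPolynomial σ' ℚ)} {c' : ℕ} (hq : Good w' I q c')
    (g : σ' → MvPolynomial σ ℚ) (hg : ∀ j, IsWeightedHomogeneous w (g j) (w' j)) :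
    ∃ p' c'', p ≤ p' ∧ c'' ≤ c + c' ∧ Good w I p' c'' ∧ ∀ f ∈ q, aeval g f ∈ p' := by
  have hw'' : ∀ j, Sum.elim w w' j ≠ 0 := by rintro (j | j); exacts [hw j, hw' j]
  obtain ⟨Q, m1, m2, hQ⟩ := Good.prod hw hw' hI hp hq
  have hren : ∀ γ s, IsWeightedHomogeneous w s γ →
      IsWeightedHomogeneous (Sum.elim w w') (rename Sum.inl s : MvPolynomial (σ ⊕ σ') ℚ) γ := by
    intro γ s hs
    rw [rename_eq_aeval]
    exact homog_aeval (fun j => isWeightedHomogeneous_X ℚ (Sum.elim w w') (Sum.inl j)) hs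
  let J : Finset σ' → Ideal (MvPolynomial ι ℤ) := fun t =>
    Submodule.map (LinearMap.toSpanSingleton _ _ (∏ j ∈ t, ell (w' j))) I
  have hJ : ∀ t x, x ∈ J t ↔ ∃ y ∈ I, y * ∏ j ∈ t, ell (w' j) = x := fun t x => Iff.rfl
  have hJ0 : J ∅ = I := by ext x; simp [hJ]
  obtain ⟨Q', c3, l1, l2, l3, l4⟩ := Good.multi_cut hw'' J
    (fun j => X (Sum.inr j) - rename Sum.inl (g j)) w' Finset.univ
    (fun j _ => (isWeightedHomogeneous_X ℚ (Sum.elim w w') (Sum.inr j)).sub (hren _ _ (hg j)))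
    (fun j _ t hj => by
      constructor
      · intro x hx
        obtain ⟨y, hy, rfl⟩ := (hJ _ _).1 hx
        exact (hJ _ _).2 ⟨y * ell (w' j), I.mul_mem_right _ hy, by
          rw [Finset.prod_insert hj, mul_assoc]⟩
      · intro x hx
        obtain ⟨y, hy, e⟩ := (hJ _ _).1 hx
        refine (hJ _ _).2 ⟨y, hy, mul_left_cancel₀ (ell_ne_zero (hw' j)) ?_⟩
        rw [← e, Finset.prod_insert hj]; ring) (hJ0.symm ▸ hQ)
  have := l4.prime
  let ρ : MvPolynomial (σ ⊕ σ') ℚ →ₐ[ℚ] MvPolynomial σ ℚ := aeval (Sum.elim X g)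
  have hρ : ∀ f, Ideal.Quotient.mk Q' (rename Sum.inl (ρ f)) = Ideal.Quotient.mk Q' f := by
    intro f
    have : ((Ideal.Quotient.mkₐ ℚ Q').comp (rename Sum.inl)).comp ρ = Ideal.Quotient.mkₐ ℚ Q' := by
      ext (j | j)
      · simp [ρ]
      · simp only [AlgHom.comp_apply, ρ, aeval_X, Sum.elim_inr, Ideal.Quotient.mkₐ_eq_mk]
        exact (Ideal.Quotient.eq.2 (l2 j (Finset.mem_univ j))).symm
    exact congrArg (fun h => h f) this
  let p' : Ideal (MvPolynomial σ ℚ) := Q'.comap (rename Sum.inl : _ →ₐ[ℚ] _)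
  have hp' : p'.IsPrime := Ideal.comap_isPrime _ _
  have hhom : IHomog w p' :=
    phomog_comap w (polyGr _ hw'') (rename Sum.inl : _ →ₐ[ℚ] _).toLinearMap 0
      (fun γ s hs => by rw [add_zero]; exact hren γ s hs) l4.homog
  have hH : Hser (Sum.elim w w') (Q'.restrictScalars ℚ) = Hser w (p'.restrictScalars ℚ) := by
    ext γ
    have k1 : Q'.restrictScalars ℚ = LinearMap.ker (Ideal.Quotient.mkₐ ℚ Q').toLinearMap := by
      ext v; simp [Ideal.Quotient.eq_zero_iff_mem]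
    have k2 : p'.restrictScalars ℚ = LinearMap.ker
        ((Ideal.Quotient.mkₐ ℚ Q').comp (rename Sum.inl)).toLinearMap := by
      ext v; simp [Ideal.Quotient.eq_zero_iff_mem, p']
    rw [k1, k2, coeff_Hser_ker _ hw'', coeff_Hser_ker _ hw]
    refine congrArg (fun U : Submodule ℚ (MvPolynomial (σ ⊕ σ') ℚ ⧸ Q') => (finrank ℚ U : ℤ)) ?_
    apply le_antisymm
    · rintro _ ⟨s, hs, rfl⟩
      refine ⟨ρ s, homog_aeval (w' := Sum.elim w w') ?_ hs, hρ s⟩
      rintro (j | j)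
      exacts [isWeightedHomogeneous_X ℚ w j, hg j]
    · rintro _ ⟨s, hs, rfl⟩
      exact ⟨rename Sum.inl s, hren _ _ hs, rfl⟩
  have hkp : kp (Sum.elim w w') Q' = kp w p' * ∏ j, om (w' j) := by
    apply kp_eq
    rw [IsNum, MvPolynomial.coe_mul, (kp_spec hw hhom).2, hH, Fintype.prod_sum_type,
      ← MvPolynomial.coeToMvPowerSeries.ringHom_apply (∏ j, om (w' j)), map_prod]
    simp only [Sum.elim_inl, Sum.elim_inr, MvPolynomial.coeToMvPowerSeries.ringHom_apply]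
    ring
  have hdm : dm p' = dm Q' := by
    let e : (MvPolynomial σ ℚ ⧸ p') →ₐ[ℚ] (MvPolynomial (σ ⊕ σ') ℚ ⧸ Q') :=
      Ideal.quotientMapₐ Q' (rename Sum.inl) le_rfl
    have hinj : Function.Injective e := Ideal.quotientMap_injective
    have hsurj : Function.Surjective e := by
      intro y
      obtain ⟨f, rfl⟩ := Ideal.Quotient.mk_surjective y
      exact ⟨Ideal.Quotient.mk p' (ρ f), hρ f⟩
    rw [dm, dm, td, td, (AlgEquiv.ofBijective e ⟨hinj, hsurj⟩).trdeg_eq]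
  have h1 := dm_le_card p'
  have h2 := l4.codim
  rw [Fintype.card_sum] at h2
  rw [Finset.card_univ] at l3
  refine ⟨p', Fintype.card σ - dm p', fun v hv => l1 (m1 v hv), by omega,
    ⟨hp', hhom, by omega, fun hh => l4.cls ?_⟩, fun f hf => ?_⟩
  · obtain ⟨u, k1, k2⟩ := Th_prod_om Finset.univ w'
    rw [Finset.card_univ] at k1
    rw [hkp, map_mul, show c3 = Fintype.card σ - dm p' + Fintype.card σ' by omega,
      lead_mul (dvd_of_codim hw hhom (by omega)) (k1 ▸ dvd_mul_right _ _), k1, coeff_X_pow_mul0, k2]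
    exact (hJ _ _).2 ⟨_, hh, rfl⟩
  · change rename Sum.inl (aeval g f) ∈ Q'
    have e : aeval g f = ρ (rename Sum.inr f) := by
      simp only [ρ, aeval_rename]; rfl
    rw [← Ideal.Quotient.eq_zero_iff_mem, e, hρ, Ideal.Quotient.eq_zero_iff_mem]
    exact l1 (m2 f hf)

end Vale.Agent.P199
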