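import Mathlib

/-! Twisted group algebras of elementary abelian 2-groups with parameters. -/

set_option linter.unusedSectionVars false

namespace Vale.Agent.P199

variable {ι : Type} [Fintype ι] [DecidableEq ι]

/-- The elementary abelian 2-group on `ι`. -/
abbrev HH (ι : Type) := ι → ZMod 2

/-- Biadditive sign pairings. -/
abbrev BB (ι : Type) := HH ι →+ HH ι →+ ZMod 2

variable {R R' : Type} [CommRing R] [CommRing R']

/-- The sign attached to an element of `ZMod 2`. -/
def sg (R : Type) [CommRing R] (x : ZMod 2) : R := if x = 0 then 1 else -1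

@[simp] lemma sg_zero : sg R 0 = 1 := by simp [sg]
@[simp] lemma sg_one : sg R 1 = -1 := by simp [sg]

lemma zmod2_cases (x : ZMod 2) : x = 0 ∨ x = 1 := by revert x; decide

lemma sg_add (x y : ZMod 2) : sg R (x + y) = sg R x * sg R y := by
  rcases zmod2_cases x with rfl | rfl <;> rcases zmod2_cases y with rfl | rfl <;> simp
  rw [show (1 + 1 : ZMod 2) = 0 from rfl, sg_zero]

lemma sg_mul_self (x : ZMod 2) : sg R x * sg R x = 1 := by
  rcases zmod2_cases x with rfl | rfl <;> simp

lemma map_sg (φ : R →+* R') (x : ZMod 2) : φ (sg R x) = sg R' x := by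
  rcases zmod2_cases x with rfl | rfl <;> simp

/-- The parameter part of the cocycle. -/
def tw (t : ι → R) (a b : HH ι) : R := ∏ i, t i ^ ((a i).val * (b i).val)

/-- The cocycle. -/
def cc (β : BB ι) (t : ι → R) (a b : HH ι) : R := sg R (β a b) * tw t a b

variable (β : BB ι) (t : ι → R)

@[simp] lemma cc_zero_left (b : HH ι) : cc β t 0 b = 1 := by simp [cc, tw]
@[simp] lemma cc_zero_right (a : HH ι) : cc β t a 0 = 1 := by simp [cc, tw]

lemma tw_comm (a b : HH ι) : tw t a b = tw t b a := by simp [tw, mul_comm]

lemma cc_cocycle (a b c : HH ι) :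
    cc β t a b * cc β t (a + b) c = cc β t a (b + c) * cc β t b c := by
  have h1 : tw t a b * tw t (a + b) c = tw t a (b + c) * tw t b c := by
    simp only [tw, ← Finset.prod_mul_distrib, ← pow_add, Pi.add_apply]
    refine Finset.prod_congr rfl fun i _ => ?_
    congr 1
    generalize a i = x; generalize b i = y; generalize c i = z
    revert x y z; decide
  simp only [cc, map_add, AddMonoidHom.add_apply, sg_add]
  linear_combination (sg R (β a b) * sg R (β a c) * sg R (β b c)) * h1

lemma map_cc (φ : R →+* R') (a b : HH ι) : φ (cc β t a b) = cc β (fun i => φ (t i)) a b := by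
  simp [cc, tw, map_sg]

/-- The twisted group algebra. -/
def QA (_β : BB ι) (_t : ι → R) : Type := HH ι → R

namespace QA

instance : AddCommGroup (QA β t) := inferInstanceAs (AddCommGroup (HH ι → R))
instance {K : Type} [CommRing K] [Algebra K R] : Module K (QA β t) :=
  inferInstanceAs (Module K (HH ι → R))
instance {K : Type} [CommRing K] [Algebra K R] : IsScalarTower K R (QA β t) :=
  inferInstanceAs (IsScalarTower K R (HH ι → R))
instance : Module.Finite R (QA β t) := inferInstanceAs (Module.Finite R (HH ι → R))
instance : Module.Free R (QA β t) := inferInstanceAs (Module.Free R (HH ι → R))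

variable {β t}

@[ext] lemma ext {x y : QA β t} (h : ∀ a, x a = y a) : x = y := funext h

@[simp] lemma add_apply (x y : QA β t) (a : HH ι) : (x + y) a = x a + y a := rfl
@[simp] lemma sub_apply (x y : QA β t) (a : HH ι) : (x - y) a = x a - y a := rfl
@[simp] lemma neg_apply (x : QA β t) (a : HH ι) : (-x) a = - x a := rfl
@[simp] lemma zero_apply (a : HH ι) : (0 : QA β t) a = 0 := rfl
@[simp] lemma smul_apply {K : Type} [CommRing K] [Algebra K R] (c : K) (x : QA β t) (a : HH ι) :
    (c • x) a = c • x a := rfl
lemma sum_apply {κ : Type} (s : Finset κ) (f : κ → QA β t) (a : HH ι) :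
    (∑ j ∈ s, f j) a = ∑ j ∈ s, f j a := Finset.sum_apply a s f

instance : Mul (QA β t) := ⟨fun x y h => ∑ a, cc β t a (h - a) * x a * y (h - a)⟩
instance : One (QA β t) := ⟨Pi.single (0 : HH ι) (1 : R)⟩

lemma mul_apply (x y : QA β t) (h : HH ι) :
    (x * y) h = ∑ a, cc β t a (h - a) * x a * y (h - a) := rfl
lemma one_apply (h : HH ι) : (1 : QA β t) h = if h = 0 then 1 else 0 := by
  change (Pi.single (0 : HH ι) (1 : R) : HH ι → R) h = _
  rw [Pi.single_apply]

instance : Ring (QA β t) where
  left_distrib x y z := by ext h; simp [mul_apply, mul_add, Finset.sum_add_distrib]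
  right_distrib x y z := by ext h; simp [mul_apply, mul_add, add_mul, Finset.sum_add_distrib]
  zero_mul x := by ext h; simp [mul_apply]
  mul_zero x := by ext h; simp [mul_apply]
  mul_assoc x y z := by
    ext h
    simp only [mul_apply, Finset.mul_sum, Finset.sum_mul]
    rw [Finset.sum_comm]
    refine Finset.sum_congr rfl fun a _ => ?_
    rw [← Equiv.sum_comp (Equiv.addLeft a)]
    refine Finset.sum_congr rfl fun b _ => ?_
    simp only [Equiv.coe_addLeft, add_sub_cancel_left]
    have e1 : h - (a + b) = h - a - b := by abel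
    have e2 := cc_cocycle β t a b (h - a - b)
    rw [show b + (h - a - b) = h - a by abel] at e2
    rw [e1]
    linear_combination (x a * y b * z (h - a - b)) * e2
  one_mul x := by
    ext h
    rw [mul_apply, Finset.sum_eq_single 0] <;> simp +contextual [one_apply]
  mul_one x := by
    ext h
    rw [mul_apply, Finset.sum_eq_single h]
    · simp [one_apply]
    · intro b _ hb
      simp [one_apply, sub_eq_zero, Ne.symm hb]
    · simp

instance {K : Type} [CommRing K] [Algebra K R] : Algebra K (QA β t) :=
  Algebra.ofModule (fun r x y => by ext h; simp [mul_apply, Finset.smul_sum])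
    (fun r x y => by ext h; simp [mul_apply, Finset.smul_sum])

instance [Nontrivial R] : Nontrivial (QA β t) := inferInstanceAs (Nontrivial (HH ι → R))

variable (β t) in
/-- The basis elements. -/
def u (a : HH ι) : QA β t := (Pi.single a (1 : R) : HH ι → R)

lemma u_apply (a h : HH ι) : u β t a h = if h = a then 1 else 0 := by
  change (Pi.single a (1 : R) : HH ι → R) h = _
  rw [Pi.single_apply]

lemma u_zero : u β t 0 = 1 := rfl

lemma u_mul_apply (a : HH ι) (y : QA β t) (h : HH ι) :
    (u β t a * y) h = cc β t a (h - a) * y (h - a) := by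
  rw [mul_apply, Finset.sum_eq_single a] <;> simp +contextual [u_apply]

lemma mul_u_apply (b : HH ι) (y : QA β t) (h : HH ι) :
    (y * u β t b) h = cc β t (h - b) b * y (h - b) := by
  rw [mul_apply, Finset.sum_eq_single (h - b)]
  · simp [u_apply]
  · intro a _ ha
    rw [u_apply, if_neg, mul_zero]
    intro h'
    exact ha (by rw [← h']; abel)
  · simp

lemma u_mul_u (a b : HH ι) : u β t a * u β t b = cc β t a b • u β t (a + b) := by
  ext h
  rw [u_mul_apply, smul_apply, u_apply, u_apply]
  by_cases hh : h = a + b
  · subst hh; simp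
  · rw [if_neg hh, if_neg]
    · simp
    · intro h'; exact hh (by rw [← h']; abel)

lemma eq_sum_u (x : QA β t) : x = ∑ a, x a • u β t a := by
  ext h
  rw [sum_apply, Finset.sum_eq_single h]
  · simp [u_apply]
  · intro b _ hb
    simp [u_apply, Ne.symm hb]
  · simp

lemma u_ne_zero [Nontrivial R] (a : HH ι) : u β t a ≠ 0 := fun h => by
  simpa [u_apply] using congrArg (fun x : QA β t => x a) h

/-- Change of coefficients. -/
def map (φ : R →+* R') {t' : ι → R'} (h : ∀ i, φ (t i) = t' i) : QA β t →+* QA β t' where
  toFun x a := φ (x a)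
  map_one' := by ext a; simp [one_apply, apply_ite φ]
  map_mul' x y := by
    ext a
    change φ _ = ∑ b, cc β t' b (a - b) * φ (x b) * φ (y (a - b))
    simp [mul_apply, map_cc, h]
  map_zero' := by ext a; simp
  map_add' x y := by ext a; exact map_add φ _ _

@[simp] lemma map_apply (φ : R →+* R') {t' : ι → R'} (h : ∀ i, φ (t i) = t' i) (x : QA β t)
    (a : HH ι) : map φ h x a = φ (x a) := rfl

lemma map_smul' (φ : R →+* R') {t' : ι → R'} (h : ∀ i, φ (t i) = t' i) (c : R) (x : QA β t) :
    map φ h (c • x) = φ c • map φ h x := by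
  ext a; simp

end QA

end Vale.Agent.P199
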