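import Vale.Agent.P199.Pull
import Vale.Agent.P199.QA

/-! The grading of the twisted group algebra over a weighted polynomial ring. -/

set_option linter.unusedSectionVars false
set_option linter.unusedVariables false

namespace Vale.Agent.P199

open Finsupp MvPolynomial Module

variable {σ ι : Type} [Fintype σ] [DecidableEq σ] [Fintype ι] [DecidableEq ι]

/-- Degrees as integer vectors. -/
noncomputable def cz : (ι →₀ ℕ) →+ (ι → ℤ) where
  toFun δ i := δ i
  map_zero' := by ext i; simp
  map_add' a b := by ext i; simp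

@[simp] lemma cz_apply (δ : ι →₀ ℕ) (i : ι) : cz δ i = δ i := rfl

lemma cz_injective : Function.Injective (cz (ι := ι)) := fun a b h => by
  ext i; simpa using congrFun h i

/-- Integer weights. -/
noncomputable def wz (w : σ → ι →₀ ℕ) : σ → ι → ℤ := fun j => cz (w j)

lemma weight_wz (w : σ → ι →₀ ℕ) (α : σ →₀ ℕ) : weight (wz w) α = cz (weight w α) := by
  simp [weight_eq_sum, wz, map_sum]

lemma homog_cz {w : σ → ι →₀ ℕ} {f : MvPolynomial σ ℚ} {δ : ι →₀ ℕ} :
    IsWeightedHomogeneous (wz w) f (cz δ) ↔ IsWeightedHomogeneous w f δ := by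
  refine forall_congr' fun α => imp_congr_right fun _ => ?_
  rw [weight_wz, cz_injective.eq_iff]

lemma exists_nat_deg {w : σ → ι →₀ ℕ} {f : MvPolynomial σ ℚ} {n : ι → ℤ}
    (hf : IsWeightedHomogeneous (wz w) f n) :
    ∃ δ, IsWeightedHomogeneous w f δ ∧ ∀ i, (δ i : ZMod 2) = (n i : ZMod 2) := by
  by_cases h : f = 0
  · refine ⟨equivFunOnFinite.symm fun i => (n i : ZMod 2).val, ?_, fun i => by simp⟩
    rw [h]; exact isWeightedHomogeneous_zero ℚ w _
  · obtain ⟨α, hα⟩ := MvPolynomial.support_nonempty.2 h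
    have e := hf (MvPolynomial.mem_support_iff.1 hα)
    rw [weight_wz] at e
    refine ⟨weight w α, homog_cz.1 (e ▸ hf), fun i => ?_⟩
    rw [← e]; simp

/-- The degree of a basis element. -/
noncomputable def hv (a : HH ι) : ι →₀ ℕ := equivFunOnFinite.symm fun i => (a i).val

@[simp] lemma hv_apply (a : HH ι) (i : ι) : hv a i = (a i).val := rfl

@[simp] lemma hv_zero : hv (0 : HH ι) = 0 := by ext i; simp

variable {β : BB ι} {w : σ → ι →₀ ℕ} {t : ι → MvPolynomial σ ℚ}

/-- Homogeneous elements of the twisted group algebra. -/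
def DH (w : σ → ι →₀ ℕ) (x : QA β t) (n : ι → ℤ) : Prop :=
  ∀ h, IsWeightedHomogeneous (wz w) (x h) (n - cz (hv h))

lemma homog_sg (x : ZMod 2) : IsWeightedHomogeneous (wz w) (sg (MvPolynomial σ ℚ) x) 0 := by
  rcases zmod2_cases x with rfl | rfl
  · simpa using isWeightedHomogeneous_one ℚ (wz w)
  · simpa using (isWeightedHomogeneous_one ℚ (wz w)).neg

lemma homog_cc (ht : ∀ i, IsWeightedHomogeneous w (t i) (single i 2)) (a b : HH ι) :
    IsWeightedHomogeneous (wz w) (cc β t a b) (cz (hv a) + cz (hv b) - cz (hv (a + b))) := by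
  have h1 := (homog_sg (w := w) (β a b)).mul (IsWeightedHomogeneous.prod Finset.univ
    (fun i => t i ^ ((a i).val * (b i).val)) _ fun i _ => (homog_cz.2 (ht i)).pow _)
  suffices e : cz (hv a) + cz (hv b) - cz (hv (a + b)) =
      0 + ∑ i, ((a i).val * (b i).val) • cz (single i 2) by rw [e]; exact h1
  ext i
  simp only [Pi.sub_apply, Pi.add_apply, cz_apply, hv_apply, Pi.zero_apply, Finset.sum_apply,
    Pi.smul_apply, single_apply]
  rw [Finset.sum_eq_single i]
  · simp only [if_true]
    generalize a i = x; generalize b i = y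
    revert x y; decide
  · intro j _ hj; simp [hj]
  · simp

namespace DH

variable {x y : QA β t} {m n : ι → ℤ}

lemma zero (n : ι → ℤ) : DH w (0 : QA β t) n := fun _ => isWeightedHomogeneous_zero ℚ _ _
lemma add (hx : DH w x n) (hy : DH w y n) : DH w (x + y) n := fun h => (hx h).add (hy h)
lemma neg (hx : DH w x n) : DH w (-x) n := fun h => (hx h).neg
lemma sub (hx : DH w x n) (hy : DH w y n) : DH w (x - y) n := fun h => (hx h).sub (hy h)

lemma sum {κ : Type} (s : Finset κ) (f : κ → QA β t) (hf : ∀ j ∈ s, DH w (f j) n) :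
    DH w (∑ j ∈ s, f j) n := fun h => by
  rw [QA.sum_apply]
  exact IsWeightedHomogeneous.sum _ _ _ fun j hj => hf j hj h

lemma smul {s : MvPolynomial σ ℚ} (hs : IsWeightedHomogeneous (wz w) s m) (hx : DH w x n) :
    DH w (s • x) (m + n) := fun h => by
  rw [add_sub_assoc]
  exact hs.mul (hx h)

lemma u (a : HH ι) : DH w (QA.u β t a) (cz (hv a)) := fun h => by
  rw [QA.u_apply]
  split_ifs with hh
  · rw [hh, sub_self]; exact isWeightedHomogeneous_one ℚ _
  · exact isWeightedHomogeneous_zero ℚ _ _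

lemma one : DH w (1 : QA β t) 0 := by simpa [QA.u_zero] using u (w := w) (β := β) (t := t) 0

lemma mul (ht : ∀ i, IsWeightedHomogeneous w (t i) (single i 2)) (hx : DH w x m)
    (hy : DH w y n) : DH w (x * y) (m + n) := fun h => by
  rw [QA.mul_apply]
  refine IsWeightedHomogeneous.sum _ _ _ fun a _ => ?_
  convert ((homog_cc (β := β) ht a (h - a)).mul (hx a)).mul (hy (h - a)) using 1
  rw [add_sub_cancel]; abel

lemma pow (ht : ∀ i, IsWeightedHomogeneous w (t i) (single i 2)) (hx : DH w x m) (k : ℕ) :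
    DH w (x ^ k) (k • m) := by
  induction k with
  | zero => simpa using one
  | succ k ih => rw [pow_succ, succ_nsmul]; exact ih.mul ht hx

end DH

lemma fin_wz (hw : ∀ j, w j ≠ 0) (n : ι → ℤ) :
    FiniteDimensional ℚ (weightedHomogeneousSubmodule ℚ (wz w) n) := by
  have : FiniteDimensional ℚ (weightedHomogeneousSubmodule ℚ w
    (equivFunOnFinite.symm fun i => (n i).toNat)) := (polyGr w hw).fin _
  refine Submodule.finiteDimensional_of_le (S₂ := weightedHomogeneousSubmodule ℚ w
    (equivFunOnFinite.symm fun i => (n i).toNat)) fun f hf α hα => ?_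
  have e := hf hα
  rw [weight_wz] at e
  ext i
  simp [← e]

lemma fin_pi (hw : ∀ j, w j ≠ 0) (γ : ι →₀ ℕ) :
    FiniteDimensional ℚ (Submodule.pi Set.univ fun h : HH ι =>
      weightedHomogeneousSubmodule ℚ (wz w) (cz γ - cz (hv h))) :=
  Module.Finite.iff_fg.2 (Submodule.fg_pi fun _ => Module.Finite.iff_fg.1 (fin_wz hw _))

variable (β w t) in
/-- The grading of the twisted group algebra. -/
noncomputable def qaGr (hw : ∀ j, w j ≠ 0) : Gr ι (QA β t) where
  piece γ := Submodule.pi Set.univ fun h => weightedHomogeneousSubmodule ℚ (wz w) (cz γ - cz (hv h))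
  proj γ := LinearMap.pi fun h =>
    weightedHomogeneousComponent (wz w) (cz γ - cz (hv h)) ∘ₗ LinearMap.proj h
  fin γ := fin_pi hw γ
  proj_same γ v hv := QA.ext fun h =>
    IsWeightedHomogeneous.weightedHomogeneousComponent_same (hv h trivial)
  proj_ne γ γ' v hv hne := QA.ext fun h =>
    IsWeightedHomogeneous.weightedHomogeneousComponent_ne _ (hv h trivial)
      (fun e => hne (cz_injective (sub_left_injective e)))
  proj_mem γ v h _ := weightedHomogeneousComponent_mem _ _ _

lemma mem_qaGr {hw : ∀ j, w j ≠ 0} {γ : ι →₀ ℕ} {x : QA β t} :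
    x ∈ (qaGr β w t hw).piece γ ↔ DH w x (cz γ) :=
  ⟨fun h a => h a trivial, fun h a _ => h a⟩

lemma qaGr_proj_apply {hw : ∀ j, w j ≠ 0} (γ : ι →₀ ℕ) (x : QA β t) (h : HH ι) :
    (qaGr β w t hw).proj γ x h = weightedHomogeneousComponent (wz w) (cz γ - cz (hv h)) (x h) :=
  rfl

lemma qaGr_sum (hw : ∀ j, w j ≠ 0) (x : QA β t) :
    ∃ s : Finset (ι →₀ ℕ), x = ∑ γ ∈ s, (qaGr β w t hw).proj γ x := by
  classical
  refine ⟨Finset.univ.biUnion fun h => (x h).support.image fun α => weight w α + hv h, ?_⟩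
  ext h α
  rw [QA.sum_apply, coeff_sum]
  simp only [qaGr_proj_apply, coeff_weightedHomogeneousComponent, weight_wz, eq_sub_iff_add_eq,
    ← map_add, cz_injective.eq_iff]
  rw [Finset.sum_ite_eq]
  split_ifs with h'
  · rfl
  · by_contra h''
    exact h' (Finset.mem_biUnion.2 ⟨h, Finset.mem_univ _,
      Finset.mem_image_of_mem _ (MvPolynomial.mem_support_iff.2 h'')⟩)

lemma IHomog.comp_wz {p : Ideal (MvPolynomial σ ℚ)} (hp : IHomog w p) (n : ι → ℤ)
    {f : MvPolynomial σ ℚ} (hf : f ∈ p) : weightedHomogeneousComponent (wz w) n f ∈ p := by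
  classical
  by_cases h : ∃ γ, cz γ = n
  · obtain ⟨γ, rfl⟩ := h
    have : weightedHomogeneousComponent (wz w) (cz γ) f = weightedHomogeneousComponent w γ f := by
      ext α
      simp only [coeff_weightedHomogeneousComponent, weight_wz, cz_injective.eq_iff]
    rw [this]; exact hp γ f hf
  · have : weightedHomogeneousComponent (wz w) n f = 0 := by
      ext α
      rw [coeff_weightedHomogeneousComponent, if_neg, coeff_zero]
      rw [weight_wz]
      exact fun e => h ⟨_, e⟩
    rw [this]; exact p.zero_mem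

/-- Reduction modulo two, killing the coordinates in `I`. -/
noncomputable def red (I : Finset ι) : MvPolynomial ι ℤ →+* MvPolynomial ι (ZMod 2) :=
  eval₂Hom (Int.castRingHom _) fun i => if i ∈ I then 0 else X i

/-- The prime ideal of classes vanishing after reduction. -/
noncomputable def PI (I : Finset ι) : Ideal (MvPolynomial ι ℤ) := RingHom.ker (red I)

lemma PI_prime (I : Finset ι) : (PI I).IsPrime := RingHom.ker_isPrime _

lemma two_mem_PI (I : Finset ι) : (2 : MvPolynomial ι ℤ) ∈ PI I := by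
  change red I 2 = 0
  rw [map_ofNat]
  exact CharTwo.two_eq_zero

lemma PI_empty_le (I : Finset ι) : PI ∅ ≤ PI I := by
  intro f hf
  have : red I = (aeval (R := ZMod 2) fun i => if i ∈ I then (0 : MvPolynomial ι (ZMod 2))
      else X i).toRingHom.comp (red ∅) := by
    apply MvPolynomial.ringHom_ext
    · intro r; simp
    · intro i; simp [red]
  change red I f = 0
  rw [this, RingHom.comp_apply, show red ∅ f = 0 from hf, map_zero]

lemma ell_mem_PI (I : Finset ι) (δ : ι →₀ ℕ) :
    ell δ ∈ PI I ↔ ∀ i, i ∉ I → (δ i : ZMod 2) = 0 := by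
  have e : red I (ell δ) = ∑ i, if i ∈ I then 0 else monomial (single i 1) (δ i : ZMod 2) := by
    rw [ell, map_sum]
    refine Finset.sum_congr rfl fun i _ => ?_
    rw [map_mul, map_natCast, red, eval₂Hom_X']
    split_ifs
    · simp
    · rw [← map_natCast C, C_mul_X_eq_monomial]
  change red I (ell δ) = 0 ↔ _
  rw [e]
  constructor
  · intro h i hi
    have := congrArg (coeff (single i 1)) h
    rw [coeff_sum, Finset.sum_eq_single i] at this
    · simpa [hi] using this
    · intro j _ hj
      split_ifs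
      · simp
      · rw [coeff_monomial, if_neg]
        exact fun e => hj (single_left_injective one_ne_zero e)
    · simp
  · intro h
    refine Finset.sum_eq_zero fun i _ => ?_
    split_ifs with hi
    · rfl
    · rw [h i hi, map_zero]

lemma Good.to_empty {I : Finset ι} {p : Ideal (MvPolynomial σ ℚ)} {c : ℕ}
    (h : Good w (PI I) p c) : Good w (PI ∅) p c :=
  ⟨h.prime, h.homog, h.codim, fun hh => h.cls (PI_empty_le I hh)⟩

end Vale.Agent.P199
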