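import Vale.Agent.P199.Terms

/-! Finite stages of the construction. -/

set_option linter.unusedSectionVars false
set_option linter.unusedVariables false

namespace Vale.Agent.P199

open Finsupp MvPolynomial Matrix Module

/-- A finite approximation to the counterexample. -/
structure Stage (m : ℕ) where
  D : Type
  [ring : Ring D]
  one_ne : (1 : D) ≠ 0
  unit : ∀ a : D, a ≠ 0 → ∃ b, a * b = 1
  τ : D →+ D
  x : D
  y : D
  τ_comm : ∀ a b, τ a * b = b * τ a
  τ_mul : ∀ a b, τ (τ a * b) = τ a * τ b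
  τ_one : τ 1 = 1
  alg : ∀ g : Tm, g.enc < m → ∃ c : Fin (2 ^ (g.enc + 2) + 1) → D,
    (∃ j, τ (c j) ≠ 0) ∧ ∑ j, τ (c j) * g.ev τ x y ^ (j : ℕ) = 0
  large : ∀ s ≤ m, ∀ (b α : Fin s → D) (A B : Fin s → Fin s → D), 1 = ∑ j, τ (α j) * b j →
    (∀ i, x * b i = ∑ j, τ (A i j) * b j) → (∀ i, y * b i = ∑ j, τ (B i j) * b j) → False

attribute [instance] Stage.ring

variable {ι : Type} [Fintype ι] [DecidableEq ι] {β : BB ι}

lemma isDomain_frac {R L : Type} [CommRing R] [Field L] {t : ι → R} {p : Ideal R} [p.IsPrime]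
    [Algebra (R ⧸ p) L] [IsFractionRing (R ⧸ p) L]
    (h : ∀ a b : QA β t, a * b ∈ U0 β t p → a ∈ U0 β t p ∨ b ∈ U0 β t p) :
    IsDomain (QA β fun i => algebraMap (R ⧸ p) L (Ideal.Quotient.mk p (t i))) := by
  let φ : R →+* L := (algebraMap (R ⧸ p) L).comp (Ideal.Quotient.mk p)
  let m := QA.map (β := β) φ (t := t)
    (t' := fun i => algebraMap (R ⧸ p) L (Ideal.Quotient.mk p (t i))) (fun _ => rfl)
  have h1 : ∀ a, m a = 0 ↔ a ∈ U0 β t p := fun a => by
    rw [QA.ext_iff, mem_U0]
    refine forall_congr' fun x => ?_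
    simp [m, φ, Ideal.Quotient.eq_zero_iff_mem]
  have h2 : ∀ a, ∃ r : L, r ≠ 0 ∧ ∃ a', m a' = r • a := by
    intro a
    obtain ⟨r, hr⟩ := IsLocalization.exist_integer_multiples_of_finite
      (nonZeroDivisors (R ⧸ p)) (fun x => a x)
    choose f hf using hr
    choose g hg using fun x => Ideal.Quotient.mk_surjective (f x)
    refine ⟨algebraMap _ L r.1, by simp, g, QA.ext fun x => ?_⟩
    change algebraMap (R ⧸ p) L (Ideal.Quotient.mk p (g x)) = _
    rw [hg, hf, Algebra.smul_def]; rfl
  have : NoZeroDivisors (QA β fun i => algebraMap (R ⧸ p) L (Ideal.Quotient.mk p (t i))) := by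
    refine ⟨fun {a b} hab => ?_⟩
    obtain ⟨r, hr, a', ha⟩ := h2 a
    obtain ⟨s, hs, b', hb⟩ := h2 b
    have := h a' b' ((h1 _).1 (by rw [map_mul, ha, hb, smul_mul_smul_comm, hab, smul_zero]))
    rw [← h1, ← h1, ha, hb] at this
    simpa [hr, hs] using this
  exact NoZeroDivisors.to_isDomain _

lemma prod_t_ne_zero {L : Type} [Field L] {t : ι → L} [IsDomain (QA β t)] : ∏ i, t i ≠ 0 := by
  refine Finset.prod_ne_zero_iff.2 fun i _ hi => ?_
  have h : QA.u β t (Pi.single i 1) * QA.u β t (Pi.single i 1) = 0 := by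
    rw [QA.u_mul_u, cc, tw, Finset.prod_eq_zero (Finset.mem_univ i)]
    · simp
    · simp [hi, ZMod.val_one]
  exact QA.u_ne_zero _ (mul_self_eq_zero.1 h)

theorem stage_of_prime_aux {σ : Type} [Fintype σ] [DecidableEq σ] {m : ℕ}
    {t : ι → MvPolynomial σ ℚ} (x y : QA β t)
    (hxy : ∀ j, (∃ h, X j = x h) ∨ (∃ h, X j = y h) ∨ ∃ i, X j = t i)
    {p : Ideal (MvPolynomial σ ℚ)} [p.IsPrime] (L : Type) [Field L] [Algebra ℚ L]
    [Algebra (MvPolynomial σ ℚ ⧸ p) L] [IsFractionRing (MvPolynomial σ ℚ ⧸ p) L]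
    [IsScalarTower ℚ (MvPolynomial σ ℚ ⧸ p) L]
    (h : ∀ a b : QA β t, a * b ∈ U0 β t p → a ∈ U0 β t p ∨ b ∈ U0 β t p)
    (halg : ∀ g : Tm, g.enc < m → ∀ r : Fin (2 ^ (g.enc + 2) + 1) → HH ι,
      (powM r (g.hom x y)).det ∈ p)
    (hdm : Fintype.card ι + (m * (m * m) + (m + m)) + Fintype.card (HH ι) < dm p) :
    Nonempty (Stage m) := by
  let φ : MvPolynomial σ ℚ →+* L := (algebraMap (MvPolynomial σ ℚ ⧸ p) L).comp (Ideal.Quotient.mk p)
  let t' : ι → L := fun i => φ (t i)
  have hdom : IsDomain (QA β t') := isDomain_frac h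
  let mp := QA.map (β := β) φ (t := t) (t' := t') (fun _ => rfl)
  have hT : ∏ i, t' i ≠ 0 := prod_t_ne_zero (β := β)
  set x' : QA β t' := (∏ i, t' i)⁻¹ • mp x with hx'
  set y' : QA β t' := (∏ i, t' i)⁻¹ • mp y with hy'
  have hτ : ∀ a b : QA β t', trQ β t' a * b = a 0 • b := fun a b => by
    rw [trQ_apply, smul_mul_assoc, one_mul]
  refine ⟨{ D := QA β t', one_ne := one_ne_zero, τ := trQ β t', x := x', y := y',
            unit := fun a ha => ((Algebra.IsIntegral.isIntegral (R := L) a).isUnit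
              ha).exists_right_inv,
            τ_comm := fun a b => by rw [hτ, trQ_apply, mul_smul_comm, mul_one],
            τ_mul := fun a b => by rw [hτ, hτ, trQ_apply, trQ_apply, smul_smul]; rfl,
            τ_one := by simp [trQ_apply, QA.one_apply],
            alg := fun g hg => ?_, large := fun s hs b α A B h1 h2 h3 => ?_ }⟩
  · obtain ⟨c, hc, hc'⟩ := dependent_of_minors
      (fun (j : Fin (2 ^ (g.enc + 2) + 1)) (k : HH ι) => (mp (g.hom x y) ^ (j : ℕ)) k) fun r => by
        change (powM r (mp (g.hom x y))).det = 0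
        rw [← powM_map, ← RingHom.mapMatrix_apply, ← RingHom.map_det]
        simp [φ, Ideal.Quotient.eq_zero_iff_mem.2 (halg g hg r)]
    refine ⟨fun j => (c j * (∏ i, t' i) ^ (g.deg * j)) • 1, ?_, ?_⟩
    · obtain ⟨j, hj⟩ := Function.ne_iff.1 hc
      refine ⟨j, ?_⟩
      simp only [trQ_apply, QA.smul_apply, QA.one_apply, if_true, smul_eq_mul, mul_one]
      exact smul_ne_zero (mul_ne_zero hj (pow_ne_zero _ hT)) one_ne_zero
    · rw [hx', hy', Tm.ev_eq hT, ← Tm.map_hom]
      refine Eq.trans (Finset.sum_congr rfl fun j _ => ?_) hc'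
      rw [hτ, smul_pow, smul_smul, ← pow_mul]
      simp only [QA.smul_apply, QA.one_apply, if_true, smul_eq_mul, mul_one]
      rw [mul_assoc, ← mul_pow, mul_inv_cancel₀ hT, one_pow, mul_one]
      rfl
  · simp only [hτ] at h1 h2 h3
    let M := Submodule.span L (Set.range b)
    have hM : ∀ c : Fin s → L, ∑ j, c j • b j ∈ M := fun c =>
      M.sum_mem fun j _ => M.smul_mem _ (Submodule.subset_span ⟨j, rfl⟩)
    have hmul : ∀ z : QA β t', (∀ i, z * b i ∈ M) → ∀ v ∈ M, z * v ∈ M := by
      intro z hz v hv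
      obtain ⟨c, rfl⟩ := (Submodule.mem_span_range_iff_exists_fun L).1 hv
      rw [Finset.mul_sum]
      exact M.sum_mem fun j _ => by rw [mul_smul_comm]; exact M.smul_mem _ (hz j)
    have hle : Subalgebra.toSubmodule (Algebra.adjoin L {x', y'}) ≤ M := by
      intro z hz
      have : ∀ v ∈ M, z * v ∈ M := by
        induction hz using Algebra.adjoin_induction with
        | mem z hz =>
          rcases hz with rfl | rfl
          · exact hmul _ fun i => h2 i ▸ hM _
          · exact hmul _ fun i => h3 i ▸ hM _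
        | algebraMap r => intro v hv; rw [← Algebra.smul_def]; exact M.smul_mem _ hv
        | add a b _ _ ha hb => intro v hv; rw [add_mul]; exact M.add_mem (ha v hv) (hb v hv)
        | mul a b _ _ ha hb => intro v hv; rw [mul_assoc]; exact ha _ (hb v hv)
      simpa using this 1 (h1 ▸ hM _)
    have hs' : finrank L (Algebra.adjoin L {x', y'}) ≤ m :=
      ((Submodule.finrank_mono hle).trans ((finrank_range_le_card b).trans (by simp))).trans hs
    obtain ⟨hfin, hb⟩ := der_bound x' y' (fun d d1 d2 d3 => by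
      have dT : d (∏ i, t' i) = 0 :=
        Finset.prod_induction _ (fun a => d a = 0) (fun a b ha hb => by simp [ha, hb]) (by simp)
          fun i _ => d1 i
      have key : ∀ z : L, d ((∏ i, t' i)⁻¹ * z) = 0 → d z = 0 := fun z hz => by
        have e : z = (∏ i, t' i) * ((∏ i, t' i)⁻¹ * z) := by
          rw [← mul_assoc, mul_inv_cancel₀ hT, one_mul]
        rw [e, Derivation.leibniz, hz, dT]; simp
      have dX : ∀ j, d (φ (X j)) = 0 := fun j => by
        rcases hxy j with ⟨h, e⟩ | ⟨h, e⟩ | ⟨i, e⟩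
        · rw [e]; exact key _ (d2 h)
        · rw [e]; exact key _ (d3 h)
        · rw [e]; exact d1 i
      have dS : ∀ f, d (φ f) = 0 := fun f => by
        induction f using MvPolynomial.induction_on with
        | C a =>
          rw [show φ (C a) = algebraMap ℚ L a from eq_ratCast (φ.comp C) a |>.trans
            (eq_ratCast _ a).symm]
          exact d.map_algebraMap a
        | add f g hf hg => simp [hf, hg]
        | mul_X f j hf => simp [hf, dX j]
      ext z
      obtain ⟨a, b, hb, rfl⟩ := IsFractionRing.div_surjective (A := MvPolynomial σ ℚ ⧸ p) z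
      obtain ⟨a, rfl⟩ := Ideal.Quotient.mk_surjective a
      obtain ⟨b, rfl⟩ := Ideal.Quotient.mk_surjective b
      change d (φ a / φ b) = 0
      rw [Derivation.leibniz_div, dS, dS]; simp) rfl
    obtain ⟨F, hF, hF'⟩ := exists_basis_vars p
    have := IsLocalization.isAlgebraic L (nonZeroDivisors (MvPolynomial σ ℚ ⧸ p))
    have := card_le_finrank_der _ (hF.algebraMap_comp (A := L))
    rw [Fintype.card_coe, hF'] at this
    generalize finrank L (Algebra.adjoin L {x', y'}) = s' at hs' hb
    have : s' * (s' * s') ≤ m * (m * m) := Nat.mul_le_mul hs' (Nat.mul_le_mul hs' hs')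
    omega

/-- The standard pairing giving tensor products of quaternion algebras. -/
def stdB (κ : Type) [Fintype κ] : BB (κ ⊕ κ) where
  toFun a :=
    { toFun := fun b => ∑ i, a (Sum.inr i) * b (Sum.inl i)
      map_zero' := by simp
      map_add' := fun b c => by simp [mul_add, Finset.sum_add_distrib] }
  map_zero' := by ext b; simp
  map_add' a a' := by ext b; simp [add_mul, Finset.sum_add_distrib]

lemma stdB_apply {κ : Type} [Fintype κ] (a b : HH (κ ⊕ κ)) :
    stdB κ a b = ∑ i, a (Sum.inr i) * b (Sum.inl i) := rfl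

variable {κ : Type} [Fintype κ] [DecidableEq κ]

lemma iso_std (A : Finset κ) : Iso (stdB κ) (A.map Function.Embedding.inl) := by
  intro a b ha _
  rw [stdB_apply]
  exact Finset.sum_eq_zero fun i _ => by rw [ha _ (by simp), zero_mul]

lemma card_inC (A : Finset κ) :
    (Finset.univ.filter (InC (stdB κ) (A.map Function.Embedding.inl))).card =
      2 ^ (2 * Fintype.card κ - A.card) := by
  have : Finset.univ.filter (InC (stdB κ) (A.map Function.Embedding.inl)) =
      Finset.univ.filter (InL (A.map (Function.Embedding.inr (α := κ)))ᶜ) := by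
    ext h
    simp [InC, InL, stdB_apply, Pi.single_apply]
  rw [this, card_inL, Finset.card_compl, Finset.card_map, Fintype.card_sum, two_mul]

theorem exists_stage (m : ℕ) : Nonempty (Stage m) := by
  set k := m * (m * m) + (m + m) + 2 with hk
  let ι := Fin k ⊕ Fin k
  let β : BB ι := stdB (Fin k)
  let w : (Bool × HH ι) ⊕ ι → ι →₀ ℕ :=
    Sum.elim (fun j => two ι - hv j.2) fun i => Finsupp.single i 2
  have : Nonempty ι := ⟨Sum.inl ⟨0, by omega⟩⟩
  have h2 : ∀ i, 2 ≤ two ι i := fun i => le_rfl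
  have hw : ∀ j, w j ≠ 0 := by
    rintro (j | i)
    exacts [wY_ne_zero h2 (Sum.inl j.2), wY_ne_zero h2 (Sum.inr i)]
  have ht : ∀ i, IsWeightedHomogeneous w (tX (Bool × HH ι) ι i) (Finsupp.single i 2) := fun i =>
    isWeightedHomogeneous_X ℚ w (Sum.inr i)
  let z : Bool → QA β (tX (Bool × HH ι) ι) := fun b h => X (Sum.inl (b, h))
  have hz : ∀ b, DH w (z b) (cz (two ι)) := fun b h => by
    rw [← cz_sub_hv h2]
    exact homog_cz.2 (isWeightedHomogeneous_X ℚ w (Sum.inl (b, h)))
  have key : ∀ j ≤ m, ∃ p c, Good w (PI ∅) p c ∧ c + 2 ^ (2 * k - (j + 1)) ≤ 2 ^ (2 * k - 1) ∧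
      ∀ g : Tm, g.enc < j → ∀ r : Fin (2 ^ (g.enc + 2) + 1) → HH ι,
        (powM r (g.hom (z false) (z true))).det ∈ p := by
    intro j
    induction j with
    | zero => exact fun _ => ⟨⊥, 0, good_bot hw (PI_prime ∅).ne_top, by simp, by simp⟩
    | succ j ih =>
      intro hj
      obtain ⟨p, c, h1, h3, h4⟩ := ih (by omega)
      have hpow : 2 ^ (2 * k - (j + 1)) = 2 * 2 ^ (2 * k - (j + 1 + 1)) := by
        rw [← pow_succ']; congr 1; omega
      by_cases hg : ∃ g : Tm, g.enc = j
      · obtain ⟨g, rfl⟩ := hg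
        obtain ⟨A, -, hA⟩ := Finset.exists_subset_card_eq
          (s := (Finset.univ : Finset (Fin k))) (n := g.enc + 2) (by simp; omega)
        have e : Fin (2 ^ (g.enc + 2)) ≃ {h : HH ι // InL (A.map Function.Embedding.inl) h} :=
          (Fintype.equivFinOfCardEq (by
            rw [Fintype.card_subtype, card_inL, Finset.card_map, hA])).symm
        obtain ⟨p', c', k1, k2, k3, k4⟩ := h1.cut_degree hw ht (γ := g.deg • two ι)
          (fun i => by have := g.deg_pos; simp; omega)
          (fun i => by simp [show (2 : ZMod 2) = 0 from rfl])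
          (f := g.hom (z false) (z true))
          (by rw [map_nsmul]; exact Tm.hom_homog ht (hz false) (hz true) g) (iso_std A) e
        rw [card_inC, hA, Fintype.card_fin] at k2
        rw [show g.enc + 2 = g.enc + 1 + 1 from rfl] at k2
        refine ⟨p', c', k3, by omega, fun g' hg' => ?_⟩
        by_cases hlt : g'.enc < g.enc
        · exact fun r => k1 (h4 g' hlt r)
        · obtain rfl := Tm.enc_injective g' g (by omega)
          exact k4
      · refine ⟨p, c, h1, by omega, fun g' hg' => h4 g' ?_⟩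
        have : g'.enc ≠ j := fun h => hg ⟨g', h⟩
        omega
  obtain ⟨p, c, h1, h3, h4⟩ := key m le_rfl
  have := h1.prime
  refine stage_of_prime_aux (z false) (z true) ?_ (FractionRing (MvPolynomial _ ℚ ⧸ p))
    (fun a b => h1.mul_mem hw (fun _ => rfl)) h4 ?_
  · rintro (⟨_ | _, h⟩ | i)
    exacts [Or.inl ⟨h, rfl⟩, Or.inr (Or.inl ⟨h, rfl⟩), Or.inr (Or.inr ⟨i, rfl⟩)]
  · have h5 := h1.codim
    have h6 : Fintype.card (HH ι) = 2 * 2 ^ (2 * k - 1) := by
      rw [Fintype.card_fun, ZMod.card, Fintype.card_sum, Fintype.card_fin, ← pow_succ']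
      congr 1; omega
    rw [Fintype.card_sum, Fintype.card_prod, Fintype.card_bool] at h5
    have h7 : 2 * k - 1 < 2 ^ (2 * k - 1) := Nat.lt_two_pow_self
    have h8 : c ≤ 2 ^ (2 * k - 1) := le_trans (Nat.le_add_right _ _) h3
    omega

end Vale.Agent.P199
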