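import Vale.Agent.P199.Y2
import Vale.Agent.P199.Large

/-! Trace polynomials in two generators and their homogenisations. -/

set_option linter.unusedSectionVars false
set_option linter.unusedVariables false

namespace Vale.Agent.P199

open Finsupp MvPolynomial Matrix

/-- Noncommutative trace polynomials in two generators. -/
inductive Tm : Type
  | x : Tm
  | y : Tm
  | one : Tm
  | neg (a : Tm) : Tm
  | add (a b : Tm) : Tm
  | mul (a b : Tm) : Tm
  | tr (a : Tm) : Tm

/-- An injective numbering of the terms. -/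
def Tm.enc : Tm → ℕ
  | .x => Nat.pair 0 0
  | .y => Nat.pair 1 0
  | .one => Nat.pair 2 0
  | .neg a => Nat.pair 3 a.enc
  | .add a b => Nat.pair 4 (Nat.pair a.enc b.enc)
  | .mul a b => Nat.pair 5 (Nat.pair a.enc b.enc)
  | .tr a => Nat.pair 6 a.enc

lemma Tm.enc_injective : ∀ a b : Tm, a.enc = b.enc → a = b := by
  intro a
  induction a with
  | x => intro b; cases b <;> simp [Tm.enc]
  | y => intro b; cases b <;> simp [Tm.enc]
  | one => intro b; cases b <;> simp [Tm.enc]
  | neg a ih => intro b; cases b <;> simp [Tm.enc]; exact ih _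
  | add a a' ih ih' =>
    intro b; cases b <;> simp [Tm.enc]
    exact fun h h' => ⟨ih _ h, ih' _ h'⟩
  | mul a a' ih ih' =>
    intro b; cases b <;> simp [Tm.enc]
    exact fun h h' => ⟨ih _ h, ih' _ h'⟩
  | tr a ih => intro b; cases b <;> simp [Tm.enc]; exact ih _

/-- Evaluation of a term. -/
def Tm.ev {D : Type} [Ring D] (τ : D → D) (x y : D) : Tm → D
  | .x => x
  | .y => y
  | .one => 1
  | .neg a => - a.ev τ x y
  | .add a b => a.ev τ x y + b.ev τ x y
  | .mul a b => a.ev τ x y * b.ev τ x y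
  | .tr a => τ (a.ev τ x y)

/-- Degree of the homogenisation. -/
def Tm.deg : Tm → ℕ
  | .x => 1
  | .y => 1
  | .one => 1
  | .neg a => a.deg
  | .add a b => a.deg + b.deg
  | .mul a b => a.deg + b.deg
  | .tr a => a.deg

lemma Tm.deg_pos (g : Tm) : 1 ≤ g.deg := by
  induction g <;> simp only [Tm.deg] <;> omega

variable {ι : Type} [Fintype ι] [DecidableEq ι] {β : BB ι}

/-- Homogenisation of a term. -/
def Tm.hom {R : Type} [CommRing R] {t : ι → R} (x y : QA β t) : Tm → QA β t
  | .x => x
  | .y => y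
  | .one => (∏ i, t i) • 1
  | .neg a => - a.hom x y
  | .add a b => (∏ i, t i) ^ b.deg • a.hom x y + (∏ i, t i) ^ a.deg • b.hom x y
  | .mul a b => a.hom x y * b.hom x y
  | .tr a => (a.hom x y) 0 • 1

/-- The normalised trace. -/
def trQ {R : Type} [CommRing R] (β : BB ι) (t : ι → R) : QA β t →+ QA β t where
  toFun a := a 0 • 1
  map_zero' := by simp
  map_add' a b := by simp [add_smul]

lemma trQ_apply {R : Type} [CommRing R] {t : ι → R} (a : QA β t) : trQ β t a = a 0 • 1 := rfl

lemma Tm.map_hom {R R' : Type} [CommRing R] [CommRing R'] {t : ι → R} {t' : ι → R'}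
    (φ : R →+* R') (h : ∀ i, φ (t i) = t' i) (x y : QA β t) (g : Tm) :
    QA.map φ h (g.hom x y) = g.hom (QA.map φ h x) (QA.map φ h y) := by
  induction g with
  | x => rfl
  | y => rfl
  | one => simp [Tm.hom, QA.map_smul', h]
  | neg a ih => simp [Tm.hom, ih]
  | add a b ih ih' => simp [Tm.hom, QA.map_smul', h, ih, ih']
  | mul a b ih ih' => simp [Tm.hom, ih, ih']
  | tr a ih => simp [Tm.hom, QA.map_smul', ← ih]

lemma Tm.ev_eq {L : Type} [Field L] {t : ι → L} (ht : ∏ i, t i ≠ 0) (x y : QA β t) (g : Tm) :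
    g.ev (trQ β t) ((∏ i, t i)⁻¹ • x) ((∏ i, t i)⁻¹ • y) =
      (∏ i, t i)⁻¹ ^ g.deg • g.hom x y := by
  induction g with
  | x => simp [Tm.ev, Tm.hom, Tm.deg]
  | y => simp [Tm.ev, Tm.hom, Tm.deg]
  | one => rw [Tm.ev, Tm.hom, Tm.deg, smul_smul, pow_one, inv_mul_cancel₀ ht, one_smul]
  | neg a ih => rw [Tm.ev, Tm.hom, Tm.deg, ih, smul_neg]
  | add a b ih ih' =>
    rw [Tm.ev, Tm.hom, Tm.deg, ih, ih', smul_add, smul_smul, smul_smul]
    generalize ∏ i, t i = T at ht
    simp only [pow_add, inv_pow]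
    congr 2 <;> field_simp
  | mul a b ih ih' =>
    rw [Tm.ev, Tm.hom, Tm.deg, ih, ih', smul_mul_smul_comm, pow_add]
  | tr a ih => rw [Tm.ev, Tm.hom, Tm.deg, ih, trQ_apply, smul_smul]; rfl

/-- The constant degree two. -/
noncomputable def two (ι : Type) [Fintype ι] : ι →₀ ℕ := equivFunOnFinite.symm fun _ => 2

@[simp] lemma two_apply (i : ι) : two ι i = 2 := rfl

lemma Tm.hom_homog {σ : Type} [Fintype σ] [DecidableEq σ] {w : σ → ι →₀ ℕ}
    {t : ι → MvPolynomial σ ℚ} (ht : ∀ i, IsWeightedHomogeneous w (t i) (Finsupp.single i 2))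
    {x y : QA β t} (hx : DH w x (cz (two ι))) (hy : DH w y (cz (two ι))) (g : Tm) :
    DH w (g.hom x y) (g.deg • cz (two ι)) := by
  have hT : IsWeightedHomogeneous (wz w) (∏ i, t i) (cz (two ι)) := by
    rw [homog_cz]
    have := IsWeightedHomogeneous.prod Finset.univ t _ fun i _ => ht i
    rwa [show ∑ i, Finsupp.single i 2 = two ι by ext i; simp [Finsupp.single_apply]] at this
  induction g with
  | x => simpa [Tm.hom, Tm.deg] using hx
  | y => simpa [Tm.hom, Tm.deg] using hy
  | one => simpa [Tm.hom, Tm.deg] using DH.smul hT DH.one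
  | neg a ih => exact ih.neg
  | add a b ih ih' =>
    rw [Tm.hom, Tm.deg]
    refine DH.add ?_ ?_
    · rw [add_comm, add_nsmul]; exact DH.smul (hT.pow _) ih
    · rw [add_nsmul]; exact DH.smul (hT.pow _) ih'
  | mul a b ih ih' => rw [Tm.hom, Tm.deg, add_nsmul]; exact ih.mul ht ih'
  | tr a ih => simpa [Tm.hom, Tm.deg] using DH.smul (ih 0) DH.one

lemma card_inL (I : Finset ι) : (Finset.univ.filter (InL I)).card = 2 ^ I.card := by
  have : Finset.univ.filter (InL I) =
      Fintype.piFinset fun i => if i ∈ I then Finset.univ else {0} := by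
    ext h
    simp only [Finset.mem_filter, Finset.mem_univ, true_and, Fintype.mem_piFinset, InL]
    refine forall_congr' fun i => ?_
    split_ifs with hi <;> simp [hi]
  rw [this, Fintype.card_piFinset]
  simp [apply_ite Finset.card]

lemma dependent_of_minors {L κ : Type} [Field L] [Fintype κ] {n : ℕ} (v : Fin n → κ → L)
    (h : ∀ r : Fin n → κ, (Matrix.of fun i j => v j (r i)).det = 0) :
    ∃ c : Fin n → L, c ≠ 0 ∧ ∑ j, c j • v j = 0 := by
  by_contra hh
  push Not at hh
  have hspan : ⊤ ≤ Submodule.span L (Set.range fun (k : κ) (j : Fin n) => v j k) := by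
    by_contra h'
    obtain ⟨f, hf, hf'⟩ := Submodule.exists_dual_map_eq_bot_of_lt_top
      (lt_top_iff_ne_top.2 fun e => h' e.ge) inferInstance
    refine hh (fun j => f (Pi.single j 1)) (fun h0 => hf ?_) ?_
    · exact (Pi.basisFun L (Fin n)).ext fun j => by simpa using congrFun h0 j
    · ext k
      have h1 : f (fun j => v j k) = 0 := by
        rw [← Submodule.mem_bot L, ← hf']
        exact ⟨_, Submodule.subset_span ⟨k, rfl⟩, rfl⟩
      rw [LinearMap.pi_apply_eq_sum_univ] at h1
      simp only [Finset.sum_apply, Pi.smul_apply, smul_eq_mul, Pi.zero_apply]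
      rw [← h1]
      refine Finset.sum_congr rfl fun j _ => ?_
      rw [smul_eq_mul, mul_comm]
      congr 2
      ext i; simp [Pi.single_apply, eq_comm]
  let b := Module.Basis.ofSpan hspan
  let e := b.indexEquiv (Pi.basisFun L (Fin n))
  have hb : ∀ i, ∃ k, (fun j => v j k) = b (e.symm i) := fun i =>
    Module.Basis.ofSpan_subset hspan ⟨e.symm i, rfl⟩
  choose r hr using hb
  have hli : LinearIndependent L (Matrix.of fun i j => v j (r i)).row := by
    have : (Matrix.of fun i j => v j (r i)).row = b ∘ e.symm := funext hr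
    rw [this]
    exact b.linearIndependent.comp _ e.symm.injective
  have := (Matrix.isUnit_iff_isUnit_det _).1 (Matrix.linearIndependent_rows_iff_isUnit.1 hli)
  exact this.ne_zero (h r)

end Vale.Agent.P199
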