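import Vale.Agent.P199.QA

/-! A regular element of the commutative subalgebra attached to an isotropic set of coordinates. -/

set_option linter.unusedSectionVars false
set_option linter.unusedVariables false

namespace Vale.Agent.P199

open Matrix

variable {ι : Type} [Fintype ι] [DecidableEq ι] {β : BB ι}

/-- The coordinate subgroup. -/
def InL (I : Finset ι) (h : HH ι) : Prop := ∀ i, i ∉ I → h i = 0

instance (I : Finset ι) : DecidablePred (InL I) := fun h => by unfold InL; infer_instance

/-- The orthogonal of the coordinate subgroup. -/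
def InC (β : BB ι) (I : Finset ι) (h : HH ι) : Prop :=
  ∀ i ∈ I, β h (Pi.single i 1) = β (Pi.single i 1) h

instance (I : Finset ι) : DecidablePred (InC β I) := fun h => by unfold InC; infer_instance

/-- The pairing vanishes on the coordinate subgroup. -/
def Iso (β : BB ι) (I : Finset ι) : Prop := ∀ a b, InL I a → InL I b → β a b = 0

variable {I : Finset ι}

lemma inL_single {i : ι} (hi : i ∈ I) : InL I (Pi.single i 1) := fun j hj =>
  Pi.single_eq_of_ne (fun h : j = i => hj (h ▸ hi)) _

lemma InL.inC (hβ : Iso β I) {a : HH ι} (ha : InL I a) : InC β I a := fun i hi => by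
  rw [hβ _ _ ha (inL_single hi), hβ _ _ (inL_single hi) ha]

lemma InC.sub {a b : HH ι} (ha : InC β I a) (hb : InC β I b) : InC β I (a - b) := fun i hi => by
  simp [ha i hi, hb i hi]

variable {R R' : Type} [CommRing R] [CommRing R'] {t : ι → R}

/-- Elements supported on the coordinate subgroup. -/
def SuppL (I : Finset ι) (x : QA β t) : Prop := ∀ h, ¬ InL I h → x h = 0

lemma SuppL.mul {x y : QA β t} (hx : SuppL I x) (hy : SuppL I y) : SuppL I (x * y) := by
  intro h hh
  rw [QA.mul_apply]
  refine Finset.sum_eq_zero fun a _ => ?_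
  by_cases ha : InL I a
  · rw [hy (h - a), mul_zero]
    intro h'
    exact hh fun i hi => by simpa [ha i hi] using h' i hi
  · rw [hx a ha, mul_zero, zero_mul]

lemma SuppL.u {a : HH ι} (ha : InL I a) : SuppL I (QA.u β t a) := fun h hh => by
  rw [QA.u_apply, if_neg]
  rintro rfl; exact hh ha

lemma SuppL.pow {x : QA β t} (hx : SuppL I x) (k : ℕ) : SuppL I (x ^ k) := by
  induction k with
  | zero => exact SuppL.u (a := 0) fun _ _ => rfl
  | succ k ih => rw [pow_succ]; exact ih.mul hx

lemma SuppL.sum_smul {κ : Type} (s : Finset κ) (c : κ → R) (f : κ → QA β t)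
    (hf : ∀ j ∈ s, SuppL I (f j)) : SuppL I (∑ j ∈ s, c j • f j) := fun h hh => by
  rw [QA.sum_apply]
  exact Finset.sum_eq_zero fun j hj => by simp [hf j hj h hh]

/-- Matrix of coordinates of powers. -/
def powM {κ : Type} {d : ℕ} (e : κ → HH ι) (x : QA β t) : Matrix κ (Fin d) R :=
  Matrix.of fun r j => (x ^ (j : ℕ)) (e r)

lemma powM_mulVec {κ : Type} {d : ℕ} (e : κ → HH ι) (x : QA β t) (c : Fin d → R) (r : κ) :
    (powM e x *ᵥ c) r = (∑ j, c j • x ^ (j : ℕ)) (e r) := by
  simp [powM, mulVec, dotProduct, QA.sum_apply, mul_comm]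

lemma powM_map {κ : Type} {d : ℕ} (e : κ → HH ι) (x : QA β t) (φ : R →+* R') {t' : ι → R'}
    (h : ∀ i, φ (t i) = t' i) : (powM (d := d) e x).map φ = powM e (QA.map φ h x) := by
  ext r j
  simp [powM, ← map_pow]

/-- Matrix of the commutator map on the complement of the orthogonal. -/
def adM (I : Finset ι) (x : QA β t) : Matrix {h // ¬ InC β I h} {h // ¬ InC β I h} R :=
  Matrix.of fun h h' => (x * QA.u β t h' - QA.u β t h' * x) h

lemma adM_map (x : QA β t) (φ : R →+* R') {t' : ι → R'} (h : ∀ i, φ (t i) = t' i) :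
    (adM I x).map φ = adM I (QA.map φ h x) := by
  ext r j
  simp [adM, QA.u_mul_apply, QA.mul_u_apply, map_cc, h]

lemma adM_mulVec (x y : QA β t) (hy : ∀ h, InC β I h → y h = 0) (h : {h // ¬ InC β I h}) :
    (adM I x *ᵥ fun h' => y h') h = (x * y - y * x) h := by
  conv_rhs => rw [QA.eq_sum_u y]
  rw [Finset.mul_sum, Finset.sum_mul, ← Finset.sum_sub_distrib, QA.sum_apply,
    ← Finset.sum_subset (Finset.subset_univ (Finset.univ.filter fun a => ¬ InC β I a)),
    Finset.sum_subtype (p := fun a => ¬ InC β I a) _ (by simp)]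
  · simp only [adM, mulVec, dotProduct, of_apply]
    refine Finset.sum_congr rfl fun a _ => ?_
    simp [mul_sub, mul_comm]
  · intro a _ ha
    simp [hy a (by simpa using ha)]

/-- Characters of the commutative subalgebra at the trivial parameters. -/
def chi (s : HH ι) (x : QA β fun _ => (1 : ℚ)) : ℚ := ∑ h, sg ℚ (s ⬝ᵥ h) * x h

lemma chi_u (s a : HH ι) : chi s (QA.u β _ a) = sg ℚ (s ⬝ᵥ a) := by
  simp [chi, QA.u_apply]

lemma chi_sum_smul {κ : Type} (s : HH ι) (T : Finset κ) (c : κ → ℚ)
    (f : κ → QA β fun _ => (1 : ℚ)) :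
    chi s (∑ j ∈ T, c j • f j) = ∑ j ∈ T, c j * chi s (f j) := by
  simp only [chi, QA.sum_apply, QA.smul_apply, smul_eq_mul, Finset.mul_sum]
  rw [Finset.sum_comm]
  exact Finset.sum_congr rfl fun _ _ => Finset.sum_congr rfl fun _ _ => by ring

lemma chi_mul (hβ : Iso β I) (s : HH ι) {x y : QA β fun _ => (1 : ℚ)} (hx : SuppL I x)
    (hy : SuppL I y) : chi s (x * y) = chi s x * chi s y := by
  simp only [chi, QA.mul_apply, Finset.mul_sum, Finset.sum_mul]
  rw [Finset.sum_comm, Finset.sum_comm (f := fun b a => sg ℚ (s ⬝ᵥ a) * x a * _)]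
  refine Finset.sum_congr rfl fun a _ => ?_
  rw [← Equiv.sum_comp (Equiv.addLeft a)]
  refine Finset.sum_congr rfl fun b _ => ?_
  simp only [Equiv.coe_addLeft, add_sub_cancel_left, dotProduct_add, sg_add]
  by_cases ha : InL I a
  · by_cases hb : InL I b
    · simp only [cc, tw, hβ a b ha hb, sg_zero, one_pow, Finset.prod_const_one]; ring
    · simp [hy b hb]
  · simp [hx a ha]

lemma chi_pow (hβ : Iso β I) (s : HH ι) {x : QA β fun _ => (1 : ℚ)} (hx : SuppL I x) (k : ℕ) :
    chi s (x ^ k) = chi s x ^ k := by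
  induction k with
  | zero => simpa [QA.u_zero] using chi_u (β := β) s 0
  | succ k ih => rw [pow_succ, pow_succ, chi_mul hβ s (hx.pow k) hx, ih]

theorem exists_regular (hβ : Iso β I) {d : ℕ} (e : Fin d ≃ {h // InL I h}) :
    ∃ x : QA β fun _ => (1 : ℚ), SuppL I x ∧ (powM (d := d) (fun r => (e r).1) x).det ≠ 0 ∧
      (adM I x).det ≠ 0 := by
  let n : ι → ℕ := fun i => Fintype.equivFin ι i
  have hn : Function.Injective n := Fin.val_injective.comp (Fintype.equivFin ι).injective
  let x : QA β fun _ => (1 : ℚ) := ∑ i ∈ I, (2 : ℚ) ^ n i • QA.u β _ (Pi.single i 1)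
  have hx : SuppL I x := SuppL.sum_smul _ _ _ fun i hi => SuppL.u (inL_single hi)
  have hchi : ∀ s, chi s x = ∑ i ∈ I, (2 : ℚ) ^ n i -
      2 * ((∑ k ∈ (I.filter fun i => s i = 1).image n, 2 ^ k : ℕ) : ℚ) := by
    intro s
    rw [chi_sum_smul, Finset.sum_image hn.injOn, Finset.sum_filter]
    push_cast
    rw [Finset.mul_sum, ← Finset.sum_sub_distrib]
    refine Finset.sum_congr rfl fun i _ => ?_
    rw [chi_u, dotProduct_single, mul_one]
    rcases zmod2_cases (s i) with h | h <;> simp [h]; ring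
  have hinj : Function.Injective fun r => chi (e r).1 x := by
    intro r r' h
    simp only [hchi, sub_right_inj, mul_eq_mul_left_iff, Nat.cast_inj, two_ne_zero,
      or_false] at h
    have h2 := Finset.image_injective hn (Finset.geomSum_injective le_rfl h)
    apply e.injective
    ext i
    by_cases hi : i ∈ I
    · have h3 : (e r).1 i = 1 ↔ (e r').1 i = 1 := by
        simpa [hi] using Finset.ext_iff.1 h2 i
      revert h3
      generalize (e r).1 i = a; generalize (e r').1 i = b
      revert a b; decide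
    · rw [(e r).2 i hi, (e r').2 i hi]
  have hz : ∀ y z : QA β fun _ => (1 : ℚ), SuppL I y → SuppL I z →
      (∀ r, y (e r).1 = z (e r).1) → y = z := by
    intro y z hy hz h
    ext a
    by_cases ha : InL I a
    · simpa using h (e.symm ⟨a, ha⟩)
    · rw [hy a ha, hz a ha]
  have h1 : (powM (d := d) (fun r => (e r).1) x).det ≠ 0 := by
    rw [Ne, ← Matrix.exists_mulVec_eq_zero_iff]
    rintro ⟨c, hc, hc'⟩
    have h2 := hz (∑ j, c j • x ^ (j : ℕ)) 0 (SuppL.sum_smul _ _ _ fun j _ => hx.pow _)
      (fun _ _ => rfl) fun r => by rw [← powM_mulVec (fun r => (e r).1), hc']; rfl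
    refine hc (Matrix.eq_zero_of_forall_index_sum_mul_pow_eq_zero hinj fun r => ?_)
    have := congrArg (chi (e r).1) h2
    rw [chi_sum_smul] at this
    simpa [chi_pow hβ _ hx, show chi (β := β) (e r).1 0 = 0 by simp [chi]] using this
  refine ⟨x, hx, h1, ?_⟩
  rw [Ne, ← Matrix.exists_mulVec_eq_zero_iff]
  rintro ⟨v, hv, hv'⟩
  let y : QA β fun _ => (1 : ℚ) := fun h => if hh : InC β I h then 0 else v ⟨h, hh⟩
  have hy : ∀ h, InC β I h → y h = 0 := fun h hh => dif_pos hh
  have hyv : (fun h' : {h // ¬ InC β I h} => y h') = v := funext fun h => dif_neg h.2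
  have hcomm : Commute x y := by
    rw [Commute, SemiconjBy, ← sub_eq_zero]
    ext h
    by_cases hh : InC β I h
    · rw [QA.sub_apply, QA.mul_apply, QA.mul_apply, Finset.sum_eq_zero, Finset.sum_eq_zero]
      · simp
      · intro a _
        by_cases ha : InL I (h - a)
        · rw [hy a (by simpa using hh.sub (ha.inC hβ))]; simp
        · rw [hx _ ha, mul_zero]
      · intro a _
        by_cases ha : InL I a
        · rw [hy _ (hh.sub (ha.inC hβ)), mul_zero]
        · rw [hx _ ha]; simp
    · have := adM_mulVec x y hy ⟨h, hh⟩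
      rw [hyv, hv'] at this
      exact this.symm
  have hu : ∀ i ∈ I, Commute (QA.u β _ (Pi.single i 1)) y := by
    intro i hi
    obtain ⟨c, hc⟩ := (Matrix.mulVec_surjective_iff_isUnit.2 ((Matrix.isUnit_iff_isUnit_det _).2
      h1.isUnit)) fun r => QA.u β (fun _ => (1 : ℚ)) (Pi.single i 1) (e r).1
    rw [← hz (∑ j, c j • x ^ (j : ℕ)) _ (SuppL.sum_smul _ _ _ fun j _ => hx.pow _)
      (SuppL.u (inL_single hi)) fun r => by rw [← powM_mulVec (fun r => (e r).1), hc]]
    exact Commute.sum_left _ _ _ fun j _ => (hcomm.pow_left _).smul_left _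
  apply hv
  rw [← hyv]
  ext ⟨h, hh⟩
  obtain ⟨i, hi, hne⟩ : ∃ i ∈ I, β h (Pi.single i 1) ≠ β (Pi.single i 1) h := by
    by_contra h'
    exact hh fun i hi => by by_contra h''; exact h' ⟨i, hi, h''⟩
  have := congrArg (fun z : QA β fun _ => (1 : ℚ) => z (h + Pi.single i 1)) (hu i hi).eq
  simp only [QA.u_mul_apply, QA.mul_u_apply, add_sub_cancel_right, cc, tw, one_pow,
    Finset.prod_const_one, mul_one] at this
  change y h = 0
  rcases zmod2_cases (β h (Pi.single i 1)) with h1 | h1 <;>
    rcases zmod2_cases (β (Pi.single i 1) h) with h2 | h2 <;>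
    simp only [h1, h2, ne_eq, not_true_eq_false, sg_zero, sg_one] at hne this <;> linarith

end Vale.Agent.P199
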