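import Vale.Agent.P199.Div2
import Vale.Agent.P199.Y1

/-! A good prime on which the generic element has bounded degree, and the cutting lemma. -/

set_option linter.unusedSectionVars false
set_option linter.unusedVariables false

namespace Vale.Agent.P199

open Finsupp MvPolynomial Matrix

variable {σ ι : Type} [Fintype σ] [DecidableEq σ] [Fintype ι] [DecidableEq ι] {β : BB ι}

lemma det_homog {n M : Type} [Fintype n] [DecidableEq n] [AddCommGroup M] {w : σ → M}
    (A : Matrix n n (MvPolynomial σ ℚ)) (s ρ : n → M)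
    (hA : ∀ r j, IsWeightedHomogeneous w (A r j) (s j - ρ r)) :
    IsWeightedHomogeneous w A.det (∑ j, s j - ∑ r, ρ r) := by
  rw [Matrix.det_apply']
  refine IsWeightedHomogeneous.sum _ _ _ fun π _ => ?_
  have h1 := IsWeightedHomogeneous.prod Finset.univ (fun j => A (π j) j) _ fun j _ => hA (π j) j
  rw [Finset.sum_sub_distrib, Equiv.sum_comp π ρ] at h1
  rw [← map_intCast (C : ℚ →+* MvPolynomial σ ℚ)]
  exact h1.C_mul _

/-- Weights for the generic element of degree `γ`. -/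
noncomputable def wY (γ : ι →₀ ℕ) : HH ι ⊕ ι → ι →₀ ℕ :=
  Sum.elim (fun h => γ - hv h) fun i => single i 2

variable (β) in
/-- The generic element. -/
noncomputable def gen : QA β (tX (HH ι) ι) := fun h => X (Sum.inl h)

lemma hv_le {γ : ι →₀ ℕ} (hγ : ∀ i, 2 ≤ γ i) (h : HH ι) : hv h ≤ γ := fun i => by
  have := ZMod.val_lt (h i)
  have := hγ i
  simp only [hv_apply]; omega

lemma wY_ne_zero [Nonempty ι] {γ : ι →₀ ℕ} (hγ : ∀ i, 2 ≤ γ i) (j : HH ι ⊕ ι) : wY γ j ≠ 0 := by
  rcases j with h | i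
  · intro h0
    obtain ⟨i⟩ := ‹Nonempty ι›
    have h1 := congrArg (fun f => f i) h0
    have := ZMod.val_lt (h i)
    have := hγ i
    simp [wY] at h1
    omega
  · simp [wY]

lemma cz_sub_hv {γ : ι →₀ ℕ} (hγ : ∀ i, 2 ≤ γ i) (h : HH ι) :
    cz (γ - hv h) = cz γ - cz (hv h) := by
  rw [eq_sub_iff_add_eq, ← map_add, tsub_add_cancel_of_le (hv_le hγ h)]

theorem exists_goodY [Nonempty ι] {γ : ι →₀ ℕ} (hγ : ∀ i, 2 ≤ γ i)
    (hγ2 : ∀ i, (γ i : ZMod 2) = 0) {I : Finset ι} (hβ : Iso β I) {d : ℕ}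
    (e : Fin d ≃ {h // InL I h}) :
    ∃ q c, Good (wY γ) (PI I) q c ∧ c ≤ (Finset.univ.filter (InC β I)).card ∧
      ∀ r : Fin (d + 1) → HH ι, (powM r (gen β)).det ∈ q := by
  have hw := wY_ne_zero hγ
  have ht : ∀ i, IsWeightedHomogeneous (wY γ) (tX (HH ι) ι i) (single i 2) := fun i =>
    isWeightedHomogeneous_X ℚ (wY γ) (Sum.inr i)
  have ha : DH (wY γ) (gen β) (cz γ) := fun h => by
    rw [← cz_sub_hv hγ]
    exact homog_cz.2 (isWeightedHomogeneous_X ℚ (wY γ) (Sum.inl h))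
  set a := gen β with ha_def
  set M : Matrix (Fin d) (Fin d) _ := powM (fun r => (e r).1) a with hM
  set v : Fin d → _ := fun r => (a ^ d) (e r).1 with hv_def
  set b := M.det • a ^ d - ∑ j, cramer M v j • a ^ (j : ℕ) with hb_def
  set n0 : ι → ℤ := (∑ j : Fin d, (j : ℕ) • cz γ - ∑ r, cz (hv (e r).1)) + d • cz γ with hn0
  have hb : DH (wY γ) b n0 := by
    refine DH.sub (DH.smul (det_homog M _ _ fun r j => ha.pow ht j _) (ha.pow ht d))
      (DH.sum _ _ fun j _ => ?_)
    have h1 := det_homog (w := wz (wY γ)) (M.updateCol j v)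
      (Function.update (fun j : Fin d => (j : ℕ) • cz γ) j (d • cz γ)) (fun r => cz (hv (e r).1))
      fun r k => by
        by_cases hk : k = j
        · subst hk; simpa using ha.pow ht d _
        · rw [updateCol_ne hk, Function.update_of_ne hk]; exact ha.pow ht k _
    have h2 := DH.smul h1 (ha.pow ht j)
    rw [cramer_apply]
    convert h2 using 1
    rw [hn0, Finset.sum_update_of_mem (Finset.mem_univ j),
      Finset.sum_eq_add_sum_sdiff_singleton_of_mem (Finset.mem_univ j)]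
    abel
  have hb0 : ∀ h, InL I h → b h = 0 := by
    intro h hh
    have h1 := powM_mulVec (fun r => (e r).1) a (cramer M v) (e.symm ⟨h, hh⟩)
    rw [← hM, mulVec_cramer] at h1
    simp only [Equiv.apply_symm_apply, Pi.smul_apply, hv_def] at h1
    rw [hb_def, QA.sub_apply, ← h1, QA.smul_apply, sub_self]
  choose δ hδ hδ' using fun h => exists_nat_deg (hb h)
  obtain ⟨q, c, -, h2, h3, h4⟩ := Good.multi_cut_prime hw (PI_prime I) (fun h => b h) δ
    (Finset.univ.filter fun h => InC β I h ∧ ¬ InL I h) (fun h _ => hδ h) (fun h hh hh' => by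
      refine (Finset.mem_filter.1 hh).2.2 fun i hi => ?_
      have h1 := (ell_mem_PI I _).1 hh' i hi
      rw [hδ', hn0] at h1
      simpa [hγ2, Finset.sum_apply, fun r => (e r).2 i hi] using h1)
    (good_bot hw (PI_prime I).ne_top)
  refine ⟨q, c, h4, h3.trans ?_, ?_⟩
  · rw [zero_add]
    exact Finset.card_le_card fun h hh => by
      simpa using (Finset.mem_filter.1 hh).2.1
  obtain ⟨x, hx, k1, k2⟩ := exists_regular hβ e
  let ψ : MvPolynomial (HH ι ⊕ ι) ℚ →+* ℚ := eval (Sum.elim (fun h => x h) fun _ => 1)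
  have hψt : ∀ i, ψ (tX (HH ι) ι i) = 1 := fun i => by simp [ψ]
  have hψa : QA.map ψ hψt a = x := by ext h; simp [ψ, ha_def, gen]
  have hψ : ∀ f ∈ q, ψ f = 0 := fun f hf => h4.map_eq_zero hw (PI_prime I) ψ (by
    rintro (h | i) hj
    · simp only [ψ, eval_X, Sum.elim_inl]
      refine hx h fun hh => hj ((ell_mem_PI I _).2 fun i hi => ?_)
      simp [wY, hh i hi, hγ2]
    · refine absurd ((ell_mem_PI I _).2 fun k hk => ?_) hj
      simp only [wY, Sum.elim_inr, Finsupp.single_apply]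
      split_ifs
      · rfl
      · simp) hf
  have := h4.prime
  have n1 : Ideal.Quotient.mk q M.det ≠ 0 := fun h => k1 (by
    rw [← hψa, ← powM_map, ← RingHom.mapMatrix_apply, ← RingHom.map_det]
    exact hψ _ (Ideal.Quotient.eq_zero_iff_mem.1 h))
  have n2 : Ideal.Quotient.mk q (adM I a).det ≠ 0 := fun h => k2 (by
    rw [← hψa, ← adM_map, ← RingHom.mapMatrix_apply, ← RingHom.map_det]
    exact hψ _ (Ideal.Quotient.eq_zero_iff_mem.1 h))
  let m := QA.map (β := β) (Ideal.Quotient.mk q) (t := tX (HH ι) ι) (fun _ => rfl)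
  have hmb : ∀ h, InC β I h → m b h = 0 := by
    intro h hh
    refine Ideal.Quotient.eq_zero_iff_mem.2 ?_
    by_cases hl : InL I h
    · rw [hb0 h hl]; exact q.zero_mem
    · exact h2 h (by simp [hh, hl])
  have hcomm : Commute a b := ((Commute.self_pow a d).smul_right _).sub_right
    (Commute.sum_right _ _ _ fun j _ => (Commute.self_pow a j).smul_right _)
  have hmb0 : m b = 0 := by
    rw [RingHom.map_det, RingHom.mapMatrix_apply, adM_map a _ (fun _ => rfl)] at n2
    have := Matrix.eq_zero_of_mulVec_eq_zero n2 (v := fun h => m b h.1) (by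
      ext h
      rw [adM_mulVec _ _ hmb, ← map_mul, ← map_mul, hcomm.eq, sub_self]; rfl)
    ext h
    by_cases hh : InC β I h
    · exact hmb h hh
    · exact congrFun this ⟨h, hh⟩
  intro r
  rw [← Ideal.Quotient.eq_zero_iff_mem, RingHom.map_det, RingHom.mapMatrix_apply,
    powM_map r a _ (fun _ => rfl), ← Matrix.exists_mulVec_eq_zero_iff]
  refine ⟨Fin.snoc (α := fun _ => _) (fun j => - Ideal.Quotient.mk q (cramer M v j))
    (Ideal.Quotient.mk q M.det), fun h => n1 (by simpa using congrFun h (Fin.last d)), ?_⟩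
  ext i
  rw [powM_mulVec, Fin.sum_univ_castSucc]
  simp only [Fin.snoc_castSucc, Fin.snoc_last, Fin.val_castSucc, Fin.val_last]
  rw [hb_def, map_sub, map_sum] at hmb0
  simp only [m, QA.map_smul', map_pow] at hmb0
  simp only [neg_smul, Finset.sum_neg_distrib]
  rw [neg_add_eq_sub, hmb0]; rfl

/-- Cutting a good prime so that a homogeneous element becomes algebraic of bounded degree. -/
theorem Good.cut_degree [Nonempty ι] {w : σ → ι →₀ ℕ} (hw : ∀ j, w j ≠ 0)
    {t : ι → MvPolynomial σ ℚ} (ht : ∀ i, IsWeightedHomogeneous w (t i) (single i 2))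
    {p : Ideal (MvPolynomial σ ℚ)} {c : ℕ} (hp : Good w (PI ∅) p c) {γ : ι →₀ ℕ}
    (hγ : ∀ i, 2 ≤ γ i) (hγ2 : ∀ i, (γ i : ZMod 2) = 0) {f : QA β t} (hf : DH w f (cz γ))
    {I : Finset ι} (hβ : Iso β I) {d : ℕ} (e : Fin d ≃ {h // InL I h}) :
    ∃ p' c', p ≤ p' ∧ c' ≤ c + (Finset.univ.filter (InC β I)).card ∧ Good w (PI ∅) p' c' ∧
      ∀ r : Fin (d + 1) → HH ι, (powM r f).det ∈ p' := by
  obtain ⟨q, c1, h1, h2, h3⟩ := exists_goodY hγ hγ2 hβ e
  obtain ⟨p', c', k1, k2, k3, k4⟩ := hp.pullback hw (wY_ne_zero hγ) (PI_prime ∅) h1.to_empty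
    (Sum.elim (fun h => f h) t) (by
      rintro (h | i)
      · exact homog_cz.1 (by
          change IsWeightedHomogeneous _ (f h) (cz (γ - hv h))
          rw [cz_sub_hv hγ]; exact hf h)
      · exact ht i)
  refine ⟨p', c', k1, by omega, k3, fun r => ?_⟩
  have h4 := k4 _ (h3 r)
  let φ : MvPolynomial (HH ι ⊕ ι) ℚ →+* MvPolynomial σ ℚ :=
    (aeval (Sum.elim (fun h => f h) t) : _ →ₐ[ℚ] _).toRingHom
  have hφ : ∀ i, φ (tX (HH ι) ι i) = t i := fun i => by simp [φ]
  have e1 : QA.map φ hφ (gen β) = f := by ext h : 1; simp [φ, gen]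
  change φ _ ∈ p' at h4
  rwa [RingHom.map_det, RingHom.mapMatrix_apply, powM_map r _ φ hφ, e1] at h4

end Vale.Agent.P199
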